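import Mathlib

/-!
# Support functions of class `C²₊`: definitions
-/

open Set

namespace Vale.Agent.Lib.P227L

variable {ι : Type*}

/-- The Wulff set of a function. -/
def wulff [Fintype ι] (f : (ι → ℝ) → ℝ) : Set (ι → ℝ) := {x | ∀ u, x ⬝ᵥ u ≤ f u}

/-- The reflection in the `i`th coordinate hyperplane. -/
def refl [DecidableEq ι] (i : ι) (x : ι → ℝ) : ι → ℝ := fun k => if k = i then - x k else x k

/-- The second derivative of a function on `ι → ℝ`. -/
noncomputable def D2 [Fintype ι] (G : (ι → ℝ) → ℝ) (ξ v w : ι → ℝ) : ℝ :=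
  fderiv ℝ (fderiv ℝ G) ξ v w

/-- Even functions, homogeneous of degree one, of class `C²` off the origin. -/
structure IsHom2 [Fintype ι] (G : (ι → ℝ) → ℝ) : Prop where
  cd : ContDiffOn ℝ 2 G {0}ᶜ
  even : ∀ ξ, G (-ξ) = G ξ
  smul : ∀ (r : ℝ) (ξ : ι → ℝ), 0 < r → G (r • ξ) = r * G ξ

/-- The support functions of origin-symmetric bodies of class `C²₊`: even, homogeneous of degree
one, positive off the origin, of class `C²` off the origin, and with second derivative positive
definite on every complement of the radial direction. -/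
structure IsC2Plus [Fintype ι] (h : (ι → ℝ) → ℝ) : Prop extends IsHom2 h where
  pos : ∀ ξ, ξ ≠ 0 → 0 < h ξ
  hess : ∀ ξ, ξ ≠ 0 → ∀ w, (∀ c : ℝ, w ≠ c • ξ) → 0 < D2 h ξ w w

end Vale.Agent.Lib.P227L
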