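import Mathlib
import Vale.Agent.Lib.P227L.Defs

/-!
# Support functions: definition
-/

namespace Vale.Agent.Lib.P227L

variable {ι : Type} [Fintype ι]

/-- `h` is the support function of `K`: for every `u`, the supremum of `⟨x, u⟩` over `x ∈ K` is
`h u` (this forces `K` to be nonempty and bounded in every direction). -/
def IsSupportFn (K : Set (ι → ℝ)) (h : (ι → ℝ) → ℝ) : Prop :=
  ∀ u, IsLUB ((fun x => x ⬝ᵥ u) '' K) (h u)

end Vale.Agent.Lib.P227L
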