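import Mathlib

/-!
# Second order expansions with cubic remainder
-/

open Filter Topology

namespace Vale.Agent.Lib.P227L

/-- Expansion of a function of one variable. -/
def T1 (f : ℝ → ℝ) (a b c : ℝ) : Prop :=
  ∃ K ρ : ℝ, 0 < ρ ∧ ∀ τ, |τ| ≤ ρ → |f τ - (a + b * τ + c * τ ^ 2)| ≤ K * |τ| ^ 3

/-- Expansion of a function of two variables. -/
def T2 (W : ℝ → ℝ → ℝ) (A B C D E F : ℝ) : Prop :=
  ∃ K ρ : ℝ, 0 < ρ ∧ ∀ s t, |s| ≤ ρ → |t| ≤ ρ →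
    |W s t - (A + B * s + C * t + D * s ^ 2 + E * (s * t) + F * t ^ 2)| ≤ K * (|s| + |t|) ^ 3

lemma T1.nonneg_const {f : ℝ → ℝ} {a b c : ℝ} (h : T1 f a b c) :
    ∃ K ρ : ℝ, 0 ≤ K ∧ 0 < ρ ∧ ∀ τ, |τ| ≤ ρ → |f τ - (a + b * τ + c * τ ^ 2)| ≤ K * |τ| ^ 3 := by
  obtain ⟨K, ρ, hρ, hb⟩ := h
  refine ⟨max K 0, ρ, le_max_right _ _, hρ, fun τ hτ => (hb τ hτ).trans ?_⟩
  exact mul_le_mul_of_nonneg_right (le_max_left _ _) (by positivity)

lemma T1.at_zero {f : ℝ → ℝ} {a b c : ℝ} (h : T1 f a b c) : f 0 = a := by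
  obtain ⟨K, ρ, hρ, hb⟩ := h
  have := hb 0 (by simpa using hρ.le)
  simp only [abs_zero, ne_eq, OfNat.ofNat_ne_zero, not_false_eq_true, zero_pow, mul_zero, add_zero,
    abs_nonpos_iff] at this
  linarith

/-- A polynomial vanishing to third order has zero coefficients. -/
lemma coeffs_zero {d₀ d₁ d₂ K ρ : ℝ} (hρ : 0 < ρ)
    (hb : ∀ τ, |τ| ≤ ρ → |d₀ + d₁ * τ + d₂ * τ ^ 2| ≤ K * |τ| ^ 3) : d₀ = 0 ∧ d₁ = 0 ∧ d₂ = 0 := by
  have h0 : d₀ = 0 := by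
    have := hb 0 (by simpa using hρ.le)
    simpa using this
  subst h0
  have hK : ∀ τ, τ ≠ 0 → |τ| ≤ ρ → |d₁ + d₂ * τ| ≤ K * τ ^ 2 := by
    intro τ hτ hτρ
    have h1 := hb τ hτρ
    have e : (0 : ℝ) + d₁ * τ + d₂ * τ ^ 2 = τ * (d₁ + d₂ * τ) := by ring
    rw [e, abs_mul] at h1
    have hp : 0 < |τ| := abs_pos.2 hτ
    have e2 : K * |τ| ^ 3 = |τ| * (K * τ ^ 2) := by
      rw [← sq_abs τ]
      ring
    rw [e2] at h1
    exact le_of_mul_le_mul_left h1 hp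
  have hev : ∀ᶠ τ in 𝓝[≠] (0 : ℝ), |d₁ + d₂ * τ| ≤ K * τ ^ 2 := by
    have h2 : ∀ᶠ τ in 𝓝 (0 : ℝ), |τ| ≤ ρ := by
      have : Metric.closedBall (0 : ℝ) ρ ∈ 𝓝 (0 : ℝ) := Metric.closedBall_mem_nhds _ hρ
      filter_upwards [this] with τ hτ
      simpa [Real.norm_eq_abs] using hτ
    filter_upwards [self_mem_nhdsWithin, nhdsWithin_le_nhds h2] with τ hτ hτ2
    exact hK τ hτ hτ2
  have hd1 : d₁ = 0 := by
    have l1 : Tendsto (fun τ : ℝ => |d₁ + d₂ * τ|) (𝓝[≠] 0) (𝓝 |d₁ + d₂ * 0|) :=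
      (Continuous.tendsto (by fun_prop) _).mono_left nhdsWithin_le_nhds
    have l2 : Tendsto (fun τ : ℝ => K * τ ^ 2) (𝓝[≠] 0) (𝓝 (K * 0 ^ 2)) :=
      (Continuous.tendsto (by fun_prop) _).mono_left nhdsWithin_le_nhds
    have := le_of_tendsto_of_tendsto l1 l2 hev
    simpa using this
  subst hd1
  have hK2 : ∀ τ, τ ≠ 0 → |τ| ≤ ρ → |d₂| ≤ K * |τ| := by
    intro τ hτ hτρ
    have h1 := hK τ hτ hτρ
    have hp : 0 < |τ| := abs_pos.2 hτ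
    rw [zero_add, abs_mul, ← sq_abs τ] at h1
    have e2 : K * |τ| ^ 2 = |τ| * (K * |τ|) := by ring
    rw [e2, mul_comm] at h1
    exact le_of_mul_le_mul_left h1 hp
  have hev2 : ∀ᶠ τ in 𝓝[≠] (0 : ℝ), |d₂| ≤ K * |τ| := by
    have h2 : ∀ᶠ τ in 𝓝 (0 : ℝ), |τ| ≤ ρ := by
      have : Metric.closedBall (0 : ℝ) ρ ∈ 𝓝 (0 : ℝ) := Metric.closedBall_mem_nhds _ hρ
      filter_upwards [this] with τ hτ
      simpa [Real.norm_eq_abs] using hτ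
    filter_upwards [self_mem_nhdsWithin, nhdsWithin_le_nhds h2] with τ hτ hτ2
    exact hK2 τ hτ hτ2
  have hd2 : d₂ = 0 := by
    have l2 : Tendsto (fun τ : ℝ => K * |τ|) (𝓝[≠] 0) (𝓝 (K * |(0 : ℝ)|)) :=
      (Continuous.tendsto (by fun_prop) _).mono_left nhdsWithin_le_nhds
    have h3 : |d₂| ≤ K * |(0 : ℝ)| := by
      refine ge_of_tendsto l2 ?_
      exact hev2
    simpa using h3
  exact ⟨rfl, rfl, hd2⟩

/-- Uniqueness of the expansion. -/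
lemma T1.unique {f : ℝ → ℝ} {a b c a' b' c' : ℝ} (h : T1 f a b c) (h' : T1 f a' b' c') :
    a = a' ∧ b = b' ∧ c = c' := by
  obtain ⟨K, ρ, hρ, hb⟩ := h
  obtain ⟨K', ρ', hρ', hb'⟩ := h'
  have := coeffs_zero (d₀ := a - a') (d₁ := b - b') (d₂ := c - c') (K := K + K') (ρ := min ρ ρ')
    (lt_min hρ hρ') (by
      intro τ hτ
      have h1 := hb τ (hτ.trans (min_le_left _ _))
      have h2 := hb' τ (hτ.trans (min_le_right _ _))
      have e : a - a' + (b - b') * τ + (c - c') * τ ^ 2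
          = (f τ - (a' + b' * τ + c' * τ ^ 2)) - (f τ - (a + b * τ + c * τ ^ 2)) := by ring
      rw [e]
      calc _ ≤ |f τ - (a' + b' * τ + c' * τ ^ 2)| + |f τ - (a + b * τ + c * τ ^ 2)| := abs_sub _ _
        _ ≤ K' * |τ| ^ 3 + K * |τ| ^ 3 := add_le_add h2 h1
        _ = _ := by ring)
  obtain ⟨h1, h2, h3⟩ := this
  exact ⟨by linarith, by linarith, by linarith⟩

lemma T1.add {f g : ℝ → ℝ} {a b c a' b' c' : ℝ} (h : T1 f a b c) (h' : T1 g a' b' c') :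
    T1 (fun τ => f τ + g τ) (a + a') (b + b') (c + c') := by
  obtain ⟨K, ρ, hρ, hb⟩ := h
  obtain ⟨K', ρ', hρ', hb'⟩ := h'
  refine ⟨K + K', min ρ ρ', lt_min hρ hρ', fun τ hτ => ?_⟩
  have h1 := hb τ (hτ.trans (min_le_left _ _))
  have h2 := hb' τ (hτ.trans (min_le_right _ _))
  have e : f τ + g τ - (a + a' + (b + b') * τ + (c + c') * τ ^ 2)
      = (f τ - (a + b * τ + c * τ ^ 2)) + (g τ - (a' + b' * τ + c' * τ ^ 2)) := by ring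
  rw [e]
  calc _ ≤ _ := abs_add_le _ _
    _ ≤ K * |τ| ^ 3 + K' * |τ| ^ 3 := add_le_add h1 h2
    _ = _ := by ring

lemma T1.const_mul {f : ℝ → ℝ} {a b c : ℝ} (h : T1 f a b c) (r : ℝ) :
    T1 (fun τ => r * f τ) (r * a) (r * b) (r * c) := by
  obtain ⟨K, ρ, hρ, hb⟩ := h
  refine ⟨|r| * K, ρ, hρ, fun τ hτ => ?_⟩
  have e : r * f τ - (r * a + r * b * τ + r * c * τ ^ 2) = r * (f τ - (a + b * τ + c * τ ^ 2)) := by
    ring
  rw [e, abs_mul, mul_assoc]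
  exact mul_le_mul_of_nonneg_left (hb τ hτ) (abs_nonneg r)

lemma T1.comp_neg {f : ℝ → ℝ} {a b c : ℝ} (h : T1 f a b c) : T1 (fun τ => f (-τ)) a (-b) c := by
  obtain ⟨K, ρ, hρ, hb⟩ := h
  refine ⟨K, ρ, hρ, fun τ hτ => ?_⟩
  have h1 := hb (-τ) (by rwa [abs_neg])
  rw [abs_neg] at h1
  have e : f (-τ) - (a + -b * τ + c * τ ^ 2) = f (-τ) - (a + b * -τ + c * (-τ) ^ 2) := by ring
  rw [e]
  exact h1

/-! ### Inequalities from expansions -/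

/-- If the even part lies below the constant up to third order, the second coefficient is
nonpositive. -/
lemma T1.le_of_even_le {f : ℝ → ℝ} {a b c C ρ₀ : ℝ} (h : T1 f a b c) (hρ₀ : 0 < ρ₀)
    (hle : ∀ τ, |τ| ≤ ρ₀ → f τ + f (-τ) ≤ 2 * a + C * |τ| ^ 3) : c ≤ 0 := by
  by_contra hc
  push_neg at hc
  obtain ⟨K, ρ, hK, hρ, hb⟩ := h.nonneg_const
  set L := |C| + 2 * K + 1 with hL
  have hLp : 0 < L := by positivity
  set τ := min (min ρ ρ₀) (c / L) with hτd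
  have hτp : 0 < τ := lt_min (lt_min hρ hρ₀) (div_pos hc hLp)
  have hτ1 : |τ| ≤ ρ := by
    rw [abs_of_pos hτp]
    exact (min_le_left _ _).trans (min_le_left _ _)
  have hτ2 : |τ| ≤ ρ₀ := by
    rw [abs_of_pos hτp]
    exact (min_le_left _ _).trans (min_le_right _ _)
  have hτ3 : τ * L ≤ c := by
    have : τ ≤ c / L := min_le_right _ _
    rwa [le_div_iff₀ hLp] at this
  have h1 := abs_le.1 (hb τ hτ1)
  have h2 := abs_le.1 (hb (-τ) (by rwa [abs_neg]))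
  have h3 := hle τ hτ2
  rw [abs_neg, abs_of_pos hτp] at h2
  rw [abs_of_pos hτp] at h1 h3
  have h4 : 2 * c * τ ^ 2 ≤ (C + 2 * K) * τ ^ 3 := by nlinarith [h1.1, h2.1]
  have h5 : C ≤ |C| := le_abs_self C
  have h6 : (C + 2 * K) * τ ^ 3 ≤ L * τ ^ 3 := by
    apply mul_le_mul_of_nonneg_right _ (by positivity)
    rw [hL]
    linarith
  have h7 : L * τ ^ 3 = (τ * L) * τ ^ 2 := by ring
  have h8 : (τ * L) * τ ^ 2 ≤ c * τ ^ 2 := mul_le_mul_of_nonneg_right hτ3 (by positivity)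
  have h9 : 0 < τ ^ 2 := by positivity
  nlinarith

/-- If a function is bounded above by its value at zero up to third order, the second coefficient
is nonpositive. -/
lemma T1.le_of_le {f : ℝ → ℝ} {a b c C ρ₀ : ℝ} (h : T1 f a b c) (hρ₀ : 0 < ρ₀)
    (hle : ∀ τ, |τ| ≤ ρ₀ → f τ ≤ a + C * |τ| ^ 3) : c ≤ 0 := by
  refine h.le_of_even_le (C := 2 * C) hρ₀ fun τ hτ => ?_
  have h1 := hle τ hτ
  have h2 := hle (-τ) (by rwa [abs_neg])
  rw [abs_neg] at h2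
  linarith

/-! ### Logarithm -/

lemma abs_log_one_add_sub_le {x : ℝ} (hx : |x| ≤ 1 / 2) : |Real.log (1 + x) - (x - x ^ 2 / 2)| ≤ |x| ^ 3 * 2 := by
  have h1 := Real.abs_log_sub_add_sum_range_le (x := -x) (by rw [abs_neg]; linarith) 2
  simp only [Finset.sum_range_succ, Finset.sum_range_zero, zero_add, sub_neg_eq_add, abs_neg] at h1
  have e : -x + (-x) ^ 2 / 2 + Real.log (1 + x) = Real.log (1 + x) - (x - x ^ 2 / 2) := by ring
  norm_num at h1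
  have e2 : -x + x ^ 2 / 2 + Real.log (1 + x) = Real.log (1 + x) - (x - x ^ 2 / 2) := by ring
  rw [e2] at h1
  refine h1.trans ?_
  have h2 : 1 / 2 ≤ 1 - |x| := by linarith
  rw [div_le_iff₀ (by linarith)]
  have h3 : 0 ≤ |x| ^ 3 := by positivity
  nlinarith

/-- Functions of third order at zero. -/
def O3 (r : ℝ → ℝ) : Prop := ∃ K ρ : ℝ, 0 < ρ ∧ ∀ τ, |τ| ≤ ρ → |r τ| ≤ K * |τ| ^ 3

lemma O3.nonneg_const {r : ℝ → ℝ} (h : O3 r) :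
    ∃ K ρ : ℝ, 0 ≤ K ∧ 0 < ρ ∧ ∀ τ, |τ| ≤ ρ → |r τ| ≤ K * |τ| ^ 3 := by
  obtain ⟨K, ρ, hρ, hb⟩ := h
  refine ⟨max K 0, ρ, le_max_right _ _, hρ, fun τ hτ => (hb τ hτ).trans ?_⟩
  exact mul_le_mul_of_nonneg_right (le_max_left _ _) (by positivity)

lemma O3.add {r s : ℝ → ℝ} (h : O3 r) (h' : O3 s) : O3 fun τ => r τ + s τ := by
  obtain ⟨K, ρ, hρ, hb⟩ := h
  obtain ⟨K', ρ', hρ', hb'⟩ := h'
  refine ⟨K + K', min ρ ρ', lt_min hρ hρ', fun τ hτ => ?_⟩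
  have h1 := hb τ (hτ.trans (min_le_left _ _))
  have h2 := hb' τ (hτ.trans (min_le_right _ _))
  calc _ ≤ _ := abs_add_le _ _
    _ ≤ K * |τ| ^ 3 + K' * |τ| ^ 3 := add_le_add h1 h2
    _ = _ := by ring

lemma O3.neg {r : ℝ → ℝ} (h : O3 r) : O3 fun τ => - r τ := by
  obtain ⟨K, ρ, hρ, hb⟩ := h
  exact ⟨K, ρ, hρ, fun τ hτ => by rw [abs_neg]; exact hb τ hτ⟩

lemma O3.sub {r s : ℝ → ℝ} (h : O3 r) (h' : O3 s) : O3 fun τ => r τ - s τ := by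
  simpa [sub_eq_add_neg] using h.add h'.neg

lemma O3.mul_bdd {r s : ℝ → ℝ} (h : O3 r) {M ρ₀ : ℝ} (hρ₀ : 0 < ρ₀)
    (hs : ∀ τ, |τ| ≤ ρ₀ → |s τ| ≤ M) : O3 fun τ => r τ * s τ := by
  obtain ⟨K, ρ, hK, hρ, hb⟩ := h.nonneg_const
  refine ⟨K * M, min ρ ρ₀, lt_min hρ hρ₀, fun τ hτ => ?_⟩
  have h1 := hb τ (hτ.trans (min_le_left _ _))
  have h2 := hs τ (hτ.trans (min_le_right _ _))
  rw [abs_mul]
  calc |r τ| * |s τ| ≤ (K * |τ| ^ 3) * M :=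
        mul_le_mul h1 h2 (abs_nonneg _) (by positivity)
    _ = _ := by ring

lemma O3_cube (c : ℝ) : O3 fun τ => c * τ ^ 3 := by
  refine ⟨|c|, 1, one_pos, fun τ _ => ?_⟩
  rw [abs_mul, abs_pow]

lemma O3_quart (c : ℝ) : O3 fun τ => c * τ ^ 4 := by
  refine ⟨|c|, 1, one_pos, fun τ hτ => ?_⟩
  rw [abs_mul, abs_pow]
  apply mul_le_mul_of_nonneg_left _ (abs_nonneg c)
  have : |τ| ^ 4 = |τ| ^ 3 * |τ| := by ring
  rw [this]
  have h0 : 0 ≤ |τ| ^ 3 := by positivity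
  nlinarith

lemma O3.of_eq {r s : ℝ → ℝ} (h : O3 s) {ρ₀ : ℝ} (hρ₀ : 0 < ρ₀)
    (he : ∀ τ, |τ| ≤ ρ₀ → r τ = s τ) : O3 r := by
  obtain ⟨K, ρ, hρ, hb⟩ := h
  refine ⟨K, min ρ ρ₀, lt_min hρ hρ₀, fun τ hτ => ?_⟩
  rw [he τ (hτ.trans (min_le_right _ _))]
  exact hb τ (hτ.trans (min_le_left _ _))

lemma T1_iff {f : ℝ → ℝ} {a b c : ℝ} :
    T1 f a b c ↔ O3 fun τ => f τ - (a + b * τ + c * τ ^ 2) := Iff.rfl

/-- The logarithm of an expansion. -/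
lemma T1.log {f : ℝ → ℝ} {a b c : ℝ} (h : T1 f a b c) (ha : 0 < a) :
    T1 (fun τ => Real.log (f τ)) (Real.log a) (b / a) (c / a - b ^ 2 / (2 * a ^ 2)) := by
  obtain ⟨K, ρ, hK, hρ, hb⟩ := h.nonneg_const
  set β := b / a with hβ
  set γ := c / a with hγ
  -- the relative remainder
  set x : ℝ → ℝ := fun τ => f τ / a - 1 with hx
  set r : ℝ → ℝ := fun τ => x τ - (β * τ + γ * τ ^ 2) with hr
  have hrO : O3 r := by
    refine ⟨K / a, ρ, hρ, fun τ hτ => ?_⟩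
    have e : r τ = (f τ - (a + b * τ + c * τ ^ 2)) / a := by
      simp only [hr, hx, hβ, hγ]
      field_simp
      ring
    rw [e, abs_div, abs_of_pos ha, div_le_iff₀ ha]
    have := hb τ hτ
    calc _ ≤ K * |τ| ^ 3 := this
      _ = _ := by field_simp
  obtain ⟨K₁, ρ₁, hK₁, hρ₁, hb₁⟩ := hrO.nonneg_const
  set M := |β| + |γ| + K₁ + 1 with hM
  have hMp : 0 < M := by positivity
  set ρ₂ := min (min ρ₁ 1) (1 / (2 * M)) with hρ₂
  have hρ₂p : 0 < ρ₂ := lt_min (lt_min hρ₁ one_pos) (by positivity)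
  have hτb : ∀ τ, |τ| ≤ ρ₂ → |τ| ≤ ρ₁ ∧ |τ| ≤ 1 ∧ |τ| * M ≤ 1 / 2 := by
    intro τ hτ
    refine ⟨hτ.trans ((min_le_left _ _).trans (min_le_left _ _)),
      hτ.trans ((min_le_left _ _).trans (min_le_right _ _)), ?_⟩
    have : |τ| ≤ 1 / (2 * M) := hτ.trans (min_le_right _ _)
    have e : 1 / (2 * M) * M = 1 / 2 := by field_simp
    calc |τ| * M ≤ 1 / (2 * M) * M := mul_le_mul_of_nonneg_right this hMp.le
      _ = 1 / 2 := e
  -- x is small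
  have hxb : ∀ τ, |τ| ≤ ρ₂ → |x τ| ≤ M * |τ| := by
    intro τ hτ
    obtain ⟨h1, h2, _⟩ := hτb τ hτ
    have hτ0 := abs_nonneg τ
    have h3 := hb₁ τ h1
    have e : x τ = r τ + β * τ + γ * τ ^ 2 := by simp only [hr]; ring
    rw [e]
    have h4 := abs_add_le (r τ + β * τ) (γ * τ ^ 2)
    have h5 := abs_add_le (r τ) (β * τ)
    rw [abs_mul β τ] at h5
    rw [abs_mul γ, abs_pow] at h4
    have h6 : |τ| ^ 3 ≤ |τ| := by
      have : |τ| ^ 3 = |τ| * |τ| ^ 2 := by ring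
      rw [this]
      have h7 : |τ| ^ 2 ≤ 1 := pow_le_one₀ hτ0 h2
      nlinarith
    have h8 : |τ| ^ 2 ≤ |τ| := by nlinarith
    have h9 : K₁ * |τ| ^ 3 ≤ K₁ * |τ| := mul_le_mul_of_nonneg_left h6 hK₁
    have h10 : |γ| * |τ| ^ 2 ≤ |γ| * |τ| := mul_le_mul_of_nonneg_left h8 (abs_nonneg γ)
    rw [hM]
    nlinarith [mul_nonneg (abs_nonneg β) hτ0]
  -- the logarithmic part
  have hA : O3 fun τ => Real.log (1 + x τ) - (x τ - x τ ^ 2 / 2) := by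
    refine ⟨2 * M ^ 3, ρ₂, hρ₂p, fun τ hτ => ?_⟩
    obtain ⟨_, _, h3⟩ := hτb τ hτ
    have h4 := hxb τ hτ
    have h5 : |x τ| ≤ 1 / 2 := h4.trans (by rw [mul_comm]; exact h3)
    refine (abs_log_one_add_sub_le h5).trans ?_
    have h1 : |x τ| ^ 3 ≤ (M * |τ|) ^ 3 := pow_le_pow_left₀ (abs_nonneg _) h4 3
    rw [mul_pow] at h1
    nlinarith [pow_nonneg (abs_nonneg τ) 3]
  -- the remaining polynomial terms
  have hs : ∀ τ, |τ| ≤ min ρ₁ 1 → |1 - (β * τ + γ * τ ^ 2 + r τ / 2)| ≤ 1 + |β| + |γ| + K₁ := by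
    intro τ hτ
    have h1 := hτ.trans (min_le_left _ _)
    have h2 := hτ.trans (min_le_right _ _)
    have hτ0 := abs_nonneg τ
    have h3 := hb₁ τ h1
    have h4 : |τ| ^ 2 ≤ 1 := pow_le_one₀ hτ0 h2
    have h5 : |τ| ^ 3 ≤ 1 := pow_le_one₀ hτ0 h2
    have h6 : |β * τ| ≤ |β| := by
      rw [abs_mul]
      nlinarith [abs_nonneg β]
    have h7 : |γ * τ ^ 2| ≤ |γ| := by
      rw [abs_mul, abs_pow]
      nlinarith [abs_nonneg γ]
    have h8 : |r τ / 2| ≤ K₁ := by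
      rw [abs_div, abs_of_pos (show (0 : ℝ) < 2 by norm_num)]
      nlinarith [abs_nonneg (r τ)]
    have h9 := abs_sub (1 : ℝ) (β * τ + γ * τ ^ 2 + r τ / 2)
    have h10 := abs_add_le (β * τ + γ * τ ^ 2) (r τ / 2)
    have h11 := abs_add_le (β * τ) (γ * τ ^ 2)
    rw [abs_one] at h9
    linarith
  have hB : O3 fun τ => r τ * (1 - (β * τ + γ * τ ^ 2 + r τ / 2)) :=
    hrO.mul_bdd (lt_min hρ₁ one_pos) hs
  have hC := (O3_cube (β * γ)).add (O3_quart (γ ^ 2 / 2))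
  have hall := (hA.add hB).sub hC
  have e2 : c / a - b ^ 2 / (2 * a ^ 2) = γ - β ^ 2 / 2 := by
    rw [hβ, hγ]
    field_simp
  rw [T1_iff, e2]
  refine hall.of_eq hρ₂p fun τ hτ => ?_
  obtain ⟨_, _, h3⟩ := hτb τ hτ
  have h4 := hxb τ hτ
  have h5 : |x τ| ≤ 1 / 2 := h4.trans (by rw [mul_comm]; exact h3)
  have hx1 : 0 < 1 + x τ := by linarith [(abs_le.1 h5).1]
  have hfx : f τ = a * (1 + x τ) := by
    simp only [hx]
    field_simp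
    ring
  rw [hfx, Real.log_mul ha.ne' hx1.ne']
  have hxr : x τ = β * τ + γ * τ ^ 2 + r τ := by simp only [hr]; ring
  rw [hxr]
  ring

end Vale.Agent.Lib.P227L
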