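import Mathlib
import Vale.Agent.Lib.P227L.Taylor

/-!
# Second order expansions in two variables
-/

open Filter Topology

namespace Vale.Agent.Lib.P227L

lemma T2.add {W W' : ℝ → ℝ → ℝ} {A B C D E F A' B' C' D' E' F' : ℝ} (h : T2 W A B C D E F)
    (h' : T2 W' A' B' C' D' E' F') :
    T2 (fun s t => W s t + W' s t) (A + A') (B + B') (C + C') (D + D') (E + E') (F + F') := by
  obtain ⟨K, ρ, hρ, hb⟩ := h
  obtain ⟨K', ρ', hρ', hb'⟩ := h'
  refine ⟨K + K', min ρ ρ', lt_min hρ hρ', fun s t hs ht => ?_⟩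
  have h1 := hb s t (hs.trans (min_le_left _ _)) (ht.trans (min_le_left _ _))
  have h2 := hb' s t (hs.trans (min_le_right _ _)) (ht.trans (min_le_right _ _))
  have e : W s t + W' s t - (A + A' + (B + B') * s + (C + C') * t + (D + D') * s ^ 2
        + (E + E') * (s * t) + (F + F') * t ^ 2)
      = (W s t - (A + B * s + C * t + D * s ^ 2 + E * (s * t) + F * t ^ 2))
        + (W' s t - (A' + B' * s + C' * t + D' * s ^ 2 + E' * (s * t) + F' * t ^ 2)) := by ring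
  rw [e]
  calc _ ≤ _ := abs_add_le _ _
    _ ≤ K * (|s| + |t|) ^ 3 + K' * (|s| + |t|) ^ 3 := add_le_add h1 h2
    _ = _ := by ring

lemma T2.const_mul {W : ℝ → ℝ → ℝ} {A B C D E F : ℝ} (h : T2 W A B C D E F) (r : ℝ) :
    T2 (fun s t => r * W s t) (r * A) (r * B) (r * C) (r * D) (r * E) (r * F) := by
  obtain ⟨K, ρ, hρ, hb⟩ := h
  refine ⟨|r| * K, ρ, hρ, fun s t hs ht => ?_⟩
  have e : r * W s t - (r * A + r * B * s + r * C * t + r * D * s ^ 2 + r * E * (s * t) + r * F * t ^ 2)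
      = r * (W s t - (A + B * s + C * t + D * s ^ 2 + E * (s * t) + F * t ^ 2)) := by ring
  rw [e, abs_mul, mul_assoc]
  exact mul_le_mul_of_nonneg_left (hb s t hs ht) (abs_nonneg r)

lemma exists_poly_bound (p : Polynomial ℝ) : ∃ M : ℝ, 0 ≤ M ∧ ∀ x : ℝ, |x| ≤ 1 → |p.eval x| ≤ M := by
  obtain ⟨M, hM⟩ := (isCompact_Icc (a := (-1 : ℝ)) (b := 1)).exists_bound_of_continuousOn
    (f := fun x => p.eval x) p.continuous.continuousOn
  refine ⟨max M 0, le_max_right _ _, fun x hx => ?_⟩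
  have := hM x (abs_le.1 hx)
  rw [Real.norm_eq_abs] at this
  exact this.trans (le_max_left _ _)

lemma poly_expand (p : Polynomial ℝ) (x : ℝ) :
    p.eval x = p.coeff 0 + p.coeff 1 * x + p.coeff 2 * x ^ 2 + x ^ 3 * p.divX.divX.divX.eval x := by
  have h1 : ∀ q : Polynomial ℝ, q.eval x = q.coeff 0 + x * q.divX.eval x := by
    intro q
    conv_lhs => rw [← Polynomial.divX_mul_X_add q]
    simp [Polynomial.eval_add, Polynomial.eval_mul]
    ring
  rw [h1 p, h1 p.divX, h1 p.divX.divX]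
  simp only [Polynomial.coeff_divX]
  ring

lemma monomial_bounds {x y : ℝ} (hx : 0 ≤ x) (hy : 0 ≤ y) :
    x ^ 3 ≤ (x + y) ^ 3 ∧ y ^ 3 ≤ (x + y) ^ 3 ∧ x * y ^ 2 ≤ (x + y) ^ 3 ∧ x ^ 2 * y ≤ (x + y) ^ 3 := by
  have h1 : 0 ≤ x * y := mul_nonneg hx hy
  have h2 : 0 ≤ x ^ 2 * y := by positivity
  have h3 : 0 ≤ x * y ^ 2 := by positivity
  have h4 : 0 ≤ x ^ 3 := by positivity
  have h5 : 0 ≤ y ^ 3 := by positivity
  have e : (x + y) ^ 3 = x ^ 3 + 3 * (x ^ 2 * y) + 3 * (x * y ^ 2) + y ^ 3 := by ring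
  rw [e]
  refine ⟨by linarith, by linarith, by linarith, by linarith⟩

/-- The expansion of a product of polynomials. -/
lemma T2_poly_mul (p q : Polynomial ℝ) :
    T2 (fun s t => p.eval s * q.eval t)
      (p.coeff 0 * q.coeff 0) (p.coeff 1 * q.coeff 0) (p.coeff 0 * q.coeff 1)
      (p.coeff 2 * q.coeff 0) (p.coeff 1 * q.coeff 1) (p.coeff 0 * q.coeff 2) := by
  set a := p.coeff 0
  set b := p.coeff 1
  set c := p.coeff 2
  set a' := q.coeff 0
  set b' := q.coeff 1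
  set c' := q.coeff 2
  obtain ⟨MP, hMP, hP⟩ := exists_poly_bound p.divX.divX.divX
  obtain ⟨MQ, hMQ, hQ⟩ := exists_poly_bound q.divX.divX.divX
  obtain ⟨Mq, hMq, hq⟩ := exists_poly_bound q
  refine ⟨MP * Mq + MQ * (|a| + |b| + |c|) + (|b| * |c'| + |c| * |c'|) + |c| * |b'|, 1, one_pos,
    fun s t hs ht => ?_⟩
  have hs0 := abs_nonneg s
  have ht0 := abs_nonneg t
  obtain ⟨m1, m2, m3, m4⟩ := monomial_bounds hs0 ht0
  have e : p.eval s * q.eval t - (a * a' + b * a' * s + a * b' * t + c * a' * s ^ 2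
        + b * b' * (s * t) + a * c' * t ^ 2)
      = s ^ 3 * (p.divX.divX.divX.eval s * q.eval t)
        + t ^ 3 * (q.divX.divX.divX.eval t * (a + b * s + c * s ^ 2))
        + (s * t ^ 2) * (b * c' + c * c' * s) + (s ^ 2 * t) * (c * b') := by
    rw [poly_expand p s]
    conv_lhs => rw [poly_expand q t]
    conv_rhs => rw [poly_expand q t]
    ring
  rw [e]
  have t1 : |s ^ 3 * (p.divX.divX.divX.eval s * q.eval t)| ≤ MP * Mq * |s| ^ 3 := by
    rw [abs_mul, abs_pow, abs_mul, mul_comm]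
    exact mul_le_mul_of_nonneg_right (mul_le_mul (hP s hs) (hq t ht) (abs_nonneg _) hMP)
      (by positivity)
  have hs2 : |s| ^ 2 ≤ 1 := pow_le_one₀ hs0 hs
  have t2 : |t ^ 3 * (q.divX.divX.divX.eval t * (a + b * s + c * s ^ 2))|
      ≤ MQ * (|a| + |b| + |c|) * |t| ^ 3 := by
    rw [abs_mul, abs_pow, abs_mul, mul_comm]
    refine mul_le_mul_of_nonneg_right (mul_le_mul (hQ t ht) ?_ (abs_nonneg _) hMQ) (by positivity)
    have h1 := abs_add_le (a + b * s) (c * s ^ 2)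
    have h2 := abs_add_le a (b * s)
    rw [abs_mul b] at h2
    rw [abs_mul c, abs_pow] at h1
    nlinarith [abs_nonneg b, abs_nonneg c]
  have t3 : |(s * t ^ 2) * (b * c' + c * c' * s)| ≤ (|b| * |c'| + |c| * |c'|) * (|s| * |t| ^ 2) := by
    rw [abs_mul, abs_mul s, abs_pow, mul_comm]
    refine mul_le_mul_of_nonneg_right ?_ (by positivity)
    have h1 := abs_add_le (b * c') (c * c' * s)
    rw [abs_mul b, abs_mul (c * c'), abs_mul c] at h1
    nlinarith [mul_nonneg (abs_nonneg c) (abs_nonneg c')]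
  have t4 : |(s ^ 2 * t) * (c * b')| = |c| * |b'| * (|s| ^ 2 * |t|) := by
    rw [abs_mul, abs_mul (s ^ 2), abs_pow, abs_mul c]
    ring
  have hsum : |s ^ 3 * (p.divX.divX.divX.eval s * q.eval t)
        + t ^ 3 * (q.divX.divX.divX.eval t * (a + b * s + c * s ^ 2))
        + (s * t ^ 2) * (b * c' + c * c' * s) + (s ^ 2 * t) * (c * b')|
      ≤ MP * Mq * |s| ^ 3 + MQ * (|a| + |b| + |c|) * |t| ^ 3
        + (|b| * |c'| + |c| * |c'|) * (|s| * |t| ^ 2) + |c| * |b'| * (|s| ^ 2 * |t|) := by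
    refine (abs_add_le _ _).trans (add_le_add ((abs_add_le _ _).trans (add_le_add
      ((abs_add_le _ _).trans (add_le_add t1 t2)) t3)) t4.le)
  refine hsum.trans ?_
  have c1 : 0 ≤ MP * Mq := by positivity
  have c2 : 0 ≤ MQ * (|a| + |b| + |c|) := by positivity
  have c3 : 0 ≤ |b| * |c'| + |c| * |c'| := by positivity
  have c4 : 0 ≤ |c| * |b'| := by positivity
  have := mul_le_mul_of_nonneg_left m1 c1
  have := mul_le_mul_of_nonneg_left m2 c2
  have := mul_le_mul_of_nonneg_left m3 c3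
  have := mul_le_mul_of_nonneg_left m4 c4
  linarith

/-- Existence of an expansion. -/
def T2ex (W : ℝ → ℝ → ℝ) : Prop := ∃ A B C D E F, T2 W A B C D E F

lemma T2ex.sum {κ : Type*} [DecidableEq κ] (S : Finset κ) {W : κ → ℝ → ℝ → ℝ}
    (h : ∀ k ∈ S, T2ex (W k)) : T2ex fun s t => ∑ k ∈ S, W k s t := by
  induction S using Finset.induction_on with
  | empty =>
    refine ⟨0, 0, 0, 0, 0, 0, 0, 1, one_pos, fun s t _ _ => ?_⟩
    simp
  | insert a S ha ih =>
    obtain ⟨A, B, C, D, E, F, h1⟩ := h a (Finset.mem_insert_self _ _)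
    obtain ⟨A', B', C', D', E', F', h2⟩ := ih fun k hk => h k (Finset.mem_insert_of_mem hk)
    refine ⟨A + A', B + B', C + C', D + D', E + E', F + F', ?_⟩
    simp_rw [Finset.sum_insert ha]
    exact h1.add h2

lemma T2.congr {W W' : ℝ → ℝ → ℝ} {A B C D E F ρ₀ : ℝ} (h : T2 W A B C D E F) (hρ₀ : 0 < ρ₀)
    (he : ∀ s t, |s| ≤ ρ₀ → |t| ≤ ρ₀ → W' s t = W s t) : T2 W' A B C D E F := by
  obtain ⟨K, ρ, hρ, hb⟩ := h
  refine ⟨K, min ρ ρ₀, lt_min hρ hρ₀, fun s t hs ht => ?_⟩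
  rw [he s t (hs.trans (min_le_right _ _)) (ht.trans (min_le_right _ _))]
  exact hb s t (hs.trans (min_le_left _ _)) (ht.trans (min_le_left _ _))

/-- Restriction of an expansion to a parabola. -/
lemma T2.curve {W : ℝ → ℝ → ℝ} {A B C D E F : ℝ} (h : T2 W A B C D E F) (a b c d : ℝ) :
    T1 (fun τ => W (a * τ + b * τ ^ 2) (c * τ + d * τ ^ 2)) A (B * a + C * c)
      (B * b + C * d + D * a ^ 2 + E * (a * c) + F * c ^ 2) := by
  obtain ⟨K, ρ, hρ, hb⟩ := h
  set L := |a| + |b| + |c| + |d| with hL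
  have hL0 : 0 ≤ L := by positivity
  set ρ₁ := min 1 (ρ / (L + 1)) with hρ₁
  have hρ₁p : 0 < ρ₁ := lt_min one_pos (by positivity)
  have hbd : ∀ τ, |τ| ≤ ρ₁ → |a * τ + b * τ ^ 2| ≤ L * |τ| ∧ |c * τ + d * τ ^ 2| ≤ L * |τ| := by
    intro τ hτ
    have h1 : |τ| ≤ 1 := hτ.trans (min_le_left _ _)
    have h0 := abs_nonneg τ
    have h2 : |τ| ^ 2 ≤ |τ| := by nlinarith
    constructor
    · have h3 := abs_add_le (a * τ) (b * τ ^ 2)
      rw [abs_mul a, abs_mul b, abs_pow] at h3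
      have := mul_le_mul_of_nonneg_left h2 (abs_nonneg b)
      have := mul_nonneg (abs_nonneg c) h0
      have := mul_nonneg (abs_nonneg d) h0
      rw [hL]
      nlinarith
    · have h3 := abs_add_le (c * τ) (d * τ ^ 2)
      rw [abs_mul c, abs_mul d, abs_pow] at h3
      have := mul_le_mul_of_nonneg_left h2 (abs_nonneg d)
      have := mul_nonneg (abs_nonneg a) h0
      have := mul_nonneg (abs_nonneg b) h0
      rw [hL]
      nlinarith
  have hρbox : ∀ τ, |τ| ≤ ρ₁ → L * |τ| ≤ ρ := by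
    intro τ hτ
    have h1 : |τ| ≤ ρ / (L + 1) := hτ.trans (min_le_right _ _)
    have h2 : (L + 1) * |τ| ≤ ρ := by
      rw [le_div_iff₀ (by positivity)] at h1
      linarith
    have := abs_nonneg τ
    nlinarith
  have hrem : O3 fun τ => W (a * τ + b * τ ^ 2) (c * τ + d * τ ^ 2)
      - (A + B * (a * τ + b * τ ^ 2) + C * (c * τ + d * τ ^ 2) + D * (a * τ + b * τ ^ 2) ^ 2
        + E * ((a * τ + b * τ ^ 2) * (c * τ + d * τ ^ 2)) + F * (c * τ + d * τ ^ 2) ^ 2) := by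
    refine ⟨max K 0 * (2 * L) ^ 3, ρ₁, hρ₁p, fun τ hτ => ?_⟩
    obtain ⟨h1, h2⟩ := hbd τ hτ
    have h3 := hρbox τ hτ
    have h4 := hb _ _ (h1.trans h3) (h2.trans h3)
    refine h4.trans ?_
    have h5 : |a * τ + b * τ ^ 2| + |c * τ + d * τ ^ 2| ≤ 2 * L * |τ| := by linarith
    have h6 : (|a * τ + b * τ ^ 2| + |c * τ + d * τ ^ 2|) ^ 3 ≤ (2 * L * |τ|) ^ 3 :=
      pow_le_pow_left₀ (by positivity) h5 3
    calc K * (|a * τ + b * τ ^ 2| + |c * τ + d * τ ^ 2|) ^ 3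
        ≤ max K 0 * (|a * τ + b * τ ^ 2| + |c * τ + d * τ ^ 2|) ^ 3 :=
          mul_le_mul_of_nonneg_right (le_max_left _ _) (by positivity)
      _ ≤ max K 0 * (2 * L * |τ|) ^ 3 := mul_le_mul_of_nonneg_left h6 (le_max_right _ _)
      _ = _ := by rw [mul_pow]; ring
  have hall := (hrem.add (O3_cube (2 * a * b * D + E * (a * d + b * c) + 2 * c * d * F))).add
    (O3_quart (b ^ 2 * D + b * d * E + d ^ 2 * F))
  rw [T1_iff]
  refine hall.of_eq one_pos fun τ _ => ?_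
  ring

end Vale.Agent.Lib.P227L
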