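import Mathlib
import Vale.Agent.Lib.P227L.Defs

/-!
# Calculus of homogeneous functions
-/

open Set Filter Topology

namespace Vale.Agent.Lib.P227L

variable {ι : Type*} [Fintype ι]
variable {G G₁ G₂ : (ι → ℝ) → ℝ} {ξ v w : ι → ℝ}

lemma mem_nhds_of_ne (hξ : ξ ≠ 0) : ({0}ᶜ : Set (ι → ℝ)) ∈ 𝓝 ξ :=
  isOpen_compl_singleton.mem_nhds hξ

namespace IsHom2

lemma contDiffAt (hG : IsHom2 G) (hξ : ξ ≠ 0) : ContDiffAt ℝ 2 G ξ :=
  hG.cd.contDiffAt (mem_nhds_of_ne hξ)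

lemma differentiableAt (hG : IsHom2 G) (hξ : ξ ≠ 0) : DifferentiableAt ℝ G ξ :=
  (hG.contDiffAt hξ).differentiableAt (by norm_num)

lemma contDiffAt_fderiv (hG : IsHom2 G) (hξ : ξ ≠ 0) : ContDiffAt ℝ 1 (fderiv ℝ G) ξ :=
  (hG.contDiffAt hξ).fderiv_right (m := 1) (by norm_num)

lemma differentiableAt_fderiv (hG : IsHom2 G) (hξ : ξ ≠ 0) : DifferentiableAt ℝ (fderiv ℝ G) ξ :=
  (hG.contDiffAt_fderiv hξ).differentiableAt (by norm_num)

lemma hasFDerivAt (hG : IsHom2 G) (hξ : ξ ≠ 0) : HasFDerivAt G (fderiv ℝ G ξ) ξ :=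
  (hG.differentiableAt hξ).hasFDerivAt

lemma hasFDerivAt_fderiv (hG : IsHom2 G) (hξ : ξ ≠ 0) :
    HasFDerivAt (fderiv ℝ G) (fderiv ℝ (fderiv ℝ G) ξ) ξ :=
  (hG.differentiableAt_fderiv hξ).hasFDerivAt

lemma zero (hG : IsHom2 G) : G 0 = 0 := by
  have := hG.smul 2 0 (by norm_num)
  simp only [smul_zero] at this
  linarith

lemma smul_ne_zero' {r : ℝ} (hr : 0 < r) (hξ : ξ ≠ 0) : r • ξ ≠ 0 :=
  smul_ne_zero hr.ne' hξ

/-- The gradient is homogeneous of degree zero. -/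
lemma fderiv_smul (hG : IsHom2 G) {r : ℝ} (hr : 0 < r) (hξ : ξ ≠ 0) :
    fderiv ℝ G (r • ξ) = fderiv ℝ G ξ := by
  have h1 : HasFDerivAt (fun x : ι → ℝ => G (r • x))
      ((fderiv ℝ G (r • ξ)).comp (r • ContinuousLinearMap.id ℝ (ι → ℝ))) ξ := by
    have h0 : HasFDerivAt (fun x : ι → ℝ => r • x) (r • ContinuousLinearMap.id ℝ (ι → ℝ)) ξ :=
      (hasFDerivAt_id ξ).const_smul r
    exact (hG.hasFDerivAt (smul_ne_zero' hr hξ)).comp ξ h0
  have h2 : HasFDerivAt (fun x : ι → ℝ => r * G x) (r • fderiv ℝ G ξ) ξ :=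
    (hG.hasFDerivAt hξ).const_mul r
  have e : (fun x : ι → ℝ => G (r • x)) = fun x => r * G x := by
    funext x
    exact hG.smul r x hr
  rw [e] at h1
  have h3 := h1.unique h2
  ext v
  have h4 := congrArg (fun L : (ι → ℝ) →L[ℝ] ℝ => L v) h3
  simp only [ContinuousLinearMap.comp_apply, ContinuousLinearMap.smul_apply,
    ContinuousLinearMap.id_apply, map_smul, smul_eq_mul] at h4
  exact mul_left_cancel₀ hr.ne' h4

/-- Euler's identity. -/
lemma euler (hG : IsHom2 G) (hξ : ξ ≠ 0) : fderiv ℝ G ξ ξ = G ξ := by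
  have h0 : HasDerivAt (fun r : ℝ => r • ξ) ξ 1 := by
    simpa using (hasDerivAt_id (1 : ℝ)).smul_const ξ
  have h1 : HasFDerivAt G (fderiv ℝ G ξ) ((1 : ℝ) • ξ) := by
    rw [one_smul]
    exact hG.hasFDerivAt hξ
  have h2 : HasDerivAt (fun r : ℝ => G (r • ξ)) (fderiv ℝ G ξ ξ) 1 :=
    h1.comp_hasDerivAt (1 : ℝ) h0
  have h3 : HasDerivAt (fun r : ℝ => r * G ξ) (G ξ) 1 := by
    simpa using (hasDerivAt_id (1 : ℝ)).mul_const (G ξ)
  have h4 : (fun r : ℝ => G (r • ξ)) =ᶠ[𝓝 1] fun r => r * G ξ := by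
    filter_upwards [lt_mem_nhds (show (0 : ℝ) < 1 by norm_num)] with r hr
    exact hG.smul r ξ hr
  exact (h2.congr_of_eventuallyEq h4.symm).unique h3

/-- The radial direction is in the kernel of the second derivative. -/
lemma D2_radial_left (hG : IsHom2 G) (hξ : ξ ≠ 0) (w : ι → ℝ) : D2 G ξ ξ w = 0 := by
  have h0 : HasDerivAt (fun r : ℝ => r • ξ) ξ 1 := by
    simpa using (hasDerivAt_id (1 : ℝ)).smul_const ξ
  have h1 : HasFDerivAt (fderiv ℝ G) (fderiv ℝ (fderiv ℝ G) ξ) ((1 : ℝ) • ξ) := by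
    rw [one_smul]
    exact hG.hasFDerivAt_fderiv hξ
  have h2 : HasDerivAt (fun r : ℝ => fderiv ℝ G (r • ξ)) (fderiv ℝ (fderiv ℝ G) ξ ξ) 1 :=
    h1.comp_hasDerivAt (1 : ℝ) h0
  have h4 : (fun r : ℝ => fderiv ℝ G (r • ξ)) =ᶠ[𝓝 1] fun _ => fderiv ℝ G ξ := by
    filter_upwards [lt_mem_nhds (show (0 : ℝ) < 1 by norm_num)] with r hr
    exact hG.fderiv_smul hr hξ
  have h5 := (h2.congr_of_eventuallyEq h4.symm).unique (hasDerivAt_const (1 : ℝ) (fderiv ℝ G ξ))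
  simp only [D2, h5, ContinuousLinearMap.zero_apply]

/-- The second derivative is symmetric. -/
lemma D2_symm (hG : IsHom2 G) (hξ : ξ ≠ 0) (v w : ι → ℝ) : D2 G ξ v w = D2 G ξ w v := by
  have h := (hG.contDiffAt hξ).isSymmSndFDerivAt (by simp)
  exact h v w

lemma D2_radial_right (hG : IsHom2 G) (hξ : ξ ≠ 0) (w : ι → ℝ) : D2 G ξ w ξ = 0 := by
  rw [hG.D2_symm hξ, hG.D2_radial_left hξ]

/-- The second derivative is homogeneous of degree minus one. -/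
lemma D2_smul (hG : IsHom2 G) {r : ℝ} (hr : 0 < r) (hξ : ξ ≠ 0) (v w : ι → ℝ) :
    r * D2 G (r • ξ) v w = D2 G ξ v w := by
  have h1 : HasFDerivAt (fun x : ι → ℝ => fderiv ℝ G (r • x))
      ((fderiv ℝ (fderiv ℝ G) (r • ξ)).comp (r • ContinuousLinearMap.id ℝ (ι → ℝ))) ξ := by
    have h0 : HasFDerivAt (fun x : ι → ℝ => r • x) (r • ContinuousLinearMap.id ℝ (ι → ℝ)) ξ :=
      (hasFDerivAt_id ξ).const_smul r
    exact (hG.hasFDerivAt_fderiv (smul_ne_zero' hr hξ)).comp ξ h0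
  have e : (fun x : ι → ℝ => fderiv ℝ G (r • x)) =ᶠ[𝓝 ξ] fderiv ℝ G := by
    filter_upwards [mem_nhds_of_ne hξ] with x hx
    exact hG.fderiv_smul hr hx
  have h2 := (h1.congr_of_eventuallyEq e.symm).unique (hG.hasFDerivAt_fderiv hξ)
  have h3 := congrArg (fun L => L v w) h2
  simpa [D2] using h3

/-- The derivative of an even function is odd. -/
lemma fderiv_neg (hG : IsHom2 G) (hξ : ξ ≠ 0) : fderiv ℝ G (-ξ) = - fderiv ℝ G ξ := by
  have h1 : HasFDerivAt (fun x : ι → ℝ => G (-x))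
      ((fderiv ℝ G (-ξ)).comp (- ContinuousLinearMap.id ℝ (ι → ℝ))) ξ := by
    have h0 : HasFDerivAt (fun x : ι → ℝ => -x) (- ContinuousLinearMap.id ℝ (ι → ℝ)) ξ :=
      (hasFDerivAt_id ξ).neg
    exact (hG.hasFDerivAt (neg_ne_zero.2 hξ)).comp ξ h0
  have e : (fun x : ι → ℝ => G (-x)) = G := by
    funext x
    exact hG.even x
  rw [e] at h1
  have h3 := h1.unique (hG.hasFDerivAt hξ)
  ext v
  have h4 := congrArg (fun L : (ι → ℝ) →L[ℝ] ℝ => L v) h3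
  simp only [ContinuousLinearMap.comp_apply, ContinuousLinearMap.neg_apply,
    ContinuousLinearMap.id_apply, map_neg] at h4
  simp only [ContinuousLinearMap.neg_apply]
  linarith

lemma abs_smul (hG : IsHom2 G) (c : ℝ) (ξ : ι → ℝ) : G (c • ξ) = |c| * G ξ := by
  rcases lt_trichotomy c 0 with hc | hc | hc
  · have : c • ξ = (-c) • (-ξ) := by simp
    rw [this, hG.smul _ _ (by linarith), hG.even, abs_of_neg hc]
  · subst hc
    simp [hG.zero]
  · rw [hG.smul _ _ hc, abs_of_pos hc]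

/-- The second derivative along a multiple of the radial direction. -/
lemma D2_smul_radial (hG : IsHom2 G) (hξ : ξ ≠ 0) (c : ℝ) : D2 G ξ (c • ξ) (c • ξ) = 0 := by
  simp only [D2, map_smul, ContinuousLinearMap.smul_apply, smul_eq_mul]
  have := hG.D2_radial_left hξ ξ
  simp only [D2] at this
  rw [this]
  ring

/-- Derivative along a line. -/
lemma hasDerivAt_line (hG : IsHom2 G) (a w : ι → ℝ) {τ : ℝ} (hτ : a + τ • w ≠ 0) :
    HasDerivAt (fun s : ℝ => G (a + s • w)) (fderiv ℝ G (a + τ • w) w) τ := by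
  have h0 : HasDerivAt (fun s : ℝ => a + s • w) w τ := by
    simpa using ((hasDerivAt_id τ).smul_const w).const_add a
  exact (hG.hasFDerivAt hτ).comp_hasDerivAt τ h0

/-- Second derivative along a line. -/
lemma hasDerivAt_line' (hG : IsHom2 G) (a w v : ι → ℝ) {τ : ℝ} (hτ : a + τ • w ≠ 0) :
    HasDerivAt (fun s : ℝ => fderiv ℝ G (a + s • w) v) (D2 G (a + τ • w) w v) τ := by
  have h0 : HasDerivAt (fun s : ℝ => a + s • w) w τ := by
    simpa using ((hasDerivAt_id τ).smul_const w).const_add a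
  have h1 : HasDerivAt (fun s : ℝ => fderiv ℝ G (a + s • w)) (fderiv ℝ (fderiv ℝ G) (a + τ • w) w) τ :=
    (hG.hasFDerivAt_fderiv hτ).comp_hasDerivAt τ h0
  have h2 := h1.clm_apply (hasDerivAt_const τ v)
  simpa [D2] using h2

/-! ### Closure properties -/

lemma add (h1 : IsHom2 G₁) (h2 : IsHom2 G₂) : IsHom2 fun x => G₁ x + G₂ x where
  cd := h1.cd.add h2.cd
  even ξ := by simp only [h1.even, h2.even]
  smul r ξ hr := by simp only [h1.smul r ξ hr, h2.smul r ξ hr]; ring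

lemma const_mul (h1 : IsHom2 G) (c : ℝ) : IsHom2 fun x => c * G x where
  cd := contDiffOn_const.mul h1.cd
  even ξ := by simp only [h1.even]
  smul r ξ hr := by simp only [h1.smul r ξ hr]; ring

lemma sub (h1 : IsHom2 G₁) (h2 : IsHom2 G₂) : IsHom2 fun x => G₁ x - G₂ x where
  cd := h1.cd.sub h2.cd
  even ξ := by simp only [h1.even, h2.even]
  smul r ξ hr := by simp only [h1.smul r ξ hr, h2.smul r ξ hr]; ring

lemma isHom2_zero : IsHom2 (fun _ : ι → ℝ => (0 : ℝ)) where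
  cd := contDiffOn_const
  even _ := rfl
  smul r _ _ := by simp

/-- A product divided by a positive function. -/
lemma mul_div {h : (ι → ℝ) → ℝ} (hh : IsHom2 h) (hpos : ∀ ξ, ξ ≠ 0 → 0 < h ξ) (h1 : IsHom2 G₁)
    (h2 : IsHom2 G₂) : IsHom2 fun x => G₁ x * G₂ x / h x where
  cd := (h1.cd.mul h2.cd).div hh.cd fun x hx => (hpos x hx).ne'
  even ξ := by simp only [h1.even, h2.even, hh.even]
  smul r ξ hr := by
    simp only [h1.smul r ξ hr, h2.smul r ξ hr, hh.smul r ξ hr]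
    by_cases hh0 : h ξ = 0
    · simp [hh0]
    · field_simp

/-! ### Derivatives of combinations -/

lemma fderiv_add (h1 : IsHom2 G₁) (h2 : IsHom2 G₂) (hξ : ξ ≠ 0) :
    fderiv ℝ (fun x => G₁ x + G₂ x) ξ = fderiv ℝ G₁ ξ + fderiv ℝ G₂ ξ :=
  ((h1.hasFDerivAt hξ).add (h2.hasFDerivAt hξ)).fderiv

lemma fderiv_const_mul (h1 : IsHom2 G) (c : ℝ) (hξ : ξ ≠ 0) :
    fderiv ℝ (fun x => c * G x) ξ = c • fderiv ℝ G ξ :=
  ((h1.hasFDerivAt hξ).const_mul c).fderiv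

lemma D2_add (h1 : IsHom2 G₁) (h2 : IsHom2 G₂) (hξ : ξ ≠ 0) (v w : ι → ℝ) :
    D2 (fun x => G₁ x + G₂ x) ξ v w = D2 G₁ ξ v w + D2 G₂ ξ v w := by
  have e : fderiv ℝ (fun x => G₁ x + G₂ x) =ᶠ[𝓝 ξ] fun x => fderiv ℝ G₁ x + fderiv ℝ G₂ x := by
    filter_upwards [mem_nhds_of_ne hξ] with x hx
    exact h1.fderiv_add h2 hx
  have h3 := ((h1.hasFDerivAt_fderiv hξ).add (h2.hasFDerivAt_fderiv hξ)).congr_of_eventuallyEq e
  simp only [D2, h3.fderiv]
  rfl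

lemma D2_const_mul (h1 : IsHom2 G) (c : ℝ) (hξ : ξ ≠ 0) (v w : ι → ℝ) :
    D2 (fun x => c * G x) ξ v w = c * D2 G ξ v w := by
  have e : fderiv ℝ (fun x => c * G x) =ᶠ[𝓝 ξ] fun x => c • fderiv ℝ G x := by
    filter_upwards [mem_nhds_of_ne hξ] with x hx
    exact h1.fderiv_const_mul c hx
  have h3 := ((h1.hasFDerivAt_fderiv hξ).const_smul c).congr_of_eventuallyEq e
  simp only [D2, h3.fderiv]
  rfl

end IsHom2

end Vale.Agent.Lib.P227L
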