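import Mathlib
import Vale.Agent.Lib.P227L.Hom

/-!
# Convexity of support functions of class `C²₊`
-/

open Set Filter Topology

namespace Vale.Agent.Lib.P227L

variable {ι : Type*} [Fintype ι]
variable {H h G G₁ G₂ : (ι → ℝ) → ℝ} {ξ ξ' u v w : ι → ℝ}

namespace IsC2Plus

lemma nonneg (hH : IsC2Plus H) (x : ι → ℝ) : 0 ≤ H x := by
  by_cases hx : x = 0
  · subst hx
    rw [hH.toIsHom2.zero]
  · exact (hH.pos x hx).le

lemma D2_nonneg (hH : IsC2Plus H) (hξ : ξ ≠ 0) (w : ι → ℝ) : 0 ≤ D2 H ξ w w := by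
  by_cases hw : ∃ c : ℝ, w = c • ξ
  · obtain ⟨c, rfl⟩ := hw
    rw [hH.toIsHom2.D2_smul_radial hξ]
  · push_neg at hw
    exact (hH.hess ξ hξ w hw).le

/-- Along a segment avoiding the origin the directional derivative is monotone. -/
lemma monotoneOn_line (hH : IsC2Plus H) {a w : ι → ℝ} (hne : ∀ τ ∈ Icc (0 : ℝ) 1, a + τ • w ≠ 0) :
    MonotoneOn (fun s : ℝ => fderiv ℝ H (a + s • w) w) (Icc 0 1) := by
  have hd : ∀ τ ∈ Icc (0 : ℝ) 1, HasDerivAt (fun s : ℝ => fderiv ℝ H (a + s • w) w)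
      (D2 H (a + τ • w) w w) τ :=
    fun τ hτ => hH.toIsHom2.hasDerivAt_line' a w w (hne τ hτ)
  apply monotoneOn_of_deriv_nonneg (convex_Icc 0 1)
  · exact fun τ hτ => (hd τ hτ).continuousAt.continuousWithinAt
  · intro τ hτ
    exact (hd τ (interior_subset hτ)).differentiableAt.differentiableWithinAt
  · intro τ hτ
    rw [(hd τ (interior_subset hτ)).deriv]
    exact hH.D2_nonneg (hne τ (interior_subset hτ)) w

/-- The supporting inequality. -/
theorem fderiv_le (hH : IsC2Plus H) (hξ : ξ ≠ 0) (u : ι → ℝ) : fderiv ℝ H ξ u ≤ H u := by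
  by_cases hz : ∃ τ ∈ Icc (0 : ℝ) 1, ξ + τ • (u - ξ) = 0
  · obtain ⟨τ, hτ, h0⟩ := hz
    have hτ0 : τ ≠ 0 := by
      rintro rfl
      simp only [zero_smul, add_zero] at h0
      exact hξ h0
    have hτp : 0 < τ := lt_of_le_of_ne hτ.1 (Ne.symm hτ0)
    have hu : u = (-((1 - τ) / τ)) • ξ := by
      have e : τ • u = (-(1 - τ)) • ξ := by
        have : ξ + τ • (u - ξ) = τ • u + (1 - τ) • ξ := by
          simp only [smul_sub, sub_smul, one_smul]
          abel
        rw [this] at h0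
        rw [neg_smul]
        exact eq_neg_of_add_eq_zero_left h0
      have : u = τ⁻¹ • (τ • u) := by rw [smul_smul, inv_mul_cancel₀ hτ0, one_smul]
      rw [this, e, smul_smul]
      congr 1
      field_simp
    have hc : 0 ≤ (1 - τ) / τ := div_nonneg (by linarith [hτ.2]) hτp.le
    rw [hu, map_smul, smul_eq_mul, hH.toIsHom2.euler hξ]
    have h1 := hH.nonneg ((-((1 - τ) / τ)) • ξ)
    have h2 := hH.pos ξ hξ
    nlinarith [mul_nonneg hc h2.le]
  · push_neg at hz
    set W := u - ξ with hW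
    have hm := hH.monotoneOn_line hz
    -- the function `s ↦ H (ξ + s W) - s * L W`
    set L := fderiv ℝ H ξ with hL
    have hd : ∀ τ ∈ Icc (0 : ℝ) 1, HasDerivAt (fun s : ℝ => H (ξ + s • W) - s * L W)
        (fderiv ℝ H (ξ + τ • W) W - L W) τ := by
      intro τ hτ
      have h1 := hH.toIsHom2.hasDerivAt_line ξ W (hz τ hτ)
      have h2 : HasDerivAt (fun s : ℝ => s * L W) (L W) τ := by
        simpa using (hasDerivAt_id τ).mul_const (L W)
      exact h1.sub h2
    have hmono : MonotoneOn (fun s : ℝ => H (ξ + s • W) - s * L W) (Icc 0 1) := by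
      apply monotoneOn_of_deriv_nonneg (convex_Icc 0 1)
      · exact fun τ hτ => (hd τ hτ).continuousAt.continuousWithinAt
      · intro τ hτ
        exact (hd τ (interior_subset hτ)).differentiableAt.differentiableWithinAt
      · intro τ hτ
        rw [(hd τ (interior_subset hτ)).deriv]
        have h3 := hm (left_mem_Icc.2 zero_le_one) (interior_subset hτ) (interior_subset hτ).1
        simp only [zero_smul, add_zero] at h3
        rw [sub_nonneg]
        exact h3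
    have h4 := hmono (left_mem_Icc.2 zero_le_one) (right_mem_Icc.2 zero_le_one) zero_le_one
    simp only [zero_smul, add_zero, zero_mul, sub_zero, one_smul, one_mul] at h4
    have e1 : ξ + W = u := by rw [hW]; abel
    rw [e1] at h4
    have e2 : L W = L u - L ξ := by rw [hW, map_sub]
    have e3 : L ξ = H ξ := hH.toIsHom2.euler hξ
    rw [e2, e3] at h4
    linarith

/-- Subadditivity. -/
theorem add_le (hH : IsC2Plus H) (u v : ι → ℝ) : H (u + v) ≤ H u + H v := by
  by_cases h0 : u + v = 0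
  · rw [h0, hH.toIsHom2.zero]
    exact add_nonneg (hH.nonneg u) (hH.nonneg v)
  · rw [← hH.toIsHom2.euler h0, map_add]
    exact add_le_add (hH.fderiv_le h0 u) (hH.fderiv_le h0 v)

/-- Equal gradients only occur on a ray. -/
theorem ray_of_fderiv_eq (hH : IsC2Plus H) (hξ : ξ ≠ 0) (hξ' : ξ' ≠ 0)
    (he : fderiv ℝ H ξ = fderiv ℝ H ξ') : ∃ c : ℝ, 0 < c ∧ ξ' = c • ξ := by
  by_contra hcon
  push_neg at hcon
  set W := ξ' - ξ with hW
  have hLξ : fderiv ℝ H ξ ξ = H ξ := hH.toIsHom2.euler hξ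
  have hpos := hH.pos ξ hξ
  -- no antipodal points
  have hanti : ∀ c : ℝ, ξ' ≠ c • ξ := by
    intro c hc
    rcases lt_trichotomy c 0 with hc0 | hc0 | hc0
    · have e1 : ξ' = (-c) • (-ξ) := by rw [hc]; simp
      have h1 : fderiv ℝ H ξ' = - fderiv ℝ H ξ := by
        rw [e1, hH.toIsHom2.fderiv_smul (by linarith) (neg_ne_zero.2 hξ), hH.toIsHom2.fderiv_neg hξ]
      have h2 : fderiv ℝ H ξ ξ = - fderiv ℝ H ξ ξ := by
        conv_lhs => rw [he, h1]
        rfl
      rw [hLξ] at h2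
      linarith
    · subst hc0
      rw [zero_smul] at hc
      exact hξ' hc
    · exact hcon c hc0 hc
  have hW' : ∀ c : ℝ, W ≠ c • ξ := by
    intro c hc
    apply hanti (1 + c)
    rw [add_smul, one_smul, ← hc, hW]
    abel
  have hne : ∀ τ ∈ Icc (0 : ℝ) 1, ξ + τ • W ≠ 0 := by
    intro τ hτ h0
    have hτ0 : τ ≠ 0 := by
      rintro rfl
      simp only [zero_smul, add_zero] at h0
      exact hξ h0
    apply hW' (-τ⁻¹)
    have e : τ • W = - ξ := eq_neg_of_add_eq_zero_right h0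
    have : W = τ⁻¹ • (τ • W) := by rw [smul_smul, inv_mul_cancel₀ hτ0, one_smul]
    rw [this, e, neg_smul, smul_neg]
  have hm := hH.monotoneOn_line hne
  have hd : HasDerivAt (fun s : ℝ => fderiv ℝ H (ξ + s • W) W) (D2 H (ξ + (0 : ℝ) • W) W W) 0 :=
    hH.toIsHom2.hasDerivAt_line' ξ W W (hne 0 (left_mem_Icc.2 zero_le_one))
  have hpos2 : 0 < D2 H (ξ + (0 : ℝ) • W) W W := by
    simp only [zero_smul, add_zero]
    exact hH.hess ξ hξ W hW'
  -- slope positive near zero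
  have hslope := hasDerivAt_iff_tendsto_slope.1 hd
  have hev := hslope.eventually (lt_mem_nhds hpos2)
  have hev2 : ∀ᶠ s in 𝓝[>] (0 : ℝ), s ∈ Ioo (0 : ℝ) 1 := Ioo_mem_nhdsGT zero_lt_one
  have hev3 : ∀ᶠ s in 𝓝[>] (0 : ℝ), 0 < slope (fun s : ℝ => fderiv ℝ H (ξ + s • W) W) 0 s := by
    have : 𝓝[>] (0 : ℝ) ≤ 𝓝[≠] (0 : ℝ) := nhdsWithin_mono _ (fun x hx => ne_of_gt hx)
    exact this hev
  obtain ⟨s, hs1, hs2⟩ := (hev3.and hev2).exists
  have h5 : fderiv ℝ H (ξ + (0 : ℝ) • W) W = fderiv ℝ H (ξ + (1 : ℝ) • W) W := by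
    simp only [zero_smul, add_zero, one_smul]
    have : ξ + W = ξ' := by rw [hW]; abel
    rw [this, he]
  have h6 := hm (left_mem_Icc.2 zero_le_one) (Ioo_subset_Icc_self hs2) hs2.1.le
  have h7 := hm (Ioo_subset_Icc_self hs2) (right_mem_Icc.2 zero_le_one) hs2.2.le
  simp only at h6 h7
  rw [← h5] at h7
  have h8 : fderiv ℝ H (ξ + s • W) W = fderiv ℝ H (ξ + (0 : ℝ) • W) W := le_antisymm h7 h6
  simp only [slope_def_field, h8, sub_self, zero_div] at hs1
  exact lt_irrefl _ hs1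

end IsC2Plus

/-! ### Normalisation -/

lemma dot_self_nonneg (x : ι → ℝ) : 0 ≤ x ⬝ᵥ x :=
  Finset.sum_nonneg fun i _ => mul_self_nonneg _

lemma dot_self_pos (hx : ξ ≠ 0) : 0 < ξ ⬝ᵥ ξ :=
  lt_of_le_of_ne (dot_self_nonneg ξ) (Ne.symm (mt dotProduct_self_eq_zero.1 hx))

end Vale.Agent.Lib.P227L
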