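import Mathlib
import Vale.Agent.Lib.P227L.Plus

/-!
# Relative bounds and small perturbations of support functions of class `C²₊`
-/

open Set Filter Topology

namespace Vale.Agent.Lib.P227L

variable {ι : Type*} [Fintype ι]
variable {H h G G₁ G₂ : (ι → ℝ) → ℝ} {ξ u v w x : ι → ℝ}

lemma abs_le_one_of_dot (hx : x ⬝ᵥ x = 1) (i : ι) : |x i| ≤ 1 := by
  have h1 : x i * x i ≤ x ⬝ᵥ x := by
    classical
    exact Finset.single_le_sum (f := fun j => x j * x j) (fun j _ => mul_self_nonneg _)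
      (Finset.mem_univ i)
  rw [hx] at h1
  exact abs_le_one_iff_mul_self_le_one.2 h1

lemma norm_le_one_of_dot (hx : x ⬝ᵥ x = 1) : ‖x‖ ≤ 1 :=
  (pi_norm_le_iff_of_nonneg zero_le_one).2 fun i => by
    rw [Real.norm_eq_abs]
    exact abs_le_one_of_dot hx i

lemma continuous_dot_self : Continuous fun x : ι → ℝ => x ⬝ᵥ x := by
  unfold dotProduct
  fun_prop

/-- The Euclidean unit sphere. -/
def eSphere : Set (ι → ℝ) := {x | x ⬝ᵥ x = 1}

lemma isCompact_eSphere : IsCompact (eSphere : Set (ι → ℝ)) := by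
  apply Metric.isCompact_of_isClosed_isBounded
  · exact isClosed_eq continuous_dot_self continuous_const
  · apply (Metric.isBounded_closedBall (x := (0 : ι → ℝ)) (r := 1)).subset
    intro x hx
    rw [mem_closedBall_zero_iff]
    exact norm_le_one_of_dot hx

/-- Orthonormal pairs. -/
def ortho2 : Set ((ι → ℝ) × (ι → ℝ)) := {p | p.1 ⬝ᵥ p.1 = 1 ∧ p.2 ⬝ᵥ p.2 = 1 ∧ p.1 ⬝ᵥ p.2 = 0}

lemma isCompact_ortho2 : IsCompact (ortho2 : Set ((ι → ℝ) × (ι → ℝ))) := by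
  apply Metric.isCompact_of_isClosed_isBounded
  · have c1 : Continuous fun p : (ι → ℝ) × (ι → ℝ) => p.1 ⬝ᵥ p.1 :=
      continuous_dot_self.comp continuous_fst
    have c2 : Continuous fun p : (ι → ℝ) × (ι → ℝ) => p.2 ⬝ᵥ p.2 :=
      continuous_dot_self.comp continuous_snd
    have c3 : Continuous fun p : (ι → ℝ) × (ι → ℝ) => p.1 ⬝ᵥ p.2 := by
      unfold dotProduct
      fun_prop
    exact (isClosed_eq c1 continuous_const).inter
      ((isClosed_eq c2 continuous_const).inter (isClosed_eq c3 continuous_const))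
  · apply (Metric.isBounded_closedBall (x := (0 : (ι → ℝ) × (ι → ℝ))) (r := 1)).subset
    intro p hp
    rw [mem_closedBall_zero_iff, Prod.norm_def]
    exact max_le (norm_le_one_of_dot hp.1) (norm_le_one_of_dot hp.2.1)

/-- Normalisation of a nonzero vector. -/
lemma exists_normal (hξ : ξ ≠ 0) : ∃ r : ℝ, 0 < r ∧ ∃ e : ι → ℝ, e ⬝ᵥ e = 1 ∧ ξ = r • e := by
  have hp := dot_self_pos hξ
  set r := Real.sqrt (ξ ⬝ᵥ ξ) with hr
  have hrp : 0 < r := Real.sqrt_pos.2 hp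
  have hr2 : r * r = ξ ⬝ᵥ ξ := Real.mul_self_sqrt hp.le
  refine ⟨r, hrp, r⁻¹ • ξ, ?_, ?_⟩
  · rw [smul_dotProduct, dotProduct_smul, ← hr2, smul_eq_mul, smul_eq_mul]
    field_simp
  · rw [smul_smul, mul_inv_cancel₀ hrp.ne', one_smul]

lemma IsHom2.continuousAt_D2 (hG : IsHom2 G) (hξ : ξ ≠ 0) :
    ContinuousAt (fun p : (ι → ℝ) × (ι → ℝ) => D2 G p.1 p.2 p.2) (ξ, w) := by
  have h0 : ContDiffAt ℝ 0 (fderiv ℝ (fderiv ℝ G)) ξ :=
    (hG.contDiffAt_fderiv hξ).fderiv_right (m := 0) (by norm_num)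
  have h1 : ContinuousAt (fun p : (ι → ℝ) × (ι → ℝ) => fderiv ℝ (fderiv ℝ G) p.1) (ξ, w) :=
    ContinuousAt.comp (f := fun p : (ι → ℝ) × (ι → ℝ) => p.1) (g := fderiv ℝ (fderiv ℝ G))
      h0.continuousAt continuousAt_fst
  exact (h1.clm_apply continuousAt_snd).clm_apply continuousAt_snd

lemma IsHom2.D2_add_radial (hG : IsHom2 G) (hξ : ξ ≠ 0) (w₀ : ι → ℝ) (c : ℝ) :
    D2 G ξ (w₀ + c • ξ) (w₀ + c • ξ) = D2 G ξ w₀ w₀ := by
  have h1 := hG.D2_radial_left hξ w₀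
  have h2 := hG.D2_radial_right hξ w₀
  have h3 := hG.D2_radial_left hξ ξ
  simp only [D2] at h1 h2 h3 ⊢
  simp only [map_add, map_smul, ContinuousLinearMap.add_apply, ContinuousLinearMap.smul_apply,
    smul_eq_mul, h1, h2, h3]
  ring

lemma IsHom2.D2_smul_both (G : (ι → ℝ) → ℝ) (ξ w : ι → ℝ) (q : ℝ) :
    D2 G ξ (q • w) (q • w) = q ^ 2 * D2 G ξ w w := by
  simp only [D2, map_smul, ContinuousLinearMap.smul_apply, smul_eq_mul]
  ring

/-- Reduction of the second derivative to orthonormal pairs. -/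
lemma exists_ortho_reduction (hξ : ξ ≠ 0) (w : ι → ℝ) :
    (∃ c : ℝ, w = c • ξ) ∨
    ∃ (r q c : ℝ) (e f : ι → ℝ), 0 < r ∧ 0 < q ∧ (e, f) ∈ (ortho2 : Set ((ι → ℝ) × (ι → ℝ))) ∧
      ξ = r • e ∧ w = q • f + c • ξ := by
  obtain ⟨r, hr, e, he, rfl⟩ := exists_normal hξ
  set a := w ⬝ᵥ e with ha
  set w₀ := w - a • e with hw₀
  by_cases h0 : w₀ = 0
  · left
    refine ⟨a / r, ?_⟩
    have : w = a • e := sub_eq_zero.1 h0
    rw [smul_smul, div_mul_cancel₀ _ hr.ne']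
    exact this
  · right
    obtain ⟨q, hq, f, hf, hw⟩ := exists_normal h0
    refine ⟨r, q, a / r, e, f, hr, hq, ⟨he, hf, ?_⟩, rfl, ?_⟩
    · have h1 : e ⬝ᵥ w₀ = 0 := by
        rw [hw₀, dotProduct_sub, dotProduct_smul, he, smul_eq_mul, mul_one, dotProduct_comm, ha,
          sub_self]
      rw [hw, dotProduct_smul, smul_eq_mul] at h1
      exact (mul_eq_zero.1 h1).resolve_left hq.ne'
    · rw [← hw, smul_smul, div_mul_cancel₀ _ hr.ne', hw₀]
      abel

/-- The relative bound for second derivatives. -/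
theorem exists_rel_D2 (hh : IsC2Plus h) (hG : IsHom2 G) :
    ∃ C : ℝ, 0 ≤ C ∧ ∀ ξ, ξ ≠ 0 → ∀ w, |D2 G ξ w w| ≤ C * D2 h ξ w w := by
  have hne : ∀ p ∈ (ortho2 : Set ((ι → ℝ) × (ι → ℝ))), p.1 ≠ 0 := by
    intro p hp h0
    have := hp.1
    rw [h0] at this
    simp at this
  have hK := isCompact_ortho2 (ι := ι)
  by_cases hemp : (ortho2 : Set ((ι → ℝ) × (ι → ℝ))).Nonempty
  · -- the minimum of the denominator and the maximum of the numerator
    have c1 : ContinuousOn (fun p : (ι → ℝ) × (ι → ℝ) => D2 h p.1 p.2 p.2) ortho2 := fun p hp =>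
      (hh.toIsHom2.continuousAt_D2 (w := p.2) (hne p hp)).continuousWithinAt
    have c2 : ContinuousOn (fun p : (ι → ℝ) × (ι → ℝ) => |D2 G p.1 p.2 p.2|) ortho2 := fun p hp =>
      (hG.continuousAt_D2 (w := p.2) (hne p hp)).abs.continuousWithinAt
    obtain ⟨p₀, hp₀, hmin⟩ := hK.exists_isMinOn hemp c1
    obtain ⟨p₁, hp₁, hmax⟩ := hK.exists_isMaxOn hemp c2
    have hm : 0 < D2 h p₀.1 p₀.2 p₀.2 := by
      apply hh.hess _ (hne p₀ hp₀)
      intro c hc
      have h2 := hp₀.2.2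
      have h3 := hp₀.2.1
      have h4 := hp₀.1
      rw [hc, dotProduct_smul, h4, smul_eq_mul, mul_one] at h2
      rw [hc, h2, zero_smul] at h3
      simp at h3
    set m := D2 h p₀.1 p₀.2 p₀.2 with hmd
    set M := |D2 G p₁.1 p₁.2 p₁.2| with hMd
    have hM : 0 ≤ M := abs_nonneg _
    refine ⟨M / m, div_nonneg hM hm.le, ?_⟩
    intro ξ hξ w
    rcases exists_ortho_reduction hξ w with ⟨c, rfl⟩ | ⟨r, q, c, e, f, hr, hq, hef, rfl, rfl⟩
    · rw [hG.D2_smul_radial hξ, hh.toIsHom2.D2_smul_radial hξ]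
      simp
    · have hξ' : r • e ≠ 0 := hξ
      have he0 : e ≠ 0 := hne _ hef
      rw [hG.D2_add_radial hξ', hh.toIsHom2.D2_add_radial hξ', IsHom2.D2_smul_both,
        IsHom2.D2_smul_both]
      have e1 := hG.D2_smul hr he0 f f
      have e2 := hh.toIsHom2.D2_smul hr he0 f f
      have h5 : |D2 G e f f| ≤ M := hmax hef
      have h6 : m ≤ D2 h e f f := hmin hef
      have h7 : D2 G (r • e) f f = r⁻¹ * D2 G e f f := by
        rw [← e1, inv_mul_cancel_left₀ hr.ne']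
      have h8 : D2 h (r • e) f f = r⁻¹ * D2 h e f f := by
        rw [← e2, inv_mul_cancel_left₀ hr.ne']
      rw [h7, h8, abs_mul, abs_mul, abs_of_pos (pow_pos hq 2), abs_of_pos (inv_pos.2 hr)]
      have h9 : |D2 G e f f| ≤ M / m * D2 h e f f := by
        calc |D2 G e f f| ≤ M := h5
          _ = M / m * m := by field_simp
          _ ≤ M / m * D2 h e f f := mul_le_mul_of_nonneg_left h6 (div_nonneg hM hm.le)
      have h10 : 0 < q ^ 2 * r⁻¹ := mul_pos (pow_pos hq 2) (inv_pos.2 hr)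
      calc q ^ 2 * (r⁻¹ * |D2 G e f f|) = (q ^ 2 * r⁻¹) * |D2 G e f f| := by ring
        _ ≤ (q ^ 2 * r⁻¹) * (M / m * D2 h e f f) := mul_le_mul_of_nonneg_left h9 h10.le
        _ = _ := by ring
  · refine ⟨0, le_rfl, ?_⟩
    intro ξ hξ w
    rcases exists_ortho_reduction hξ w with ⟨c, rfl⟩ | ⟨r, q, c, e, f, hr, hq, hef, rfl, rfl⟩
    · rw [hG.D2_smul_radial hξ]
      simp
    · exact absurd ⟨_, hef⟩ hemp

/-- The relative bound for values. -/
theorem exists_rel_val (hh : IsC2Plus h) (hG : IsHom2 G) :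
    ∃ C : ℝ, 0 ≤ C ∧ ∀ ξ, |G ξ| ≤ C * h ξ := by
  have hne : ∀ p ∈ (eSphere : Set (ι → ℝ)), p ≠ 0 := by
    intro p hp h0
    have : p ⬝ᵥ p = 1 := hp
    rw [h0] at this
    simp at this
  have hK := isCompact_eSphere (ι := ι)
  by_cases hemp : (eSphere : Set (ι → ℝ)).Nonempty
  · have c1 : ContinuousOn h eSphere := fun p hp =>
      (hh.toIsHom2.differentiableAt (hne p hp)).continuousAt.continuousWithinAt
    have c2 : ContinuousOn (fun p => |G p|) (eSphere : Set (ι → ℝ)) := fun p hp =>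
      (hG.differentiableAt (hne p hp)).continuousAt.abs.continuousWithinAt
    obtain ⟨p₀, hp₀, hmin⟩ := hK.exists_isMinOn hemp c1
    obtain ⟨p₁, hp₁, hmax⟩ := hK.exists_isMaxOn hemp c2
    have hm : 0 < h p₀ := hh.pos _ (hne p₀ hp₀)
    set m := h p₀ with hmd
    set M := |G p₁| with hMd
    have hM : 0 ≤ M := abs_nonneg _
    refine ⟨M / m, div_nonneg hM hm.le, ?_⟩
    intro ξ
    by_cases hξ : ξ = 0
    · subst hξ
      simp [hG.zero, hh.toIsHom2.zero]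
    obtain ⟨r, hr, e, he, rfl⟩ := exists_normal hξ
    rw [hG.smul r e hr, hh.toIsHom2.smul r e hr, abs_mul, abs_of_pos hr]
    have h5 : |G e| ≤ M := hmax he
    have h6 : m ≤ h e := hmin he
    have h9 : |G e| ≤ M / m * h e := by
      calc |G e| ≤ M := h5
        _ = M / m * m := by field_simp
        _ ≤ M / m * h e := mul_le_mul_of_nonneg_left h6 (div_nonneg hM hm.le)
    calc r * |G e| ≤ r * (M / m * h e) := mul_le_mul_of_nonneg_left h9 hr.le
      _ = _ := by ring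
  · refine ⟨0, le_rfl, ?_⟩
    intro ξ
    by_cases hξ : ξ = 0
    · subst hξ
      simp [hG.zero]
    obtain ⟨r, hr, e, he, rfl⟩ := exists_normal hξ
    exact absurd ⟨e, he⟩ hemp

/-- The positive lower bound in terms of the Euclidean norm. -/
theorem exists_lower (hh : IsC2Plus h) :
    ∃ c : ℝ, 0 < c ∧ ∀ u, c * Real.sqrt (u ⬝ᵥ u) ≤ h u := by
  have hne : ∀ p ∈ (eSphere : Set (ι → ℝ)), p ≠ 0 := by
    intro p hp h0
    have : p ⬝ᵥ p = 1 := hp
    rw [h0] at this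
    simp at this
  have hK := isCompact_eSphere (ι := ι)
  by_cases hemp : (eSphere : Set (ι → ℝ)).Nonempty
  · have c1 : ContinuousOn h eSphere := fun p hp =>
      (hh.toIsHom2.differentiableAt (hne p hp)).continuousAt.continuousWithinAt
    obtain ⟨p₀, hp₀, hmin⟩ := hK.exists_isMinOn hemp c1
    have hm : 0 < h p₀ := hh.pos _ (hne p₀ hp₀)
    refine ⟨h p₀, hm, ?_⟩
    intro u
    by_cases hu : u = 0
    · subst hu
      simp [hh.toIsHom2.zero]
    obtain ⟨r, hr, e, he, rfl⟩ := exists_normal hu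
    rw [hh.toIsHom2.smul r e hr, smul_dotProduct, dotProduct_smul, he, smul_eq_mul, smul_eq_mul,
      mul_one, Real.sqrt_mul_self hr.le]
    have h6 : h p₀ ≤ h e := hmin he
    nlinarith
  · refine ⟨1, one_pos, ?_⟩
    intro u
    by_cases hu : u = 0
    · subst hu
      simp [hh.toIsHom2.zero]
    obtain ⟨r, hr, e, he, rfl⟩ := exists_normal hu
    exact absurd ⟨e, he⟩ hemp

/-- The upper bound in terms of the Euclidean norm. -/
theorem exists_upper (hh : IsC2Plus h) :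
    ∃ C : ℝ, 0 < C ∧ ∀ u, h u ≤ C * Real.sqrt (u ⬝ᵥ u) := by
  have hne : ∀ p ∈ (eSphere : Set (ι → ℝ)), p ≠ 0 := by
    intro p hp h0
    have : p ⬝ᵥ p = 1 := hp
    rw [h0] at this
    simp at this
  have hK := isCompact_eSphere (ι := ι)
  by_cases hemp : (eSphere : Set (ι → ℝ)).Nonempty
  · have c1 : ContinuousOn h eSphere := fun p hp =>
      (hh.toIsHom2.differentiableAt (hne p hp)).continuousAt.continuousWithinAt
    obtain ⟨p₀, hp₀, hmax⟩ := hK.exists_isMaxOn hemp c1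
    have hm : 0 < h p₀ := hh.pos _ (hne p₀ hp₀)
    refine ⟨h p₀, hm, ?_⟩
    intro u
    by_cases hu : u = 0
    · subst hu
      simp [hh.toIsHom2.zero]
    obtain ⟨r, hr, e, he, rfl⟩ := exists_normal hu
    rw [hh.toIsHom2.smul r e hr, smul_dotProduct, dotProduct_smul, he, smul_eq_mul, smul_eq_mul,
      mul_one, Real.sqrt_mul_self hr.le]
    have h6 : h e ≤ h p₀ := hmax he
    nlinarith
  · refine ⟨1, one_pos, ?_⟩
    intro u
    by_cases hu : u = 0
    · subst hu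
      simp [hh.toIsHom2.zero]
    obtain ⟨r, hr, e, he, rfl⟩ := exists_normal hu
    exact absurd ⟨e, he⟩ hemp

/-- A two-parameter perturbation. -/
def comb (h G₁ G₂ : (ι → ℝ) → ℝ) (s t : ℝ) : (ι → ℝ) → ℝ := fun x => h x + s * G₁ x + t * G₂ x

lemma IsHom2.isHom2_comb (hh : IsHom2 h) (h1 : IsHom2 G₁) (h2 : IsHom2 G₂) (s t : ℝ) :
    IsHom2 (comb h G₁ G₂ s t) :=
  (hh.add (h1.const_mul s)).add (h2.const_mul t)

lemma IsHom2.fderiv_comb (hh : IsHom2 h) (h1 : IsHom2 G₁) (h2 : IsHom2 G₂) (s t : ℝ) (hξ : ξ ≠ 0) :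
    fderiv ℝ (comb h G₁ G₂ s t) ξ = fderiv ℝ h ξ + s • fderiv ℝ G₁ ξ + t • fderiv ℝ G₂ ξ := by
  have e1 := (hh.add (h1.const_mul s)).fderiv_add (h2.const_mul t) hξ
  rw [hh.fderiv_add (h1.const_mul s) hξ, h1.fderiv_const_mul s hξ, h2.fderiv_const_mul t hξ] at e1
  exact e1

lemma IsHom2.D2_comb (hh : IsHom2 h) (h1 : IsHom2 G₁) (h2 : IsHom2 G₂) (s t : ℝ) (hξ : ξ ≠ 0)
    (v w : ι → ℝ) :
    D2 (comb h G₁ G₂ s t) ξ v w = D2 h ξ v w + s * D2 G₁ ξ v w + t * D2 G₂ ξ v w := by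
  have e1 := (hh.add (h1.const_mul s)).D2_add (h2.const_mul t) hξ v w
  rw [hh.D2_add (h1.const_mul s) hξ, h1.D2_const_mul s hξ, h2.D2_const_mul t hξ] at e1
  exact e1

/-- Small perturbations stay in the class. -/
theorem exists_comb_plus (hh : IsC2Plus h) (h1 : IsHom2 G₁) (h2 : IsHom2 G₂) :
    ∃ ρ : ℝ, 0 < ρ ∧ ∀ s t : ℝ, |s| ≤ ρ → |t| ≤ ρ → IsC2Plus (comb h G₁ G₂ s t) := by
  obtain ⟨A₁, hA₁, hA₁'⟩ := exists_rel_val hh h1
  obtain ⟨A₂, hA₂, hA₂'⟩ := exists_rel_val hh h2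
  obtain ⟨B₁, hB₁, hB₁'⟩ := exists_rel_D2 hh h1
  obtain ⟨B₂, hB₂, hB₂'⟩ := exists_rel_D2 hh h2
  set K := A₁ + A₂ + B₁ + B₂ + 1 with hK
  have hKp : 0 < K := by positivity
  refine ⟨1 / (4 * K), by positivity, ?_⟩
  intro s t hs ht
  have hsK : |s| * K ≤ 1 / 4 := by
    have : |s| * K ≤ 1 / (4 * K) * K := mul_le_mul_of_nonneg_right hs hKp.le
    have e : 1 / (4 * K) * K = 1 / 4 := by field_simp
    linarith
  have htK : |t| * K ≤ 1 / 4 := by
    have : |t| * K ≤ 1 / (4 * K) * K := mul_le_mul_of_nonneg_right ht hKp.le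
    have e : 1 / (4 * K) * K = 1 / 4 := by field_simp
    linarith
  have hs0 := abs_nonneg s
  have ht0 := abs_nonneg t
  have a1 : |s| * A₁ ≤ 1 / 4 :=
    (mul_le_mul_of_nonneg_left (by rw [hK]; linarith) hs0).trans hsK
  have a2 : |t| * A₂ ≤ 1 / 4 :=
    (mul_le_mul_of_nonneg_left (by rw [hK]; linarith) ht0).trans htK
  have b1 : |s| * B₁ ≤ 1 / 4 :=
    (mul_le_mul_of_nonneg_left (by rw [hK]; linarith) hs0).trans hsK
  have b2 : |t| * B₂ ≤ 1 / 4 :=
    (mul_le_mul_of_nonneg_left (by rw [hK]; linarith) ht0).trans htK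
  have hcomb := hh.toIsHom2.isHom2_comb h1 h2 s t
  refine { toIsHom2 := hcomb, pos := ?_, hess := ?_ }
  · intro ξ hξ
    have hp := hh.pos ξ hξ
    have e1 : |s * G₁ ξ| ≤ |s| * (A₁ * h ξ) := by
      rw [abs_mul]
      exact mul_le_mul_of_nonneg_left (hA₁' ξ) hs0
    have e2 : |t * G₂ ξ| ≤ |t| * (A₂ * h ξ) := by
      rw [abs_mul]
      exact mul_le_mul_of_nonneg_left (hA₂' ξ) ht0
    have e3 := abs_le.1 e1
    have e4 := abs_le.1 e2
    have e5 : |s| * (A₁ * h ξ) ≤ 1 / 4 * h ξ := by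
      rw [← mul_assoc]
      exact mul_le_mul_of_nonneg_right a1 hp.le
    have e6 : |t| * (A₂ * h ξ) ≤ 1 / 4 * h ξ := by
      rw [← mul_assoc]
      exact mul_le_mul_of_nonneg_right a2 hp.le
    simp only [comb]
    linarith [e3.1, e4.1]
  · intro ξ hξ w hw
    have hp := hh.hess ξ hξ w hw
    rw [hh.toIsHom2.D2_comb h1 h2 s t hξ]
    have e1 : |s * D2 G₁ ξ w w| ≤ |s| * (B₁ * D2 h ξ w w) := by
      rw [abs_mul]
      exact mul_le_mul_of_nonneg_left (hB₁' ξ hξ w) hs0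
    have e2 : |t * D2 G₂ ξ w w| ≤ |t| * (B₂ * D2 h ξ w w) := by
      rw [abs_mul]
      exact mul_le_mul_of_nonneg_left (hB₂' ξ hξ w) ht0
    have e3 := abs_le.1 e1
    have e4 := abs_le.1 e2
    have e5 : |s| * (B₁ * D2 h ξ w w) ≤ 1 / 4 * D2 h ξ w w := by
      rw [← mul_assoc]
      exact mul_le_mul_of_nonneg_right b1 hp.le
    have e6 : |t| * (B₂ * D2 h ξ w w) ≤ 1 / 4 * D2 h ξ w w := by
      rw [← mul_assoc]
      exact mul_le_mul_of_nonneg_right b2 hp.le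
    linarith [e3.1, e4.1]

end Vale.Agent.Lib.P227L
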