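import Mathlib
import Vale.Agent.Lib.P227L.Rel

/-!
# The volume of a Wulff body as an integral of a determinant
-/

open MeasureTheory Set Filter Topology
open scoped ENNReal Matrix

namespace Vale.Agent.Lib.P227L

variable {ι : Type*} [Fintype ι] [DecidableEq ι]
variable {H h G G₁ G₂ : (ι → ℝ) → ℝ} {ξ ξ' u v w x : ι → ℝ}

/-- The standard basis. -/
def ee (a : ι) : ι → ℝ := Pi.single a 1

lemma eq_sum_ee (v : ι → ℝ) : v = ∑ a, v a • ee a := by
  ext k
  simp only [Finset.sum_apply, Pi.smul_apply, ee, smul_eq_mul, Pi.single_apply]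
  simp

lemma clm_apply_eq_sum (L : (ι → ℝ) →L[ℝ] ℝ) (v : ι → ℝ) : L v = ∑ a, v a * L (ee a) := by
  conv_lhs => rw [eq_sum_ee v]
  simp [map_sum]

/-- The gradient vector. -/
noncomputable def gradv (G : (ι → ℝ) → ℝ) (ξ : ι → ℝ) : ι → ℝ := fun a => fderiv ℝ G ξ (ee a)

lemma fderiv_eq_dot (G : (ι → ℝ) → ℝ) (ξ u : ι → ℝ) : fderiv ℝ G ξ u = gradv G ξ ⬝ᵥ u := by
  rw [clm_apply_eq_sum]
  unfold dotProduct gradv
  exact Finset.sum_congr rfl fun a _ => mul_comm _ _

/-- The map from the polar body to the Wulff body. -/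
noncomputable def Smap (h H : (ι → ℝ) → ℝ) (ξ : ι → ℝ) : ι → ℝ := h ξ • gradv H ξ

/-- The punctured polar body. -/
def pball (h : (ι → ℝ) → ℝ) : Set (ι → ℝ) := {ξ | ξ ≠ 0 ∧ h ξ ≤ 1}

lemma IsC2Plus.continuous (hH : IsC2Plus H) : Continuous H := by
  obtain ⟨C, hC, hup⟩ := exists_upper hH
  rw [continuous_iff_continuousAt]
  intro ξ
  by_cases hξ : ξ = 0
  · subst hξ
    have h0 : Tendsto (fun u : ι → ℝ => C * Real.sqrt (u ⬝ᵥ u)) (𝓝 0) (𝓝 0) := by
      have hc : Continuous fun u : ι → ℝ => C * Real.sqrt (u ⬝ᵥ u) :=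
        continuous_const.mul (Real.continuous_sqrt.comp continuous_dot_self)
      have := hc.tendsto (0 : ι → ℝ)
      simpa using this
    have h1 : Tendsto H (𝓝 0) (𝓝 0) :=
      tendsto_of_tendsto_of_tendsto_of_le_of_le tendsto_const_nhds h0
        (fun u => hH.nonneg u) (fun u => hup u)
    unfold ContinuousAt
    rw [hH.toIsHom2.zero]
    exact h1
  · exact (hH.toIsHom2.differentiableAt hξ).continuousAt

lemma smap_mem_wulff (hH : IsC2Plus H) (hh : IsC2Plus h) {ξ : ι → ℝ} (hξ : ξ ∈ pball h) :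
    Smap h H ξ ∈ wulff H := by
  intro u
  rw [Smap, smul_dotProduct, smul_eq_mul, ← fderiv_eq_dot]
  have h1 := hH.fderiv_le hξ.1 u
  have h2 := hH.nonneg u
  have h3 := hξ.2
  have h4 := hh.nonneg ξ
  calc h ξ * fderiv ℝ H ξ u ≤ h ξ * H u := mul_le_mul_of_nonneg_left h1 h4
    _ ≤ 1 * H u := mul_le_mul_of_nonneg_right h3 h2
    _ = H u := one_mul _

lemma gradv_ne_zero (hH : IsC2Plus H) (hξ : ξ ≠ 0) : gradv H ξ ≠ 0 := by
  intro h0
  have h1 := fderiv_eq_dot H ξ ξ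
  rw [hH.toIsHom2.euler hξ, h0] at h1
  have := hH.pos ξ hξ
  simp at h1
  linarith

lemma smap_ne_zero (hH : IsC2Plus H) (hh : IsC2Plus h) (hξ : ξ ≠ 0) : Smap h H ξ ≠ 0 :=
  smul_ne_zero (hh.pos ξ hξ).ne' (gradv_ne_zero hH hξ)

lemma gradv_smul (hG : IsHom2 G) {r : ℝ} (hr : 0 < r) (hξ : ξ ≠ 0) : gradv G (r • ξ) = gradv G ξ := by
  funext a
  simp only [gradv, hG.fderiv_smul hr hξ]

lemma isClosed_level (hh : IsC2Plus h) : IsClosed {u | h u = 1} :=
  isClosed_eq hh.continuous continuous_const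

lemma isCompact_level (hh : IsC2Plus h) : IsCompact {u | h u = 1} := by
  obtain ⟨c, hc, hlow⟩ := exists_lower hh
  apply Metric.isCompact_of_isClosed_isBounded (isClosed_level hh)
  have hb : ∀ u : ι → ℝ, h u = 1 → ‖u‖ ≤ 1 / c := by
    intro u hu
    have h1 := hlow u
    rw [hu] at h1
    have h2 : Real.sqrt (u ⬝ᵥ u) ≤ 1 / c := by
      rw [le_div_iff₀ hc]
      linarith
    refine (pi_norm_le_iff_of_nonneg (by positivity)).2 fun i => ?_
    rw [Real.norm_eq_abs]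
    refine le_trans ?_ h2
    apply Real.abs_le_sqrt
    rw [sq]
    exact Finset.single_le_sum (f := fun j => u j * u j) (fun j _ => mul_self_nonneg _)
      (Finset.mem_univ i)
  apply (Metric.isBounded_closedBall (x := (0 : ι → ℝ)) (r := 1 / c)).subset
  intro u hu
  rw [mem_closedBall_zero_iff]
  exact hb u hu

/-- Every point of the Wulff body is reached. -/
theorem exists_of_mem_wulff (hH : IsC2Plus H) (hh : IsC2Plus h) (hx : x ∈ wulff H) (hx0 : x ≠ 0) :
    ∃ ξ ∈ pball h, Smap h H ξ = x := by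
  classical
  have hK := isCompact_level hh
  have hne0 : ∀ u : ι → ℝ, h u = 1 → u ≠ 0 := by
    rintro u hu rfl
    rw [hh.toIsHom2.zero] at hu
    exact zero_ne_one hu
  have hxp := hh.pos x hx0
  -- the normalised point
  have hnorm : ∀ u : ι → ℝ, u ≠ 0 → h ((h u)⁻¹ • u) = 1 := by
    intro u hu
    have := hh.pos u hu
    rw [hh.toIsHom2.smul _ _ (inv_pos.2 this), inv_mul_cancel₀ this.ne']
  have hne : {u | h u = 1}.Nonempty := ⟨(h x)⁻¹ • x, hnorm x hx0⟩
  have hc : ContinuousOn (fun u => x ⬝ᵥ u / H u) {u | h u = 1} := by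
    apply ContinuousOn.div
    · have : Continuous fun u : ι → ℝ => x ⬝ᵥ u := by
        unfold dotProduct
        fun_prop
      exact this.continuousOn
    · exact hH.continuous.continuousOn
    · exact fun u hu => (hH.pos u (hne0 u hu)).ne'
  obtain ⟨u₀, hu₀, hmax⟩ := hK.exists_isMaxOn hne hc
  have hu₀0 := hne0 u₀ hu₀
  have hHu₀ := hH.pos u₀ hu₀0
  set m := x ⬝ᵥ u₀ / H u₀ with hm
  have hm1 : m ≤ 1 := by
    rw [hm, div_le_one hHu₀]
    exact hx u₀
  have hxu₀ : x ⬝ᵥ u₀ = m * H u₀ := by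
    rw [hm]
    field_simp
  -- the global inequality
  have hglob : ∀ u, x ⬝ᵥ u ≤ m * H u := by
    intro u
    by_cases hu : u = 0
    · subst hu
      simp [hH.toIsHom2.zero]
    have hup := hh.pos u hu
    have h1 : x ⬝ᵥ ((h u)⁻¹ • u) / H ((h u)⁻¹ • u) ≤ m := hmax (hnorm u hu)
    have hnz : (h u)⁻¹ • u ≠ 0 := smul_ne_zero (inv_pos.2 hup).ne' hu
    rw [div_le_iff₀ (hH.pos _ hnz), dotProduct_smul, hH.toIsHom2.smul _ _ (inv_pos.2 hup),
      smul_eq_mul] at h1
    have h2 : (h u)⁻¹ * (x ⬝ᵥ u) ≤ (h u)⁻¹ * (m * H u) := by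
      calc (h u)⁻¹ * (x ⬝ᵥ u) ≤ m * ((h u)⁻¹ * H u) := h1
        _ = _ := by ring
    exact le_of_mul_le_mul_left h2 (inv_pos.2 hup)
  -- first-order condition
  have hmaxψ : IsLocalMax (fun u => x ⬝ᵥ u - m * H u) u₀ := by
    apply Eventually.of_forall
    intro u
    simp only
    rw [hxu₀]
    have := hglob u
    linarith
  have hdot : HasFDerivAt (fun u : ι → ℝ => x ⬝ᵥ u)
      (∑ a, x a • (ContinuousLinearMap.proj a : (ι → ℝ) →L[ℝ] ℝ)) u₀ := by
    have : (fun u : ι → ℝ => x ⬝ᵥ u) = ⇑(∑ a, x a • (ContinuousLinearMap.proj a : (ι → ℝ) →L[ℝ] ℝ)) := by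
      funext u
      simp [dotProduct, ContinuousLinearMap.sum_apply]
    rw [this]
    exact ContinuousLinearMap.hasFDerivAt _
  have hder := hdot.sub ((hH.toIsHom2.hasFDerivAt hu₀0).const_mul m)
  have hzero := hmaxψ.hasFDerivAt_eq_zero hder
  have hgrad : x = m • gradv H u₀ := by
    funext a
    have h1 := congrArg (fun L : (ι → ℝ) →L[ℝ] ℝ => L (ee a)) hzero
    simp only [ContinuousLinearMap.sub_apply, ContinuousLinearMap.smul_apply,
      ContinuousLinearMap.zero_apply, ContinuousLinearMap.sum_apply, ContinuousLinearMap.proj_apply,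
      smul_eq_mul, ee, Pi.single_apply] at h1
    simp only [Pi.smul_apply, smul_eq_mul, gradv, ee]
    simpa [sub_eq_zero] using h1
  have hm0 : 0 < m := by
    have h1 : 0 < x ⬝ᵥ x := dot_self_pos hx0
    have h2 := hglob x
    have h3 := hH.pos x hx0
    by_contra hcon
    push_neg at hcon
    nlinarith
  refine ⟨m • u₀, ⟨smul_ne_zero hm0.ne' hu₀0, ?_⟩, ?_⟩
  · rw [hh.toIsHom2.smul _ _ hm0, hu₀, mul_one]
    exact hm1
  · rw [Smap, gradv_smul hH.toIsHom2 hm0 hu₀0, hh.toIsHom2.smul _ _ hm0, hu₀, mul_one]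
    exact hgrad.symm

/-- The image of the punctured polar body. -/
theorem image_smap (hH : IsC2Plus H) (hh : IsC2Plus h) :
    Smap h H '' pball h = wulff H \ {0} := by
  ext x
  constructor
  · rintro ⟨ξ, hξ, rfl⟩
    exact ⟨smap_mem_wulff hH hh hξ, smap_ne_zero hH hh hξ.1⟩
  · rintro ⟨hx, hx0⟩
    obtain ⟨ξ, hξ, rfl⟩ := exists_of_mem_wulff hH hh hx hx0
    exact ⟨ξ, hξ, rfl⟩

/-- The map is injective. -/
theorem smap_injOn (hH : IsC2Plus H) (hh : IsC2Plus h) : InjOn (Smap h H) {0}ᶜ := by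
  intro ξ hξ ξ' hξ' he
  have hξ0 : ξ ≠ 0 := hξ
  have hξ'0 : ξ' ≠ 0 := hξ'
  have hp := hh.pos ξ hξ0
  have hp' := hh.pos ξ' hξ'0
  have hq := hH.pos ξ hξ0
  have hq' := hH.pos ξ' hξ'0
  -- comparison of the levels
  have key : ∀ {a b : ι → ℝ}, a ≠ 0 → b ≠ 0 → Smap h H a = Smap h H b → h b ≤ h a := by
    intro a b ha hb hab
    have h1 : Smap h H b ⬝ᵥ b = h b * H b := by
      rw [Smap, smul_dotProduct, smul_eq_mul, ← fderiv_eq_dot, hH.toIsHom2.euler hb]
    have h2 : Smap h H a ⬝ᵥ b ≤ h a * H b := by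
      rw [Smap, smul_dotProduct, smul_eq_mul, ← fderiv_eq_dot]
      exact mul_le_mul_of_nonneg_left (hH.fderiv_le ha b) (hh.nonneg a)
    rw [← hab, ] at h1
    rw [h1] at h2
    exact le_of_mul_le_mul_right h2 (hH.pos b hb)
  have hlev : h ξ = h ξ' := le_antisymm (key hξ'0 hξ0 he.symm) (key hξ0 hξ'0 he)
  have hgrad : gradv H ξ = gradv H ξ' := by
    have := he
    rw [Smap, Smap, hlev] at this
    exact smul_right_injective _ hp'.ne' this
  have hf : fderiv ℝ H ξ = fderiv ℝ H ξ' := by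
    ext a
    rw [fderiv_eq_dot, fderiv_eq_dot, hgrad]
  obtain ⟨c, hc, hcξ⟩ := hH.ray_of_fderiv_eq hξ0 hξ'0 hf
  have : c = 1 := by
    have h1 := hlev
    rw [hcξ, hh.toIsHom2.smul c ξ hc] at h1
    have : h ξ * (1 - c) = 0 := by linarith
    have := (mul_eq_zero.1 this).resolve_left hp.ne'
    linarith
  rw [hcξ, this, one_smul]

/-- The continuous linear map which is the derivative of the gradient vector. -/
noncomputable def Dgrad (H : (ι → ℝ) → ℝ) (ξ : ι → ℝ) : (ι → ℝ) →L[ℝ] (ι → ℝ) :=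
  ContinuousLinearMap.pi fun a => (fderiv ℝ (fderiv ℝ H) ξ).flip (ee a)

lemma IsHom2.hasFDerivAt_gradv (hG : IsHom2 G) (hξ : ξ ≠ 0) :
    HasFDerivAt (gradv G) (Dgrad G ξ) ξ := by
  rw [show gradv G = fun x a => fderiv ℝ G x (ee a) from rfl]
  refine hasFDerivAt_pi.2 fun a => ?_
  have := (hG.hasFDerivAt_fderiv hξ).clm_apply (hasFDerivAt_const (ee a) ξ)
  convert this using 1
  ext v
  simp

/-- The derivative of `Smap`. -/
noncomputable def Smap' (h H : (ι → ℝ) → ℝ) (ξ : ι → ℝ) : (ι → ℝ) →L[ℝ] (ι → ℝ) :=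
  h ξ • Dgrad H ξ + (fderiv ℝ h ξ).smulRight (gradv H ξ)

lemma hasFDerivAt_smap (hh : IsHom2 h) (hH : IsHom2 H) (hξ : ξ ≠ 0) :
    HasFDerivAt (Smap h H) (Smap' h H ξ) ξ :=
  (hh.hasFDerivAt hξ).smul (hH.hasFDerivAt_gradv hξ)

/-- The matrix of the derivative of `Smap`. -/
noncomputable def matM (h H : (ι → ℝ) → ℝ) (ξ : ι → ℝ) : Matrix ι ι ℝ :=
  Matrix.of fun a b => gradv H ξ a * gradv h ξ b + h ξ * D2 H ξ (ee b) (ee a)

lemma smap'_apply (v : ι → ℝ) (a : ι) :
    Smap' h H ξ v a = ∑ b, matM h H ξ a b * v b := by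
  have h1 : fderiv ℝ h ξ v = ∑ b, v b * gradv h ξ b := clm_apply_eq_sum _ v
  have h2 : fderiv ℝ (fderiv ℝ H) ξ v (ee a) = ∑ b, v b * D2 H ξ (ee b) (ee a) := by
    have := clm_apply_eq_sum ((fderiv ℝ (fderiv ℝ H) ξ).flip (ee a)) v
    simpa [D2] using this
  simp only [Smap', Dgrad, ContinuousLinearMap.add_apply, ContinuousLinearMap.smul_apply,
    ContinuousLinearMap.smulRight_apply, Pi.add_apply, Pi.smul_apply,
    ContinuousLinearMap.coe_pi', ContinuousLinearMap.flip_apply, smul_eq_mul, h1, h2, matM,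
    Matrix.of_apply]
  rw [Finset.mul_sum, Finset.sum_mul, ← Finset.sum_add_distrib]
  refine Finset.sum_congr rfl fun b _ => ?_
  ring

lemma det_smap' : (Smap' h H ξ).det = (matM h H ξ).det := by
  have : ((Smap' h H ξ : (ι → ℝ) →L[ℝ] (ι → ℝ)) : (ι → ℝ) →ₗ[ℝ] (ι → ℝ)) = Matrix.toLin' (matM h H ξ) := by
    refine LinearMap.ext fun v => ?_
    funext a
    rw [Matrix.toLin'_apply]
    simp only [ContinuousLinearMap.coe_coe, smap'_apply, Matrix.mulVec, dotProduct]
  rw [ContinuousLinearMap.det, this, LinearMap.det_toLin']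

/-- The symmetric matrix appearing in the positivity of the determinant. -/
noncomputable def matT (H : (ι → ℝ) → ℝ) (ξ : ι → ℝ) : Matrix ι ι ℝ :=
  Matrix.of fun a b => gradv H ξ a * gradv H ξ b + H ξ * D2 H ξ (ee b) (ee a)

lemma D2_eq_sum (H : (ι → ℝ) → ℝ) (ξ v w : ι → ℝ) :
    D2 H ξ v w = ∑ a, ∑ b, w a * (D2 H ξ (ee b) (ee a) * v b) := by
  have h1 : D2 H ξ v w = ∑ a, w a * D2 H ξ v (ee a) := by
    exact clm_apply_eq_sum (fderiv ℝ (fderiv ℝ H) ξ v) w
  rw [h1]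
  refine Finset.sum_congr rfl fun a _ => ?_
  rw [← Finset.mul_sum]
  congr 1
  have := clm_apply_eq_sum ((fderiv ℝ (fderiv ℝ H) ξ).flip (ee a)) v
  simp only [ContinuousLinearMap.flip_apply] at this
  rw [D2, this]
  exact Finset.sum_congr rfl fun b _ => mul_comm _ _

lemma matT_posDef (hH : IsC2Plus H) (hξ : ξ ≠ 0) : (matT H ξ).PosDef := by
  apply Matrix.PosDef.of_dotProduct_mulVec_pos
  · ext a b
    simp only [Matrix.conjTranspose_apply, matT, Matrix.of_apply, star_trivial]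
    rw [hH.toIsHom2.D2_symm hξ]
    ring
  · intro x hx
    have h1 : star x ⬝ᵥ matT H ξ *ᵥ x = (gradv H ξ ⬝ᵥ x) ^ 2 + H ξ * D2 H ξ x x := by
      rw [D2_eq_sum H ξ x x, star_trivial, sq]
      simp only [dotProduct, Matrix.mulVec, matT, Matrix.of_apply]
      rw [Finset.sum_mul_sum, Finset.mul_sum, ← Finset.sum_add_distrib]
      refine Finset.sum_congr rfl fun a _ => ?_
      rw [Finset.mul_sum, Finset.mul_sum, ← Finset.sum_add_distrib]
      refine Finset.sum_congr rfl fun b _ => ?_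
      ring
    rw [h1]
    have hq := hH.pos ξ hξ
    by_cases hw : ∃ c : ℝ, x = c • ξ
    · obtain ⟨c, rfl⟩ := hw
      have hc : c ≠ 0 := by
        rintro rfl
        simp at hx
      rw [hH.toIsHom2.D2_smul_radial hξ, dotProduct_smul, ← fderiv_eq_dot, hH.toIsHom2.euler hξ]
      simp only [smul_eq_mul, mul_zero, add_zero]
      have : c * H ξ ≠ 0 := mul_ne_zero hc hq.ne'
      positivity
    · push_neg at hw
      have := hH.hess ξ hξ x hw
      have h3 := sq_nonneg (gradv H ξ ⬝ᵥ x)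
      have h4 := mul_pos hq this
      linarith

/-- Positivity of the determinant. -/
theorem matM_det_pos (hH : IsC2Plus H) (hh : IsC2Plus h) (hξ : ξ ≠ 0) : 0 < (matM h H ξ).det := by
  classical
  have hp := hh.pos ξ hξ
  have hq := hH.pos ξ hξ
  set κ := H ξ / h ξ with hκ
  have hκp : 0 < κ := div_pos hq hp
  set v := gradv H ξ with hv
  set p := gradv h ξ with hpd
  -- the auxiliary matrix
  set Gm : Matrix ι ι ℝ := κ • (1 + Matrix.replicateCol Unit ((κ * h ξ)⁻¹ • ξ)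
    * Matrix.replicateRow Unit (v - κ • p)) with hGm
  have hdetG : Gm.det = κ ^ Fintype.card ι := by
    rw [hGm, Matrix.det_smul, Matrix.det_one_add_replicateCol_mul_replicateRow]
    have e1 : (v - κ • p) ⬝ᵥ ((κ * h ξ)⁻¹ • ξ) = 0 := by
      rw [dotProduct_smul, sub_dotProduct, smul_dotProduct, hv, hpd, ← fderiv_eq_dot, ← fderiv_eq_dot,
        hH.toIsHom2.euler hξ, hh.toIsHom2.euler hξ, hκ, smul_eq_mul, smul_eq_mul]
      field_simp
      ring
    rw [e1]
    simp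
  have hmul : matM h H ξ * Gm = matT H ξ := by
    ext a b
    have s1 : ∑ c, p c * ξ c = h ξ := by
      have := fderiv_eq_dot h ξ ξ
      rw [hh.toIsHom2.euler hξ] at this
      exact this.symm
    have s2 : ∑ c, D2 H ξ (ee c) (ee a) * ξ c = 0 := by
      have h1 := clm_apply_eq_sum ((fderiv ℝ (fderiv ℝ H) ξ).flip (ee a)) ξ
      simp only [ContinuousLinearMap.flip_apply] at h1
      have h2 := hH.toIsHom2.D2_radial_left hξ (ee a)
      simp only [D2] at h2 ⊢
      rw [h2] at h1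
      rw [h1]
      exact Finset.sum_congr rfl fun c _ => mul_comm _ _
    have e0 : ∀ c, Gm c b = κ * ((if c = b then 1 else 0) + (κ * h ξ)⁻¹ * ξ c * (v b - κ * p b)) := by
      intro c
      simp only [hGm, Matrix.smul_apply, Matrix.add_apply, Matrix.one_apply, Matrix.mul_apply,
        Matrix.replicateCol_apply, Matrix.replicateRow_apply, Pi.smul_apply, Pi.sub_apply, smul_eq_mul]
      simp
    rw [Matrix.mul_apply]
    simp only [e0, matM, matT, Matrix.of_apply, ← hv, ← hpd]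
    have e1 : ∀ c, (v a * p c + h ξ * D2 H ξ (ee c) (ee a)) *
        (κ * ((if c = b then 1 else 0) + (κ * h ξ)⁻¹ * ξ c * (v b - κ * p b)))
        = κ * (v a * p c + h ξ * D2 H ξ (ee c) (ee a)) * (if c = b then 1 else 0)
          + (κ * (κ * h ξ)⁻¹ * (v b - κ * p b)) * (v a * (p c * ξ c) + h ξ * (D2 H ξ (ee c) (ee a) * ξ c)) := by
      intro c
      ring
    simp_rw [e1]
    rw [Finset.sum_add_distrib, ← Finset.mul_sum, Finset.sum_add_distrib, ← Finset.mul_sum,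
      ← Finset.mul_sum, s1, s2]
    simp only [mul_ite, mul_one, mul_zero, Finset.sum_ite_eq', Finset.mem_univ, if_true]
    have e2 : κ * h ξ = H ξ := by
      rw [hκ]
      field_simp
    have e3 : κ * (κ * h ξ)⁻¹ = (h ξ)⁻¹ := by
      rw [mul_inv, ← mul_assoc, mul_inv_cancel₀ hκp.ne', one_mul]
    rw [e3]
    have e4 : H ξ * D2 H ξ (ee b) (ee a) = κ * (h ξ * D2 H ξ (ee b) (ee a)) := by
      rw [← mul_assoc, e2]
    rw [e4]
    field_simp
    ring
  have hT := (matT_posDef hH hξ).det_pos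
  rw [← hmul, Matrix.det_mul, hdetG] at hT
  exact (mul_pos_iff_of_pos_right (pow_pos hκp _)).1 hT

end Vale.Agent.Lib.P227L
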