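import Mathlib
import Vale.Agent.Lib.P227L.Area

/-!
# The volume formula
-/

open MeasureTheory Set Filter Topology
open scoped ENNReal Matrix

namespace Vale.Agent.Lib.P227L

variable {ι : Type*} [Fintype ι] [DecidableEq ι]
variable {H h G G₁ G₂ : (ι → ℝ) → ℝ} {ξ ξ' u v w x : ι → ℝ}

/-- The volume of a Wulff set, as a real number. -/
noncomputable def Vol (f : (ι → ℝ) → ℝ) : ℝ := (volume (wulff f)).toReal

omit [DecidableEq ι] in
lemma isClosed_wulff (f : (ι → ℝ) → ℝ) : IsClosed (wulff f) := by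
  have : wulff f = ⋂ u, {x : ι → ℝ | x ⬝ᵥ u ≤ f u} := by
    ext x
    simp [wulff]
  rw [this]
  refine isClosed_iInter fun u => isClosed_le ?_ continuous_const
  unfold dotProduct
  fun_prop

omit [DecidableEq ι] in
/-- Bounds for the Wulff set of a function dominated by a support function. -/
lemma norm_le_of_mem_wulff {f : (ι → ℝ) → ℝ} {C : ℝ} (hC : 0 ≤ C)
    (hf : ∀ u, f u ≤ C * Real.sqrt (u ⬝ᵥ u)) (hx : x ∈ wulff f) : ‖x‖ ≤ C := by
  by_cases hx0 : x = 0
  · subst hx0
    simpa using hC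
  have h1 := (hx x).trans (hf x)
  have hp := dot_self_pos hx0
  have hs : Real.sqrt (x ⬝ᵥ x) * Real.sqrt (x ⬝ᵥ x) = x ⬝ᵥ x := Real.mul_self_sqrt hp.le
  have hsp : 0 < Real.sqrt (x ⬝ᵥ x) := Real.sqrt_pos.2 hp
  have h2 : Real.sqrt (x ⬝ᵥ x) ≤ C := by
    by_contra hcon
    push_neg at hcon
    nlinarith
  refine (pi_norm_le_iff_of_nonneg hC).2 fun i => ?_
  rw [Real.norm_eq_abs]
  refine le_trans ?_ h2
  apply Real.abs_le_sqrt
  rw [sq]
  classical
  exact Finset.single_le_sum (f := fun j => x j * x j) (fun j _ => mul_self_nonneg _)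
    (Finset.mem_univ i)

omit [DecidableEq ι] in
lemma isCompact_wulff_of_le {f : (ι → ℝ) → ℝ} {C : ℝ} (hC : 0 ≤ C)
    (hf : ∀ u, f u ≤ C * Real.sqrt (u ⬝ᵥ u)) : IsCompact (wulff f) := by
  apply Metric.isCompact_of_isClosed_isBounded (isClosed_wulff f)
  apply (Metric.isBounded_closedBall (x := (0 : ι → ℝ)) (r := C)).subset
  intro x hx
  rw [mem_closedBall_zero_iff]
  exact norm_le_of_mem_wulff hC hf hx

omit [DecidableEq ι] in
lemma IsC2Plus.isCompact_wulff (hH : IsC2Plus H) : IsCompact (wulff H) := by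
  obtain ⟨C, hC, hup⟩ := exists_upper hH
  exact isCompact_wulff_of_le hC.le hup

omit [DecidableEq ι] in
lemma IsC2Plus.volume_wulff_lt_top (hH : IsC2Plus H) : volume (wulff H) < ∞ :=
  hH.isCompact_wulff.measure_lt_top

lemma isOpen_compl_zero : IsOpen ({0}ᶜ : Set (ι → ℝ)) := isOpen_compl_singleton

lemma measurableSet_pball (hh : IsC2Plus h) : MeasurableSet (pball h) := by
  have : pball h = {0}ᶜ ∩ {ξ | h ξ ≤ 1} := by
    ext ξ
    simp [pball]
  rw [this]
  exact (isOpen_compl_zero.measurableSet).inter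
    (isClosed_le hh.continuous continuous_const).measurableSet

lemma volume_zero_singleton [Nonempty ι] : volume ({0} : Set (ι → ℝ)) = 0 := by
  have h1 : ({0} : Set (ι → ℝ)) = Metric.closedBall 0 0 := by simp
  rw [h1, Real.volume_pi_closedBall _ le_rfl]
  simp [Fintype.card_ne_zero]

/-- The volume formula, with the lower Lebesgue integral. -/
theorem volume_wulff_eq [Nonempty ι] (hH : IsC2Plus H) (hh : IsC2Plus h) :
    volume (wulff H) = ∫⁻ ξ in pball h, ENNReal.ofReal (matM h H ξ).det := by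
  have h1 := lintegral_abs_det_fderiv_eq_addHaar_image (volume : Measure (ι → ℝ))
    (s := pball h) (f := Smap h H) (f' := Smap' h H) (measurableSet_pball hh)
    (fun ξ hξ => (hasFDerivAt_smap hh.toIsHom2 hH.toIsHom2 hξ.1).hasFDerivWithinAt)
    ((smap_injOn hH hh).mono fun ξ hξ => hξ.1)
  rw [image_smap hH hh, measure_diff_null volume_zero_singleton] at h1
  rw [← h1]
  apply setLIntegral_congr_fun (measurableSet_pball hh)
  intro ξ hξ
  simp only
  rw [det_smap', abs_of_pos (matM_det_pos hH hh hξ.1)]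

lemma IsHom2.continuousAt_gradv (hG : IsHom2 G) (hξ : ξ ≠ 0) (a : ι) :
    ContinuousAt (fun x => gradv G x a) ξ := by
  have h0 : ContinuousAt (fderiv ℝ G) ξ := (hG.contDiffAt_fderiv hξ).continuousAt
  exact h0.clm_apply continuousAt_const

lemma IsHom2.continuousAt_D2_ee (hG : IsHom2 G) (hξ : ξ ≠ 0) (b a : ι) :
    ContinuousAt (fun x => D2 G x (ee b) (ee a)) ξ := by
  have h0 : ContDiffAt ℝ 0 (fderiv ℝ (fderiv ℝ G)) ξ :=
    (hG.contDiffAt_fderiv hξ).fderiv_right (m := 0) (by norm_num)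
  exact (h0.continuousAt.clm_apply continuousAt_const).clm_apply continuousAt_const

lemma continuousOn_det_matM (hh : IsHom2 h) (hG : IsHom2 G) :
    ContinuousOn (fun ξ => (matM h G ξ).det) ({0}ᶜ : Set (ι → ℝ)) := by
  have hM : ContinuousOn (matM h G) ({0}ᶜ : Set (ι → ℝ)) := by
    intro ξ hξ
    refine ContinuousAt.continuousWithinAt ?_
    refine continuousAt_pi.2 fun a => continuousAt_pi.2 fun b => ?_
    have hc : ContinuousAt h ξ := (hh.differentiableAt hξ).continuousAt
    exact ((hG.continuousAt_gradv hξ a).mul (hh.continuousAt_gradv hξ b)).add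
      (hc.mul (hG.continuousAt_D2_ee hξ b a))
  exact (continuous_id.matrix_det).comp_continuousOn hM

/-- The determinant is integrable on the punctured polar body. -/
theorem integrableOn_det [Nonempty ι] (hH : IsC2Plus H) (hh : IsC2Plus h) :
    IntegrableOn (fun ξ => (matM h H ξ).det) (pball h) := by
  have hm : AEStronglyMeasurable (fun ξ => (matM h H ξ).det) (volume.restrict (pball h)) :=
    ((continuousOn_det_matM hh.toIsHom2 hH.toIsHom2).mono fun ξ hξ => hξ.1).aestronglyMeasurable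
      (measurableSet_pball hh)
  refine ⟨hm, ?_⟩
  rw [hasFiniteIntegral_iff_ofReal]
  · rw [← volume_wulff_eq hH hh]
    exact hH.volume_wulff_lt_top
  · exact (ae_restrict_iff' (measurableSet_pball hh)).2
      (Eventually.of_forall fun ξ hξ => (matM_det_pos hH hh hξ.1).le)

/-- The volume formula, with the integral. -/
theorem vol_eq_integral [Nonempty ι] (hH : IsC2Plus H) (hh : IsC2Plus h) :
    Vol H = ∫ ξ in pball h, (matM h H ξ).det := by
  have hm : AEStronglyMeasurable (fun ξ => (matM h H ξ).det) (volume.restrict (pball h)) :=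
    ((continuousOn_det_matM hh.toIsHom2 hH.toIsHom2).mono fun ξ hξ => hξ.1).aestronglyMeasurable
      (measurableSet_pball hh)
  rw [integral_eq_lintegral_of_nonneg_ae ?_ hm, ← volume_wulff_eq hH hh, Vol]
  exact (ae_restrict_iff' (measurableSet_pball hh)).2
    (Eventually.of_forall fun ξ hξ => (matM_det_pos hH hh hξ.1).le)

/-! ### Affine dependence of the matrix -/

lemma gradv_comb (hh : IsHom2 h) (h1 : IsHom2 G₁) (h2 : IsHom2 G₂) (s t : ℝ) (hξ : ξ ≠ 0) :
    gradv (comb h G₁ G₂ s t) ξ = gradv h ξ + s • gradv G₁ ξ + t • gradv G₂ ξ := by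
  funext a
  simp only [gradv, hh.fderiv_comb h1 h2 s t hξ, ContinuousLinearMap.add_apply,
    ContinuousLinearMap.smul_apply, Pi.add_apply, Pi.smul_apply]

lemma matM_comb (hh : IsHom2 h) (h1 : IsHom2 G₁) (h2 : IsHom2 G₂) (s t : ℝ) (hξ : ξ ≠ 0) :
    matM h (comb h G₁ G₂ s t) ξ = matM h h ξ + s • matM h G₁ ξ + t • matM h G₂ ξ := by
  ext a b
  simp only [matM, Matrix.add_apply, Matrix.smul_apply, Matrix.of_apply, smul_eq_mul,
    gradv_comb hh h1 h2 s t hξ, hh.D2_comb h1 h2 s t hξ, Pi.add_apply, Pi.smul_apply]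
  ring

/-! ### Lagrange interpolation of determinants -/

/-- Interpolation in one variable. -/
lemma det_lagrange (A B : Matrix ι ι ℝ) {s : Finset ℕ} {nd : ℕ → ℝ}
    (hs : s.card = Fintype.card ι + 1) (hnd : Set.InjOn nd s) (x : ℝ) :
    (A + x • B).det = ∑ k ∈ s, (A + nd k • B).det * (Lagrange.basis s nd k).eval x := by
  set P : Polynomial ℝ := ((Polynomial.X : Polynomial ℝ) • B.map Polynomial.C + A.map Polynomial.C).det
    with hP
  have hev : ∀ y : ℝ, P.eval y = (A + y • B).det := by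
    intro y
    have h1 := RingHom.map_det (Polynomial.evalRingHom y)
      ((Polynomial.X : Polynomial ℝ) • B.map Polynomial.C + A.map Polynomial.C)
    simp only [Polynomial.coe_evalRingHom] at h1
    rw [hP, h1]
    congr 1
    ext a b
    simp [add_comm, Matrix.add_apply]
    ring
  have hdeg : P.degree < (s.card : WithBot ℕ) := by
    have h2 : P.natDegree ≤ Fintype.card ι := Polynomial.natDegree_det_X_add_C_le B A
    have h3 : P.natDegree < s.card := by omega
    exact Polynomial.degree_le_natDegree.trans_lt (by exact_mod_cast h3)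
  have h4 := Lagrange.eq_interpolate hnd hdeg
  rw [← hev x]
  conv_lhs => rw [h4]
  rw [Lagrange.interpolate_apply, Polynomial.eval_finset_sum]
  refine Finset.sum_congr rfl fun k _ => ?_
  rw [Polynomial.eval_mul, Polynomial.eval_C, hev]

/-- Interpolation in two variables. -/
lemma det_lagrange2 (A B C : Matrix ι ι ℝ) {s : Finset ℕ} {nd : ℕ → ℝ}
    (hs : s.card = Fintype.card ι + 1) (hnd : Set.InjOn nd s) (x y : ℝ) :
    (A + x • B + y • C).det = ∑ k ∈ s, ∑ l ∈ s, (A + nd k • B + nd l • C).det *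
      ((Lagrange.basis s nd k).eval x * (Lagrange.basis s nd l).eval y) := by
  have e1 : A + x • B + y • C = (A + y • C) + x • B := by abel
  rw [e1, det_lagrange (A + y • C) B hs hnd x]
  refine Finset.sum_congr rfl fun k _ => ?_
  have e2 : A + y • C + nd k • B = (A + nd k • B) + y • C := by abel
  rw [e2, det_lagrange (A + nd k • B) C hs hnd y, Finset.sum_mul]
  refine Finset.sum_congr rfl fun l _ => ?_
  ring

/-- The volume of a two-parameter perturbation is a polynomial in the parameters. -/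
theorem vol_comb_poly [Nonempty ι] (hh : IsC2Plus h) (h1 : IsHom2 G₁) (h2 : IsHom2 G₂) :
    ∃ ρ : ℝ, 0 < ρ ∧ (∀ s t : ℝ, |s| ≤ ρ → |t| ≤ ρ → IsC2Plus (comb h G₁ G₂ s t)) ∧
      ∃ (S : Finset ℕ) (c : ℕ → ℕ → ℝ) (p : ℕ → Polynomial ℝ), ∀ s t : ℝ, |s| ≤ ρ → |t| ≤ ρ →
        Vol (comb h G₁ G₂ s t) = ∑ k ∈ S, ∑ l ∈ S, c k l * ((p k).eval s * (p l).eval t) := by
  obtain ⟨ρ, hρ, hplus⟩ := exists_comb_plus hh h1 h2
  set n := Fintype.card ι with hn
  set S : Finset ℕ := Finset.range (n + 1) with hS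
  have hScard : S.card = Fintype.card ι + 1 := by simp [hS, hn]
  set nd : ℕ → ℝ := fun k => ρ * ((k : ℝ) / ((n : ℝ) + 1)) with hnd
  have hinj : Set.InjOn nd S := by
    intro i _ j _ hij
    have h3 : (n : ℝ) + 1 ≠ 0 := by positivity
    simp only [hnd] at hij
    have h4 := mul_left_cancel₀ hρ.ne' hij
    have h5 : (i : ℝ) = j := (div_left_inj' h3).1 h4
    exact_mod_cast h5
  have hndb : ∀ k ∈ S, |nd k| ≤ ρ := by
    intro k hk
    have hk' : k < n + 1 := Finset.mem_range.1 hk
    have h3 : (k : ℝ) ≤ (n : ℝ) + 1 := by exact_mod_cast hk'.le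
    have h4 : (0 : ℝ) < (n : ℝ) + 1 := by positivity
    simp only [hnd]
    rw [abs_of_nonneg (by positivity)]
    have h5 : (k : ℝ) / ((n : ℝ) + 1) ≤ 1 := (div_le_one h4).2 h3
    nlinarith
  refine ⟨ρ, hρ, hplus, S, fun k l => Vol (comb h G₁ G₂ (nd k) (nd l)),
    fun k => Lagrange.basis S nd k, ?_⟩
  intro s t hs ht
  have hform : ∀ s t : ℝ, |s| ≤ ρ → |t| ≤ ρ → Vol (comb h G₁ G₂ s t)
      = ∫ ξ in pball h, (matM h h ξ + s • matM h G₁ ξ + t • matM h G₂ ξ).det := by
    intro s t hs ht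
    rw [vol_eq_integral (hplus s t hs ht) hh]
    apply setIntegral_congr_fun (measurableSet_pball hh)
    intro ξ hξ
    simp only
    rw [matM_comb hh.toIsHom2 h1 h2 s t hξ.1]
  have hint : ∀ s t : ℝ, |s| ≤ ρ → |t| ≤ ρ →
      IntegrableOn (fun ξ => (matM h h ξ + s • matM h G₁ ξ + t • matM h G₂ ξ).det) (pball h) := by
    intro s t hs ht
    apply (integrableOn_det (hplus s t hs ht) hh).congr_fun _ (measurableSet_pball hh)
    intro ξ hξ
    simp only
    rw [matM_comb hh.toIsHom2 h1 h2 s t hξ.1]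
  rw [hform s t hs ht]
  have hpt : ∀ ξ, (matM h h ξ + s • matM h G₁ ξ + t • matM h G₂ ξ).det
      = ∑ k ∈ S, ∑ l ∈ S, (matM h h ξ + nd k • matM h G₁ ξ + nd l • matM h G₂ ξ).det *
        ((Lagrange.basis S nd k).eval s * (Lagrange.basis S nd l).eval t) :=
    fun ξ => det_lagrange2 _ _ _ hScard hinj s t
  simp_rw [hpt]
  rw [integral_finset_sum]
  · refine Finset.sum_congr rfl fun k hk => ?_
    rw [integral_finset_sum]
    · refine Finset.sum_congr rfl fun l hl => ?_
      rw [integral_mul_const, hform _ _ (hndb k hk) (hndb l hl)]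
    · intro l hl
      exact (hint _ _ (hndb k hk) (hndb l hl)).mul_const _
  · intro k hk
    exact integrable_finset_sum _ fun l hl => (hint _ _ (hndb k hk) (hndb l hl)).mul_const _

end Vale.Agent.Lib.P227L
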