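import Mathlib
import Vale.Agent.Lib.P227L.Vol
import Vale.Agent.Lib.P227L.Taylor2

/-!
# The coefficients of the volume
-/

open MeasureTheory Set Filter Topology
open scoped ENNReal Matrix

namespace Vale.Agent.Lib.P227L

variable {ι : Type*} [Fintype ι] [DecidableEq ι]
variable {H h G G₁ G₂ : (ι → ℝ) → ℝ}

/-- The expansion of the volume of a two-parameter family. -/
theorem exists_T2_comb [Nonempty ι] (hh : IsC2Plus h) (h1 : IsHom2 G₁) (h2 : IsHom2 G₂) :
    T2ex fun s t => Vol (comb h G₁ G₂ s t) := by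
  obtain ⟨ρ, hρ, hplus, S, c, p, hpoly⟩ := vol_comb_poly hh h1 h2
  have h3 : T2ex fun s t => ∑ k ∈ S, ∑ l ∈ S, c k l * ((p k).eval s * (p l).eval t) := by
    refine T2ex.sum S fun k _ => T2ex.sum S fun l _ => ?_
    exact ⟨_, _, _, _, _, _, (T2_poly_mul (p k) (p l)).const_mul (c k l)⟩
  obtain ⟨A, B, C, D, E, F, h4⟩ := h3
  exact ⟨A, B, C, D, E, F, h4.congr hρ hpoly⟩

/-- A one-parameter perturbation. -/
def lin (h G : (ι → ℝ) → ℝ) (τ : ℝ) : (ι → ℝ) → ℝ := fun x => h x + τ * G x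

omit [DecidableEq ι] in
lemma comb_zero_right (h G₁ G₂ : (ι → ℝ) → ℝ) (τ : ℝ) : comb h G₁ G₂ τ 0 = lin h G₁ τ := by
  funext x
  simp [comb, lin]

omit [DecidableEq ι] in
lemma comb_zero_left (h G₁ G₂ : (ι → ℝ) → ℝ) (τ : ℝ) : comb h G₁ G₂ 0 τ = lin h G₂ τ := by
  funext x
  simp [comb, lin]

omit [DecidableEq ι] in
lemma comb_diag (h G₁ G₂ : (ι → ℝ) → ℝ) (τ : ℝ) :
    comb h G₁ G₂ τ τ = lin h (fun x => G₁ x + G₂ x) τ := by
  funext x
  simp only [comb, lin]
  ring

/-- The first and second coefficients of the volume in the direction `G`. -/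
theorem exists_T1_lin [Nonempty ι] (hh : IsC2Plus h) (hG : IsHom2 G) :
    ∃ a b, T1 (fun τ => Vol (lin h G τ)) (Vol h) a b := by
  obtain ⟨A, B, C, D, E, F, h1⟩ := exists_T2_comb hh hG (IsHom2.isHom2_zero (ι := ι))
  have h2 := h1.curve 1 0 0 0
  simp only [one_mul, zero_mul, add_zero, mul_one, zero_add, one_pow, mul_zero, ne_eq,
    OfNat.ofNat_ne_zero, not_false_eq_true, zero_pow] at h2
  simp only [comb_zero_right] at h2
  have h3 : A = Vol h := by
    have := h2.at_zero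
    rw [← this]
    congr 1
    funext x
    simp [lin]
  rw [h3] at h2
  exact ⟨_, _, h2⟩

open Classical in
/-- The first coefficient. -/
noncomputable def c1 (h G : (ι → ℝ) → ℝ) : ℝ :=
  if hc : ∃ a b, T1 (fun τ => Vol (lin h G τ)) (Vol h) a b then hc.choose else 0

open Classical in
/-- The second coefficient. -/
noncomputable def c2 (h G : (ι → ℝ) → ℝ) : ℝ :=
  if hc : ∃ a b, T1 (fun τ => Vol (lin h G τ)) (Vol h) a b then hc.choose_spec.choose else 0

lemma T1_lin [Nonempty ι] (hh : IsC2Plus h) (hG : IsHom2 G) :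
    T1 (fun τ => Vol (lin h G τ)) (Vol h) (c1 h G) (c2 h G) := by
  have hc := exists_T1_lin hh hG
  rw [c1, c2, dif_pos hc, dif_pos hc]
  exact hc.choose_spec.choose_spec

/-- The relations between the coefficients of a two-parameter family. -/
structure PairData (h G₁ G₂ : (ι → ℝ) → ℝ) (E : ℝ) : Prop where
  t2 : T2 (fun s t => Vol (comb h G₁ G₂ s t)) (Vol h) (c1 h G₁) (c1 h G₂) (c2 h G₁) E (c2 h G₂)
  add1 : c1 h (fun x => G₁ x + G₂ x) = c1 h G₁ + c1 h G₂
  add2 : c2 h (fun x => G₁ x + G₂ x) = c2 h G₁ + E + c2 h G₂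

theorem exists_pairData [Nonempty ι] (hh : IsC2Plus h) (h1 : IsHom2 G₁) (h2 : IsHom2 G₂) :
    ∃ E, PairData h G₁ G₂ E := by
  obtain ⟨A, B, C, D, E, F, ht⟩ := exists_T2_comb hh h1 h2
  have s1 := ht.curve 1 0 0 0
  simp only [one_mul, zero_mul, add_zero, mul_one, zero_add, one_pow, mul_zero, ne_eq,
    OfNat.ofNat_ne_zero, not_false_eq_true, zero_pow, comb_zero_right] at s1
  have s2 := ht.curve 0 0 1 0
  simp only [one_mul, zero_mul, add_zero, mul_one, zero_add, one_pow, mul_zero, ne_eq,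
    OfNat.ofNat_ne_zero, not_false_eq_true, zero_pow, comb_zero_left] at s2
  have s3 := ht.curve 1 0 1 0
  simp only [one_mul, zero_mul, add_zero, mul_one, zero_add, one_pow, mul_zero, comb_diag] at s3
  obtain ⟨a1, a2, a3⟩ := s1.unique (T1_lin hh h1)
  obtain ⟨_, b2, b3⟩ := s2.unique (T1_lin hh h2)
  have hGG := h1.add h2
  obtain ⟨_, c2', c3⟩ := s3.unique (T1_lin hh hGG)
  subst a1 a2 a3 b2 b3
  refine ⟨E, ht, c2'.symm, ?_⟩
  rw [← c3]

/-- Oddness of the second function forces the mixed term to vanish. -/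
theorem PairData.mixed_zero {E : ℝ} (hp : PairData h G₁ G₂ E)
    (hodd : ∀ s t, Vol (comb h G₁ G₂ s (-t)) = Vol (comb h G₁ G₂ s t)) :
    c1 h G₂ = 0 ∧ E = 0 := by
  have s3 := hp.t2.curve 1 0 1 0
  have s4 := hp.t2.curve 1 0 (-1) 0
  simp only [one_mul, zero_mul, add_zero, mul_one, zero_add, one_pow, mul_zero, neg_mul] at s3 s4
  simp only [hodd] at s4
  obtain ⟨_, h2, h3⟩ := s3.unique s4
  have h4 : (-1 : ℝ) ^ 2 = 1 := by norm_num
  simp only [mul_neg, mul_one, even_two, Even.neg_pow, one_pow] at h2 h3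
  constructor <;> linarith

end Vale.Agent.Lib.P227L
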