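import Mathlib
import Vale.Agent.Lib.P227L.Coeff

/-!
# Reflections and scaling of Wulff sets
-/

open MeasureTheory Set Filter Topology
open scoped ENNReal Matrix Pointwise

namespace Vale.Agent.Lib.P227L

variable {ι : Type*} [Fintype ι] [DecidableEq ι]
variable {H h G G₁ G₂ f f' : (ι → ℝ) → ℝ} {x u : ι → ℝ}

omit [Fintype ι] in
lemma refl_refl (i : ι) (x : ι → ℝ) : refl i (refl i x) = x := by
  funext k
  simp only [refl]
  split_ifs <;> simp

lemma refl_dot (i : ι) (x u : ι → ℝ) : refl i x ⬝ᵥ u = x ⬝ᵥ refl i u := by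
  simp only [dotProduct, refl]
  refine Finset.sum_congr rfl fun k _ => ?_
  split_ifs <;> ring

omit [Fintype ι] in
lemma refl_comm (i j : ι) (x : ι → ℝ) : refl i (refl j x) = refl j (refl i x) := by
  funext k
  simp only [refl]
  split_ifs <;> simp

omit [Fintype ι] in
lemma refl_neg (i : ι) (x : ι → ℝ) : refl i (-x) = - refl i x := by
  funext k
  simp only [refl, Pi.neg_apply]
  split_ifs <;> simp

omit [Fintype ι] in
lemma refl_smul (i : ι) (r : ℝ) (x : ι → ℝ) : refl i (r • x) = r • refl i x := by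
  funext k
  simp only [refl, Pi.smul_apply, smul_eq_mul]
  split_ifs <;> simp

omit [Fintype ι] in
lemma refl_eq_zero {i : ι} {x : ι → ℝ} : refl i x = 0 ↔ x = 0 := by
  constructor
  · intro h
    rw [← refl_refl i x, h]
    funext k
    simp [refl]
  · rintro rfl
    funext k
    simp [refl]

/-- The reflection as a continuous linear map. -/
noncomputable def reflL (i : ι) : (ι → ℝ) →L[ℝ] (ι → ℝ) :=
  ContinuousLinearMap.pi fun k =>
    if k = i then - ContinuousLinearMap.proj k else ContinuousLinearMap.proj k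

lemma reflL_apply (i : ι) (x : ι → ℝ) : reflL i x = refl i x := by
  funext k
  simp only [reflL, refl, ContinuousLinearMap.coe_pi', ]
  split_ifs <;> simp

lemma contDiff_refl (i : ι) : ContDiff ℝ 2 (refl i : (ι → ℝ) → (ι → ℝ)) := by
  have : (refl i : (ι → ℝ) → (ι → ℝ)) = reflL i := by
    funext x
    rw [reflL_apply]
  rw [this]
  exact (reflL i).contDiff

lemma measurePreserving_refl (i : ι) :
    MeasurePreserving (refl i : (ι → ℝ) → (ι → ℝ)) volume volume := by
  have h0 : ∀ k : ι, MeasurePreserving (fun t : ℝ => if k = i then -t else t) volume volume := by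
    intro k
    by_cases hk : k = i
    · simp only [hk, if_true]
      exact Measure.measurePreserving_neg volume
    · simp only [hk, if_false]
      exact MeasurePreserving.id volume
  have h1 := measurePreserving_pi (fun _ : ι => (volume : Measure ℝ)) (fun _ => volume) h0
  rw [volume_pi]
  exact h1

lemma IsHom2.comp_refl (hG : IsHom2 G) (i : ι) : IsHom2 (fun x => G (refl i x)) where
  cd := by
    refine hG.cd.comp (contDiff_refl i).contDiffOn ?_
    intro x hx h0
    exact hx (refl_eq_zero.1 h0)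
  even ξ := by rw [refl_neg, hG.even]
  smul r ξ hr := by rw [refl_smul, hG.smul _ _ hr]

omit [DecidableEq ι] in
lemma mem_wulff_iff : x ∈ wulff f ↔ ∀ u, x ⬝ᵥ u ≤ f u := Iff.rfl

lemma wulff_comp_refl (i : ι) (f : (ι → ℝ) → ℝ) :
    wulff (fun u => f (refl i u)) = refl i ⁻¹' wulff f := by
  ext x
  simp only [mem_preimage, mem_wulff_iff]
  constructor
  · intro h u
    have := h (refl i u)
    rw [refl_refl] at this
    rw [refl_dot]
    exact this
  · intro h u
    have := h (refl i u)
    rw [refl_dot, refl_refl] at this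
    exact this

omit [DecidableEq ι] in
lemma measurableSet_wulff (f : (ι → ℝ) → ℝ) : MeasurableSet (wulff f) :=
  (isClosed_wulff f).measurableSet

/-- Reflections preserve the volume of Wulff sets. -/
lemma Vol_comp_refl (i : ι) (f : (ι → ℝ) → ℝ) : Vol (fun u => f (refl i u)) = Vol f := by
  rw [Vol, Vol, wulff_comp_refl, (measurePreserving_refl i).measure_preimage
    (measurableSet_wulff f).nullMeasurableSet]

omit [DecidableEq ι] in
lemma wulff_const_mul {c : ℝ} (hc : 0 < c) (f : (ι → ℝ) → ℝ) :
    wulff (fun u => c * f u) = c • wulff f := by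
  ext x
  rw [Set.mem_smul_set_iff_inv_smul_mem₀ hc.ne']
  simp only [mem_wulff_iff, smul_dotProduct, smul_eq_mul]
  constructor
  · intro h u
    have := h u
    rw [inv_mul_le_iff₀ hc]
    exact this
  · intro h u
    have := h u
    rwa [inv_mul_le_iff₀ hc] at this

omit [DecidableEq ι] in
/-- Scaling of volumes. -/
lemma Vol_const_mul {c : ℝ} (hc : 0 < c) (f : (ι → ℝ) → ℝ) :
    Vol (fun u => c * f u) = c ^ Fintype.card ι * Vol f := by
  rw [Vol, Vol, wulff_const_mul hc, Measure.addHaar_smul, ENNReal.toReal_mul,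
    ENNReal.toReal_ofReal (abs_nonneg _), abs_of_pos (pow_pos hc _)]
  simp

omit [DecidableEq ι] in
lemma wulff_mono (hle : ∀ u, f u ≤ f' u) : wulff f ⊆ wulff f' :=
  fun _ hx u => (hx u).trans (hle u)

omit [DecidableEq ι] in
/-- Monotonicity of the volume. -/
lemma Vol_mono (hle : ∀ u, f u ≤ f' u) (hfin : volume (wulff f') ≠ ∞) : Vol f ≤ Vol f' :=
  ENNReal.toReal_mono hfin (measure_mono (wulff_mono hle))

omit [DecidableEq ι] in
lemma Vol_nonneg (f : (ι → ℝ) → ℝ) : 0 ≤ Vol f := ENNReal.toReal_nonneg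

/-- The body of a support function of class `C²₊` has positive volume. -/
lemma IsC2Plus.Vol_pos (hh : IsC2Plus h) : 0 < Vol h := by
  classical
  obtain ⟨c, hc, hlow⟩ := exists_lower hh
  have h1 : 0 < volume (wulff h) := by
    -- a small cube lies in the body
    set n := Fintype.card ι with hn
    have hsub : Metric.closedBall (0 : ι → ℝ) (c / ((n : ℝ) + 1)) ⊆ wulff h := by
      intro x hx u
      have hnp : (0 : ℝ) < (n : ℝ) + 1 := by positivity
      have hx' : ∀ i, |x i| ≤ c / ((n : ℝ) + 1) := by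
        intro i
        rw [mem_closedBall_zero_iff] at hx
        have := (pi_norm_le_iff_of_nonneg (by positivity)).1 hx i
        rwa [Real.norm_eq_abs] at this
      have hu : ∀ i, |u i| ≤ Real.sqrt (u ⬝ᵥ u) := by
        intro i
        apply Real.abs_le_sqrt
        rw [sq]
        exact Finset.single_le_sum (f := fun j => u j * u j) (fun j _ => mul_self_nonneg _)
          (Finset.mem_univ i)
      have h2 : x ⬝ᵥ u ≤ ∑ i : ι, (c / ((n : ℝ) + 1)) * Real.sqrt (u ⬝ᵥ u) := by
        refine Finset.sum_le_sum fun i _ => ?_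
        calc x i * u i ≤ |x i| * |u i| := by
              rw [← abs_mul]
              exact le_abs_self _
          _ ≤ _ := mul_le_mul (hx' i) (hu i) (abs_nonneg _) (by positivity)
      have h3 : ∑ i : ι, (c / ((n : ℝ) + 1)) * Real.sqrt (u ⬝ᵥ u)
          = (n : ℝ) * ((c / ((n : ℝ) + 1)) * Real.sqrt (u ⬝ᵥ u)) := by
        simp [Finset.sum_const, hn]
      have h4 : (n : ℝ) * (c / ((n : ℝ) + 1)) ≤ c := by
        rw [← mul_div_assoc, div_le_iff₀ hnp]
        nlinarith
      have h5 := Real.sqrt_nonneg (u ⬝ᵥ u)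
      calc x ⬝ᵥ u ≤ _ := h2
        _ = (n : ℝ) * ((c / ((n : ℝ) + 1)) * Real.sqrt (u ⬝ᵥ u)) := h3
        _ = ((n : ℝ) * (c / ((n : ℝ) + 1))) * Real.sqrt (u ⬝ᵥ u) := by ring
        _ ≤ c * Real.sqrt (u ⬝ᵥ u) := mul_le_mul_of_nonneg_right h4 h5
        _ ≤ h u := hlow u
    refine lt_of_lt_of_le ?_ (measure_mono hsub)
    exact Metric.measure_closedBall_pos _ _ (by positivity)
  exact ENNReal.toReal_pos h1.ne' hh.volume_wulff_lt_top.ne

end Vale.Agent.Lib.P227L
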