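import Mathlib
import Vale.Agent.Lib.P227L.Sym
import Vale.Agent.Lib.P227G.Erosion

/-!
# Slicing by coordinate planes: the reflection inequality in higher dimension
-/

open MeasureTheory Set Filter Topology
open scoped ENNReal Matrix

namespace Vale.Agent.Lib.P227L

open Vale.Agent.Lib.P227G (sup2 polar2 Mh q1pair dt le_sup2 exists_sup2 sup2_nonneg_of_symm
  sqrt_mul_add_le volume_eq_zero_of_sup2)

variable {ι : Type*} [Fintype ι] [DecidableEq ι]

/-- The point with prescribed coordinates `i`, `j`. -/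
def pt (i j : ι) (x : ι → ℝ) (z : ℝ × ℝ) : ι → ℝ :=
  Function.update (Function.update x i z.1) j z.2

/-- The remaining part of the dot product. -/
def rest (i j : ι) (x u : ι → ℝ) : ℝ := ∑ k ∈ (Finset.univ.erase i).erase j, x k * u k

lemma dot_eq {i j : ι} (hij : i ≠ j) (x u : ι → ℝ) :
    x ⬝ᵥ u = x i * u i + x j * u j + rest i j x u := by
  have h1 : j ∈ Finset.univ.erase i := Finset.mem_erase.2 ⟨hij.symm, Finset.mem_univ _⟩
  unfold dotProduct rest
  rw [← Finset.add_sum_erase _ _ (Finset.mem_univ i), ← Finset.add_sum_erase _ _ h1]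
  ring

lemma rest_neg (i j : ι) (x u : ι → ℝ) : rest i j (-x) u = - rest i j x u := by
  simp only [rest, Pi.neg_apply, neg_mul, Finset.sum_neg_distrib]

lemma rest_pt (i j : ι) (x u : ι → ℝ) (z : ℝ × ℝ) : rest i j (pt i j x z) u = rest i j x u := by
  refine Finset.sum_congr rfl fun k hk => ?_
  have h1 := Finset.mem_erase.1 hk
  have h2 := Finset.mem_erase.1 h1.2
  simp only [pt, Function.update_of_ne h1.1, Function.update_of_ne h2.1]

lemma rest_refl_right {i j : ι} (x u : ι → ℝ) : rest i j x (refl i u) = rest i j x u := by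
  refine Finset.sum_congr rfl fun k hk => ?_
  have h1 := Finset.mem_erase.1 hk
  have h2 := Finset.mem_erase.1 h1.2
  simp only [refl, if_neg h2.1]

lemma pt_apply_i {i j : ι} (hij : i ≠ j) (x : ι → ℝ) (z : ℝ × ℝ) : pt i j x z i = z.1 := by
  simp [pt, Function.update_of_ne hij]

lemma pt_apply_j (i j : ι) (x : ι → ℝ) (z : ℝ × ℝ) : pt i j x z j = z.2 := by
  simp [pt]

lemma dot_pt {i j : ι} (hij : i ≠ j) (x u : ι → ℝ) (z : ℝ × ℝ) :
    pt i j x z ⬝ᵥ u = z.1 * u i + z.2 * u j + rest i j x u := by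
  rw [dot_eq hij, rest_pt, pt_apply_i hij, pt_apply_j]

lemma refl_refl_pt {i j : ι} (hij : i ≠ j) (x : ι → ℝ) (z : ℝ × ℝ) :
    refl i (refl j (pt i j x z)) = pt i j x (-z) := by
  funext k
  by_cases h1 : k = j
  · subst h1
    rw [pt_apply_j]
    simp only [refl, if_neg hij.symm, if_true]
    rw [pt_apply_j]
    simp
  · by_cases h2 : k = i
    · subst h2
      rw [pt_apply_i hij]
      simp only [refl, if_neg h1, if_true]
      rw [pt_apply_i hij]
      simp
    · simp [refl, if_neg h1, if_neg h2, pt, Function.update_of_ne h1, Function.update_of_ne h2]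

lemma neg_pt {i j : ι} (hij : i ≠ j) (x : ι → ℝ) (z : ℝ × ℝ) :
    - pt i j x z = pt i j (-x) (-z) := by
  funext k
  by_cases h1 : k = j
  · subst h1
    simp only [Pi.neg_apply, pt_apply_j, Prod.snd_neg]
  · by_cases h2 : k = i
    · subst h2
      simp only [Pi.neg_apply, pt_apply_i hij, Prod.fst_neg]
    · simp [pt, Function.update_of_ne h1, Function.update_of_ne h2]

lemma continuous_pt (i j : ι) (x : ι → ℝ) : Continuous (pt i j x) := by
  unfold pt
  apply Continuous.update
  · apply Continuous.update continuous_const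
    exact continuous_fst
  · exact continuous_snd

/-- The planar slice of a set. -/
def plane (i j : ι) (L : Set (ι → ℝ)) (x : ι → ℝ) : Set (ℝ × ℝ) := pt i j x ⁻¹' L

section

variable {i j : ι} {L : Set (ι → ℝ)} {f : (ι → ℝ) → ℝ}

lemma plane_compact (hij : i ≠ j) (hL : IsCompact L) (x : ι → ℝ) : IsCompact (plane i j L x) := by
  apply Metric.isCompact_of_isClosed_isBounded (hL.isClosed.preimage (continuous_pt i j x))
  obtain ⟨R, hR⟩ := hL.isBounded.subset_closedBall (0 : ι → ℝ)
  apply (Metric.isBounded_closedBall (x := (0 : ℝ × ℝ)) (r := R)).subset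
  intro z hz
  have h1 := hR hz
  rw [mem_closedBall_zero_iff] at h1 ⊢
  rw [Prod.norm_def]
  apply max_le
  · have := norm_le_pi_norm (pt i j x z) i
    rw [pt_apply_i hij] at this
    exact this.trans h1
  · have := norm_le_pi_norm (pt i j x z) j
    rw [pt_apply_j] at this
    exact this.trans h1

lemma plane_symm (hij : i ≠ j) (hrr : ∀ x ∈ L, refl i (refl j x) ∈ L) (x : ι → ℝ) {z : ℝ × ℝ}
    (hz : z ∈ plane i j L x) : -z ∈ plane i j L x := by
  have := hrr _ hz
  rw [refl_refl_pt hij] at this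
  exact this

lemma sup2_neg {Q : Set (ℝ × ℝ)} (hQ : IsCompact Q) (hne : Q.Nonempty) (hsym : ∀ x ∈ Q, -x ∈ Q)
    (u : ℝ × ℝ) : sup2 Q (-u) = sup2 Q u := by
  have e : ∀ x v : ℝ × ℝ, dt (-x) v = dt x (-v) := by
    intro x v
    simp only [dt, Prod.fst_neg, Prod.snd_neg]
    ring
  apply le_antisymm
  · obtain ⟨x, hx, h1⟩ := exists_sup2 hQ hne (-u)
    rw [← h1, ← e]
    exact le_sup2 hQ (hsym x hx) u
  · obtain ⟨x, hx, h1⟩ := exists_sup2 hQ hne u
    have h2 := le_sup2 hQ (hsym x hx) (-u)
    rw [e, neg_neg, h1] at h2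
    exact h2

/-- The support of the big set dominates the support of the slice plus the remaining term. -/
lemma sup2_add_le (hij : i ≠ j) (hL : IsCompact L) (hneg : ∀ x ∈ L, -x ∈ L)
    (hrr : ∀ x ∈ L, refl i (refl j x) ∈ L) (hf : ∀ x ∈ L, ∀ u, x ⬝ᵥ u ≤ f u) (x u : ι → ℝ)
    (hne : (plane i j L x).Nonempty) :
    sup2 (plane i j L x) (u i, u j) + |rest i j x u| ≤ f u := by
  obtain ⟨z, hz, h1⟩ := exists_sup2 (plane_compact hij hL x) hne (u i, u j)
  rw [← h1]
  have h2 := hf _ hz u
  rw [dot_pt hij] at h2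
  have h3 : pt i j (-x) z ∈ L := by
    have h4 : z ∈ plane i j L x := hz
    have h5 := hneg _ h4
    rw [neg_pt hij] at h5
    have h6 := hrr _ h5
    rw [refl_refl_pt hij, neg_neg] at h6
    exact h6
  have h7 := hf _ h3 u
  rw [dot_pt hij, rest_neg] at h7
  simp only [dt]
  rcases abs_cases (rest i j x u) with ⟨h8, _⟩ | ⟨h8, _⟩ <;> rw [h8] <;> linarith

/-- A point of the polar set of the slice lies in the Wulff set of the geometric mean. -/
lemma pt_mem_wulff (hij : i ≠ j) (hL : IsCompact L) (hneg : ∀ x ∈ L, -x ∈ L)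
    (hrr : ∀ x ∈ L, refl i (refl j x) ∈ L) (hf : ∀ x ∈ L, ∀ u, x ⬝ᵥ u ≤ f u) (x : ι → ℝ)
    (hne : (plane i j L x).Nonempty) {z : ℝ × ℝ} (hz : z ∈ polar2 (plane i j L x)) :
    pt i j x z ∈ wulff (fun u => Real.sqrt (f u * f (refl i u))) := by
  intro u
  set Q := plane i j L x with hQ
  have hQc : IsCompact Q := plane_compact hij hL x
  have hQs : ∀ y ∈ Q, -y ∈ Q := fun y hy => plane_symm hij hrr x hy
  rw [dot_pt hij]
  set c := rest i j x u with hc
  set a := u i with ha
  set b := u j with hb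
  have h1 := sup2_add_le hij hL hneg hrr hf x u hne
  have h2 := sup2_add_le hij hL hneg hrr hf x (refl i u) hne
  rw [rest_refl_right] at h2
  have e1 : refl i u i = -a := by simp [refl, ha]
  have e2 : refl i u j = b := by simp [refl, hb, hij.symm]
  rw [e1, e2] at h2
  rw [← hQ, ← hc] at h1 h2
  set α := sup2 Q (a, b) with hα
  set β := sup2 Q (-a, b) with hβ
  have hα0 : 0 ≤ α := sup2_nonneg_of_symm hQc hne hQs _
  have hβ0 : 0 ≤ β := sup2_nonneg_of_symm hQc hne hQs _
  have hc0 := abs_nonneg c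
  -- the value of `Mh`
  have hMh : Mh Q |a| |b| = Real.sqrt (α * β) := by
    have n1 : ∀ p q : ℝ, sup2 Q (-p, -q) = sup2 Q (p, q) := fun p q => by
      have := sup2_neg hQc hne hQs (p, q)
      simpa using this
    have n2 : sup2 Q (a, -b) = β := by rw [hβ, ← n1 (-a) b, neg_neg]
    have n3 : sup2 Q (-a, -b) = α := by rw [hα, n1]
    simp only [Mh]
    rcases abs_cases a with ⟨ea, _⟩ | ⟨ea, _⟩ <;> rcases abs_cases b with ⟨eb, _⟩ | ⟨eb, _⟩ <;>
      rw [ea, eb]
    · rw [n2]
    · rw [neg_neg, n2, mul_comm]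
    · rw [n3, mul_comm]
    · rw [neg_neg, n3]
  have h3 : z.1 * a + z.2 * b ≤ Real.sqrt (α * β) := by
    have h4 := hz |a| |b| (abs_nonneg a) (abs_nonneg b)
    rw [hMh] at h4
    have h5 : z.1 * a ≤ |a| * |z.1| := by
      rw [← abs_mul, mul_comm a]
      exact le_abs_self _
    have h6 : z.2 * b ≤ |b| * |z.2| := by
      rw [← abs_mul, mul_comm b]
      exact le_abs_self _
    linarith
  have h4 := sqrt_mul_add_le hα0 hβ0 hc0
  have h5 : Real.sqrt ((α + |c|) * (β + |c|)) ≤ Real.sqrt (f u * f (refl i u)) := by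
    apply Real.sqrt_le_sqrt
    exact mul_le_mul h1 h2 (by positivity) ((add_nonneg hα0 hc0).trans h1)
  have h6 := le_abs_self c
  show z.1 * a + z.2 * b + c ≤ Real.sqrt (f u * f (refl i u))
  linarith

/-- Planar slices compare. -/
lemma volume_plane_le (hij : i ≠ j) (hL : IsCompact L) (hneg : ∀ x ∈ L, -x ∈ L)
    (hrr : ∀ x ∈ L, refl i (refl j x) ∈ L) (hf : ∀ x ∈ L, ∀ u, x ⬝ᵥ u ≤ f u) (x : ι → ℝ) :
    volume (plane i j L x) ≤
      volume (plane i j (wulff (fun u => Real.sqrt (f u * f (refl i u)))) x) := by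
  rcases (plane i j L x).eq_empty_or_nonempty with he | hne
  · rw [he]
    simp
  have hQc := plane_compact hij hL x
  have hQs : ∀ y ∈ plane i j L x, -y ∈ plane i j L x := fun y hy => plane_symm hij hrr x hy
  by_cases hp : ∀ u : ℝ × ℝ, u ≠ 0 → 0 < sup2 (plane i j L x) u
  · refine (q1pair hQc hne hQs hp).trans (measure_mono ?_)
    intro z hz
    exact pt_mem_wulff hij hL hneg hrr hf x hne hz
  · push_neg at hp
    obtain ⟨u, hu, h⟩ := hp
    rw [volume_eq_zero_of_sup2 hQc hQs hu h]
    exact bot_le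

/-- Iterated integral over the two coordinates. -/
lemma lmarginal_pair (hij : i ≠ j) {S : Set (ι → ℝ)} (hS : MeasurableSet S) (x : ι → ℝ) :
    (∫⋯∫⁻_({i} ∪ {j} : Finset ι), S.indicator (1 : (ι → ℝ) → ℝ≥0∞) ∂(fun _ => volume)) x
      = volume (plane i j S x) := by
  have hm : Measurable (S.indicator (1 : (ι → ℝ) → ℝ≥0∞)) := measurable_one.indicator hS
  have hd : Disjoint ({i} : Finset ι) {j} := by simpa using hij
  rw [lmarginal_union _ _ hm hd]
  rw [lmarginal_singleton]
  simp only [lmarginal_singleton]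
  have hP : MeasurableSet (plane i j S x) := (continuous_pt i j x).measurable hS
  rw [Measure.volume_eq_prod, ← lintegral_indicator_one hP,
    lintegral_prod _ (by exact (measurable_one.indicator hP).aemeasurable)]
  apply lintegral_congr
  intro a
  apply lintegral_congr
  intro b
  rfl

/-- The reflection inequality: a compact symmetric set invariant under a product of two coordinate
reflections has volume at most that of the Wulff set of the geometric mean of any majorant of its
support function and its reflection. -/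
theorem volume_le_wulff_sqrt (hij : i ≠ j) (hL : IsCompact L) (hneg : ∀ x ∈ L, -x ∈ L)
    (hrr : ∀ x ∈ L, refl i (refl j x) ∈ L) (hf : ∀ x ∈ L, ∀ u, x ⬝ᵥ u ≤ f u) :
    volume L ≤ volume (wulff (fun u => Real.sqrt (f u * f (refl i u)))) := by
  set W := wulff (fun u => Real.sqrt (f u * f (refl i u))) with hW
  have hLm : MeasurableSet L := hL.isClosed.measurableSet
  have hWm : MeasurableSet W := measurableSet_wulff _
  have hm1 : Measurable (L.indicator (1 : (ι → ℝ) → ℝ≥0∞)) := measurable_one.indicator hLm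
  have hm2 : Measurable (W.indicator (1 : (ι → ℝ) → ℝ≥0∞)) := measurable_one.indicator hWm
  have e : ∀ S : Set (ι → ℝ), MeasurableSet S → volume S =
      (∫⋯∫⁻_(Finset.univ \ ({i} ∪ {j}) : Finset ι),
        ∫⋯∫⁻_({i} ∪ {j} : Finset ι), S.indicator (1 : (ι → ℝ) → ℝ≥0∞) ∂(fun _ => volume)
          ∂(fun _ => volume)) 0 := by
    intro S hS
    have hm : Measurable (S.indicator (1 : (ι → ℝ) → ℝ≥0∞)) := measurable_one.indicator hS
    rw [← lmarginal_union _ _ hm Finset.sdiff_disjoint, Finset.sdiff_union_of_subset (Finset.subset_univ _),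
      ← lintegral_eq_lmarginal_univ, volume_pi, lintegral_indicator_one hS]
  rw [e L hLm, e W hWm]
  apply lmarginal_mono
  intro x
  rw [lmarginal_pair hij hLm, lmarginal_pair hij hWm]
  exact volume_plane_le hij hL hneg hrr hf x

end

end Vale.Agent.Lib.P227L
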