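import Mathlib
import Vale.Agent.Lib.P227L.Slice
import Vale.Agent.Lib.P227.MulPL

/-!
# The geometric mean inequality for functions invariant under all coordinate reflections
-/

open MeasureTheory Set Filter Topology
open scoped ENNReal Matrix

namespace Vale.Agent.Lib.P227L

open Vale.Agent.Lib.P227 (IsUncond mul_pl)

variable {ι : Type} [Fintype ι] [DecidableEq ι]

/-- Flipping the coordinates in a finite set. -/
def reflS (s : Finset ι) (x : ι → ℝ) : ι → ℝ := fun k => if k ∈ s then - x k else x k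

lemma reflS_empty (x : ι → ℝ) : reflS ∅ x = x := by
  funext k
  simp [reflS]

lemma reflS_insert {a : ι} {s : Finset ι} (ha : a ∉ s) (x : ι → ℝ) :
    reflS (insert a s) x = refl a (reflS s x) := by
  funext k
  by_cases h : k = a
  · subst h
    simp [reflS, refl, ha]
  · simp [reflS, refl, h]

lemma reflS_univ (x : ι → ℝ) : reflS Finset.univ x = -x := by
  funext k
  simp [reflS]

section

variable {A B : Set (ι → ℝ)} {f fA fB F : (ι → ℝ) → ℝ}

lemma mem_reflS (hA : ∀ i, ∀ x ∈ A, refl i x ∈ A) (s : Finset ι) {x : ι → ℝ} (hx : x ∈ A) :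
    reflS s x ∈ A := by
  induction s using Finset.induction_on with
  | empty => rwa [reflS_empty]
  | insert a s ha ih =>
    rw [reflS_insert ha]
    exact hA a _ ih

lemma isUncond_of (hA : ∀ i, ∀ x ∈ A, refl i x ∈ A) : IsUncond A := by
  intro x
  set s := Finset.univ.filter fun k => x k < 0 with hs
  constructor
  · intro hx
    have h1 := mem_reflS hA s hx
    have e : reflS s x = fun i => |x i| := by
      funext k
      simp only [reflS, hs, Finset.mem_filter, Finset.mem_univ, true_and]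
      split_ifs with h
      · rw [abs_of_neg h]
      · rw [abs_of_nonneg (not_lt.1 h)]
    rwa [e] at h1
  · intro hx
    have h1 := mem_reflS hA s hx
    have e : reflS s (fun i => |x i|) = x := by
      funext k
      simp only [reflS, hs, Finset.mem_filter, Finset.mem_univ, true_and]
      split_ifs with h
      · rw [abs_of_neg h, neg_neg]
      · rw [abs_of_nonneg (not_lt.1 h)]
    rwa [e] at h1

lemma sum_abs_le (hA : ∀ i, ∀ x ∈ A, refl i x ∈ A) (hf : ∀ x ∈ A, ∀ u, x ⬝ᵥ u ≤ f u) {x : ι → ℝ}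
    (hx : x ∈ A) (hx0 : ∀ i, 0 ≤ x i) (u : ι → ℝ) : ∑ i, x i * |u i| ≤ f u := by
  set s := Finset.univ.filter fun k => u k < 0 with hs
  have h1 := hf _ (mem_reflS hA s hx) u
  have e : reflS s x ⬝ᵥ u = ∑ i, x i * |u i| := by
    unfold dotProduct
    apply Finset.sum_congr rfl
    intro k _
    simp only [reflS, hs, Finset.mem_filter, Finset.mem_univ, true_and]
    split_ifs with h
    · rw [abs_of_neg h]
      ring
    · rw [abs_of_nonneg (not_lt.1 h)]
  rwa [e] at h1

lemma sqrt_mem_wulff (hA : ∀ i, ∀ x ∈ A, refl i x ∈ A) (hB : ∀ i, ∀ x ∈ B, refl i x ∈ B)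
    (hfA : ∀ x ∈ A, ∀ u, x ⬝ᵥ u ≤ fA u) (hfB : ∀ x ∈ B, ∀ u, x ⬝ᵥ u ≤ fB u)
    (hF : ∀ u, Real.sqrt (fA u * fB u) ≤ F u) {x y : ι → ℝ} (hx0 : ∀ i, 0 < x i)
    (hy0 : ∀ i, 0 < y i) (hx : x ∈ A) (hy : y ∈ B) :
    (fun i => x i ^ (1 / 2 : ℝ) * y i ^ (1 - 1 / 2 : ℝ)) ∈ wulff F := by
  intro u
  have h1 := sum_abs_le hA hfA hx (fun i => (hx0 i).le) u
  have h2 := sum_abs_le hB hfB hy (fun i => (hy0 i).le) u
  have n1 : 0 ≤ ∑ i, x i * |u i| :=
    Finset.sum_nonneg fun i _ => mul_nonneg (hx0 i).le (abs_nonneg _)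
  have n2 : 0 ≤ ∑ i, y i * |u i| :=
    Finset.sum_nonneg fun i _ => mul_nonneg (hy0 i).le (abs_nonneg _)
  have e1 : (fun i => x i ^ (1 / 2 : ℝ) * y i ^ (1 - 1 / 2 : ℝ)) ⬝ᵥ u
      ≤ ∑ i, Real.sqrt (x i * |u i|) * Real.sqrt (y i * |u i|) := by
    unfold dotProduct
    apply Finset.sum_le_sum
    intro i _
    have e2 : (1 - 1 / 2 : ℝ) = 1 / 2 := by norm_num
    show x i ^ (1 / 2 : ℝ) * y i ^ (1 - 1 / 2 : ℝ) * u i ≤ _
    rw [e2, ← Real.sqrt_eq_rpow (x i), ← Real.sqrt_eq_rpow (y i), Real.sqrt_mul (hx0 i).le,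
      Real.sqrt_mul (hy0 i).le]
    have e3 : Real.sqrt (x i) * Real.sqrt |u i| * (Real.sqrt (y i) * Real.sqrt |u i|)
        = Real.sqrt (x i) * Real.sqrt (y i) * (Real.sqrt |u i| * Real.sqrt |u i|) := by ring
    rw [e3, Real.mul_self_sqrt (abs_nonneg _)]
    exact mul_le_mul_of_nonneg_left (le_abs_self _) (by positivity)
  have e4 := Real.sum_sqrt_mul_sqrt_le (f := fun i : ι => x i * |u i|)
    (g := fun i : ι => y i * |u i|) Finset.univ (fun i => mul_nonneg (hx0 i).le (abs_nonneg _))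
    (fun i => mul_nonneg (hy0 i).le (abs_nonneg _))
  have e5 : Real.sqrt (∑ i, x i * |u i|) * Real.sqrt (∑ i, y i * |u i|) ≤ Real.sqrt (fA u * fB u) := by
    rw [← Real.sqrt_mul n1]
    apply Real.sqrt_le_sqrt
    exact mul_le_mul h1 h2 n2 (n1.trans h1)
  exact e1.trans (e4.trans (e5.trans (hF u)))

/-- Support bound for a Wulff set invariant under all reflections. -/
lemma wulff_refl_mem (hf : ∀ i u, f (refl i u) = f u) (i : ι) (x : ι → ℝ) (hx : x ∈ wulff f) :
    refl i x ∈ wulff f := by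
  intro u
  rw [refl_dot, ← hf i u]
  exact hx _

lemma wulff_isUncond (hf : ∀ i u, f (refl i u) = f u) : IsUncond (wulff f) :=
  isUncond_of (wulff_refl_mem hf)

/-- Volumes of Wulff sets: the geometric mean inequality. -/
theorem Vol_mul_Vol_le (hA : ∀ i u, fA (refl i u) = fA u) (hB : ∀ i u, fB (refl i u) = fB u)
    (hC : ∀ i u, F (refl i u) = F u) (hF : ∀ u, Real.sqrt (fA u * fB u) ≤ F u)
    (hfin : volume (wulff F) ≠ ∞) : Vol fA * Vol fB ≤ Vol F ^ 2 := by
  have key := mul_pl (measurableSet_wulff fA) (measurableSet_wulff fB) (measurableSet_wulff F)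
    (wulff_isUncond hA) (wulff_isUncond hB) (wulff_isUncond hC) (θ := 1 / 2) (by norm_num)
    (by norm_num) (fun x y hx0 hy0 hx hy =>
      sqrt_mem_wulff (wulff_refl_mem hA) (wulff_refl_mem hB) (fun _ hz u => hz u)
        (fun _ hz u => hz u) hF hx0 hy0 hx hy)
  have e2 : (1 - 1 / 2 : ℝ) = 1 / 2 := by norm_num
  rw [e2] at key
  have sq1 : ∀ a : ℝ≥0∞, (a ^ (1 / 2 : ℝ)) ^ 2 = a := by
    intro a
    rw [← ENNReal.rpow_natCast, ← ENNReal.rpow_mul]
    norm_num
  have h3 : volume (wulff fA) * volume (wulff fB) ≤ volume (wulff F) ^ 2 := by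
    calc volume (wulff fA) * volume (wulff fB)
        = (volume (wulff fA) ^ (1 / 2 : ℝ) * volume (wulff fB) ^ (1 / 2 : ℝ)) ^ 2 := by
          rw [mul_pow, sq1, sq1]
      _ ≤ _ := pow_le_pow_left₀ bot_le key 2
  have h4 : volume (wulff F) ^ 2 ≠ ∞ := ENNReal.pow_ne_top hfin
  have h5 := ENNReal.toReal_mono h4 h3
  simpa [Vol, ENNReal.toReal_mul, ENNReal.toReal_pow] using h5

/-- The reflection inequality for Wulff sets. -/
theorem Vol_le_of_refl {i j : ι} (hij : i ≠ j) (hL : IsCompact (wulff f))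
    (heven : ∀ u, f (-u) = f u) (hrr : ∀ u, f (refl i (refl j u)) = f u)
    (hF : ∀ u, Real.sqrt (f u * f (refl i u)) ≤ F u) (hfin : volume (wulff F) ≠ ∞) :
    Vol f ≤ Vol F := by
  have h1 := volume_le_wulff_sqrt (L := wulff f) (f := f) hij hL
    (fun x hx u => by
      have := hx (-u)
      rw [heven] at this
      have e : (-x) ⬝ᵥ u = x ⬝ᵥ (-u) := by simp
      rw [e]
      exact this)
    (fun x hx u => by
      rw [refl_dot, refl_dot, ← hrr u, refl_comm]
      have := hx (refl j (refl i u))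
      rwa [refl_comm]) (fun _ hx u => hx u)
  have h2 : volume (wulff f) ≤ volume (wulff F) :=
    h1.trans (measure_mono (wulff_mono hF))
  exact ENNReal.toReal_mono hfin h2

end

end Vale.Agent.Lib.P227L
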