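import Mathlib
import Vale.Agent.Lib.P227L.Uncond

/-!
# The exponential perturbation
-/

open MeasureTheory Set Filter Topology
open scoped ENNReal Matrix

namespace Vale.Agent.Lib.P227L

variable {ι : Type} [Fintype ι] {h G f P : (ι → ℝ) → ℝ}

/-- The quotient `G² / h`. -/
noncomputable def sq (h G : (ι → ℝ) → ℝ) : (ι → ℝ) → ℝ := fun x => G x * G x / h x

lemma isHom2_sq (hh : IsC2Plus h) (hG : IsHom2 G) : IsHom2 (sq h G) :=
  IsHom2.mul_div hh.toIsHom2 hh.pos hG hG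

/-- The exponential perturbation. -/
noncomputable def Ex (h G : (ι → ℝ) → ℝ) (τ : ℝ) : (ι → ℝ) → ℝ :=
  fun x => h x * Real.exp (τ * (G x / h x))

/-- The quadratic approximation of the exponential perturbation. -/
noncomputable def Pa (h G : (ι → ℝ) → ℝ) (τ : ℝ) : (ι → ℝ) → ℝ := comb h G (sq h G) τ (τ ^ 2 / 2)

lemma exp_cubic {y : ℝ} (hy : |y| ≤ 1) : |Real.exp y - (1 + y + y ^ 2 / 2)| ≤ |y| ^ 3 := by
  have h1 := Real.exp_bound hy (n := 3) (by norm_num)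
  simp only [Finset.sum_range_succ, Finset.sum_range_zero, Nat.factorial] at h1
  norm_num at h1
  have e : 1 + y + y ^ 2 / 2 = 1 + y + y ^ 2 * (1 / 2) := by ring
  have e2 : |y| ^ 3 * (2 / 9) ≤ |y| ^ 3 := by
    have : 0 ≤ |y| ^ 3 := by positivity
    linarith
  refine le_trans ?_ e2
  convert h1 using 2

lemma exp_sandwich {y ε : ℝ} (hy : |y| ≤ 1 / 2) (hε : |y| ^ 3 ≤ ε / 2) :
    (1 - ε) * (1 + y + y ^ 2 / 2) ≤ Real.exp y ∧ Real.exp y ≤ (1 + ε) * (1 + y + y ^ 2 / 2) ∧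
      1 + y + y ^ 2 / 2 ≤ 2 ∧ 0 ≤ 1 + y + y ^ 2 / 2 := by
  have h1 := abs_le.1 (exp_cubic (y := y) (by linarith))
  have h2 := abs_le.1 hy
  have h3 : y ^ 2 ≤ 1 / 4 := by nlinarith
  have h4 : 0 ≤ y ^ 2 := by positivity
  have h5 : 0 ≤ |y| ^ 3 := by positivity
  have h6 : 1 / 2 ≤ 1 + y + y ^ 2 / 2 := by linarith
  have h7 : 0 ≤ ε := by linarith
  refine ⟨?_, ?_, by linarith, by linarith⟩
  · nlinarith
  · nlinarith

lemma Ex_compare (hh : IsC2Plus h) (hG : IsHom2 G) {C τ : ℝ} (hC : ∀ ξ, |G ξ| ≤ C * h ξ)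
    (hC0 : 0 ≤ C) (hτ : C * |τ| ≤ 1 / 2) (x : ι → ℝ) :
    (1 - 2 * C ^ 3 * |τ| ^ 3) * Pa h G τ x ≤ Ex h G τ x ∧
      Ex h G τ x ≤ (1 + 2 * C ^ 3 * |τ| ^ 3) * Pa h G τ x ∧ Pa h G τ x ≤ 2 * h x := by
  by_cases hx : x = 0
  · subst hx
    simp [Pa, Ex, comb, sq, hh.toIsHom2.zero, hG.zero]
  have hp := hh.pos x hx
  set z := G x / h x with hz
  have hGz : G x = z * h x := by
    rw [hz]
    field_simp
  have hzb : |z| ≤ C := by
    rw [hz, abs_div, abs_of_pos hp, div_le_iff₀ hp]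
    exact hC x
  set y := τ * z with hy
  have hy1 : |y| ≤ C * |τ| := by
    rw [hy, abs_mul, mul_comm]
    exact mul_le_mul_of_nonneg_right hzb (abs_nonneg _)
  have hy2 : |y| ^ 3 ≤ (2 * C ^ 3 * |τ| ^ 3) / 2 := by
    have := pow_le_pow_left₀ (abs_nonneg y) hy1 3
    calc |y| ^ 3 ≤ (C * |τ|) ^ 3 := this
      _ = _ := by ring
  obtain ⟨a1, a2, a3, a4⟩ := exp_sandwich (hy1.trans hτ) hy2
  have e1 : Ex h G τ x = h x * Real.exp y := rfl
  have e2 : Pa h G τ x = h x * (1 + y + y ^ 2 / 2) := by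
    simp only [Pa, comb, sq]
    rw [hGz, hy]
    field_simp
  rw [e1, e2]
  refine ⟨?_, ?_, ?_⟩
  · calc _ = h x * ((1 - 2 * C ^ 3 * |τ| ^ 3) * (1 + y + y ^ 2 / 2)) := by ring
      _ ≤ _ := mul_le_mul_of_nonneg_left a1 hp.le
  · calc _ ≤ h x * ((1 + 2 * C ^ 3 * |τ| ^ 3) * (1 + y + y ^ 2 / 2)) :=
          mul_le_mul_of_nonneg_left a2 hp.le
      _ = _ := by ring
  · calc _ ≤ h x * 2 := mul_le_mul_of_nonneg_left a3 hp.le
      _ = _ := by ring

lemma finite_of_le (hh : IsC2Plus h) {c : ℝ} (hc : 0 ≤ c) (hf : ∀ u, f u ≤ c * h u) :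
    IsCompact (wulff f) := by
  obtain ⟨C, hC, hup⟩ := exists_upper hh
  refine isCompact_wulff_of_le (C := c * C) (by positivity) fun u => (hf u).trans ?_
  calc c * h u ≤ c * (C * Real.sqrt (u ⬝ᵥ u)) := mul_le_mul_of_nonneg_left (hup u) hc
    _ = _ := by ring

lemma one_add_pow_le {ε : ℝ} (h0 : 0 ≤ ε) (h1 : ε ≤ 1) (n : ℕ) :
    (1 + ε) ^ n ≤ 1 + (2 ^ n - 1) * ε := by
  induction n with
  | zero => simp
  | succ n ih =>
    have h2 : (0 : ℝ) ≤ 2 ^ n - 1 := by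
      have : (1 : ℝ) ≤ 2 ^ n := one_le_pow₀ (by norm_num)
      linarith
    have h3 : ε * ε ≤ ε := by nlinarith
    calc (1 + ε) ^ (n + 1) = (1 + ε) ^ n * (1 + ε) := pow_succ _ _
      _ ≤ (1 + (2 ^ n - 1) * ε) * (1 + ε) := mul_le_mul_of_nonneg_right ih (by linarith)
      _ = 1 + 2 ^ n * ε + (2 ^ n - 1) * (ε * ε) := by ring
      _ ≤ 1 + 2 ^ n * ε + (2 ^ n - 1) * ε := by gcongr
      _ = _ := by ring

lemma one_sub_pow_ge {ε : ℝ} (h0 : 0 ≤ ε) (h1 : ε ≤ 1) (n : ℕ) :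
    1 - 2 ^ n * ε ≤ (1 - ε) ^ n := by
  have h2 := one_add_mul_le_pow (a := -ε) (by linarith) n
  have h3 : (n : ℝ) ≤ 2 ^ n := by exact_mod_cast Nat.lt_two_pow_self.le
  have e : 1 + -ε = 1 - ε := by ring
  rw [e] at h2
  nlinarith

/-- Comparison of volumes for relative perturbations. -/
lemma Vol_sandwich {ε : ℝ} (h0 : 0 ≤ ε) (h1 : ε < 1) (hlo : ∀ x, (1 - ε) * P x ≤ f x)
    (hhi : ∀ x, f x ≤ (1 + ε) * P x) (hfinf : volume (wulff f) ≠ ∞)
    (hfinP : volume (wulff P) ≠ ∞) :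
    |Vol f - Vol P| ≤ 2 ^ Fintype.card ι * ε * Vol P := by
  set n := Fintype.card ι with hn
  have hP := Vol_nonneg P
  have h2 : Vol f ≤ (1 + ε) ^ n * Vol P := by
    rw [← Vol_const_mul (by linarith)]
    apply Vol_mono hhi
    rw [wulff_const_mul (by linarith), Measure.addHaar_smul]
    exact ENNReal.mul_ne_top ENNReal.ofReal_ne_top hfinP
  have h3 : (1 - ε) ^ n * Vol P ≤ Vol f := by
    rw [← Vol_const_mul (by linarith)]
    exact Vol_mono hlo hfinf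
  have h4 := one_add_pow_le h0 h1.le n
  have h5 := one_sub_pow_ge h0 h1.le n
  have h6 : (0 : ℝ) ≤ 1 := zero_le_one
  rw [abs_le]
  constructor
  · have : (1 - 2 ^ n * ε) * Vol P ≤ (1 - ε) ^ n * Vol P := mul_le_mul_of_nonneg_right h5 hP
    nlinarith
  · have : (1 + ε) ^ n * Vol P ≤ (1 + (2 ^ n - 1) * ε) * Vol P := mul_le_mul_of_nonneg_right h4 hP
    have h7 : 0 ≤ ε * Vol P := mul_nonneg h0 hP
    nlinarith

variable [DecidableEq ι] [Nonempty ι]

/-- The expansion of the volume of the quadratic approximant. -/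
lemma T1_Pa (hh : IsC2Plus h) (hG : IsHom2 G) :
    T1 (fun τ => Vol (Pa h G τ)) (Vol h) (c1 h G) (c2 h G + c1 h (sq h G) / 2) := by
  obtain ⟨E, hp⟩ := exists_pairData hh hG (isHom2_sq hh hG)
  have h1 := hp.t2.curve 1 0 0 (1 / 2)
  have e1 : (fun τ : ℝ => Vol (comb h G (sq h G) (1 * τ + 0 * τ ^ 2) (0 * τ + 1 / 2 * τ ^ 2)))
      = fun τ => Vol (Pa h G τ) := by
    funext τ
    simp only [Pa]
    congr 2
    · ring
    · ring
  rw [e1] at h1
  convert h1 using 1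
  · ring
  · ring

/-- The expansion of the volume of the exponential perturbation. -/
theorem T1_Ex (hh : IsC2Plus h) (hG : IsHom2 G) :
    T1 (fun τ => Vol (Ex h G τ)) (Vol h) (c1 h G) (c2 h G + c1 h (sq h G) / 2) := by
  obtain ⟨C, hC0, hC⟩ := exists_rel_val hh hG
  set n := Fintype.card ι with hn
  set ρ := 1 / (2 * (C + 1)) with hρ
  have hρp : 0 < ρ := by positivity
  have hbd : ∀ τ, |τ| ≤ ρ → C * |τ| ≤ 1 / 2 := by
    intro τ hτ
    have h1 : (C + 1) * |τ| ≤ 1 / 2 := by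
      have h2 : (C + 1) * |τ| ≤ (C + 1) * ρ := mul_le_mul_of_nonneg_left hτ (by positivity)
      have h3 : (C + 1) * ρ = 1 / 2 := by
        rw [hρ]
        field_simp
      linarith
    have := abs_nonneg τ
    nlinarith
  have hO : O3 fun τ => Vol (Ex h G τ) - Vol (Pa h G τ) := by
    refine ⟨2 ^ n * (2 * C ^ 3) * (2 ^ n * Vol h), ρ, hρp, fun τ hτ => ?_⟩
    have hc := hbd τ hτ
    have hcmp := Ex_compare hh hG hC hC0 hc
    set ε := 2 * C ^ 3 * |τ| ^ 3 with hε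
    have hε0 : 0 ≤ ε := by positivity
    have hc3 : (C * |τ|) ^ 3 ≤ (1 / 2) ^ 3 := pow_le_pow_left₀ (by positivity) hc 3
    have hε1 : ε < 1 := by
      have : ε = 2 * (C * |τ|) ^ 3 := by rw [hε]; ring
      rw [this]
      norm_num at hc3 ⊢
      linarith
    have hPfin : IsCompact (wulff (Pa h G τ)) :=
      finite_of_le hh (by norm_num) fun u => (hcmp u).2.2
    have hEfin : IsCompact (wulff (Ex h G τ)) :=
      finite_of_le hh (c := (1 + ε) * 2) (by positivity) fun u => by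
        refine (hcmp u).2.1.trans ?_
        calc _ ≤ (1 + ε) * (2 * h u) :=
              mul_le_mul_of_nonneg_left (hcmp u).2.2 (by positivity)
          _ = _ := by ring
    have h1 := Vol_sandwich hε0 hε1 (fun x => (hcmp x).1) (fun x => (hcmp x).2.1)
      hEfin.measure_lt_top.ne hPfin.measure_lt_top.ne
    have h2 : Vol (Pa h G τ) ≤ 2 ^ n * Vol h := by
      rw [hn, ← Vol_const_mul (by norm_num)]
      apply Vol_mono fun u => (hcmp u).2.2
      rw [wulff_const_mul (by norm_num), Measure.addHaar_smul]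
      exact ENNReal.mul_ne_top ENNReal.ofReal_ne_top hh.volume_wulff_lt_top.ne
    refine h1.trans ?_
    calc (2 : ℝ) ^ n * ε * Vol (Pa h G τ) ≤ 2 ^ n * ε * (2 ^ n * Vol h) :=
          mul_le_mul_of_nonneg_left h2 (by positivity)
      _ = _ := by rw [hε]; ring
  have hP := T1_iff.1 (T1_Pa hh hG)
  rw [T1_iff]
  refine (hO.add hP).of_eq one_pos fun τ _ => ?_
  ring

end Vale.Agent.Lib.P227L
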