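import Mathlib
import Vale.Agent.Lib.P227L.Exp

/-!
# The second variation form and its additivity over parity classes
-/

open MeasureTheory Set Filter Topology
open scoped ENNReal Matrix

namespace Vale.Agent.Lib.P227L

variable {ι : Type} [Fintype ι] [DecidableEq ι] [Nonempty ι] {h G G₁ G₂ : (ι → ℝ) → ℝ}

/-- The second variation form. -/
noncomputable def Th (h G : (ι → ℝ) → ℝ) : ℝ :=
  Vol h * (c1 h (sq h G) + 2 * c2 h G) - c1 h G ^ 2

/-- Positivity near zero of a function with an expansion. -/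
lemma T1.pos_near {f : ℝ → ℝ} {a b c : ℝ} (hT : T1 f a b c) (ha : 0 < a) :
    ∃ ρ : ℝ, 0 < ρ ∧ ∀ τ, |τ| ≤ ρ → 0 < f τ := by
  obtain ⟨K, ρ, hK, hρ, hb⟩ := hT.nonneg_const
  set M := |b| + |c| + K + 1 with hM
  have hMp : 0 < M := by positivity
  refine ⟨min (min ρ 1) (a / (2 * M)), lt_min (lt_min hρ one_pos) (by positivity), fun τ hτ => ?_⟩
  have h1 : |τ| ≤ ρ := hτ.trans ((min_le_left _ _).trans (min_le_left _ _))
  have h2 : |τ| ≤ 1 := hτ.trans ((min_le_left _ _).trans (min_le_right _ _))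
  have h3 : |τ| ≤ a / (2 * M) := hτ.trans (min_le_right _ _)
  have h4 : |τ| * M ≤ a / 2 := by
    rw [le_div_iff₀ (by positivity)] at h3
    linarith
  have h5 := abs_le.1 (hb τ h1)
  have h0 := abs_nonneg τ
  have e2 : τ ^ 2 = |τ| ^ 2 := (sq_abs τ).symm
  have h6 : |τ| ^ 2 ≤ |τ| := by nlinarith
  have h7 : |τ| ^ 3 ≤ |τ| := by nlinarith
  have h8 : -(|b| * |τ|) ≤ b * τ := by
    have := neg_abs_le (b * τ)
    rwa [abs_mul] at this
  have h9 : -(|c| * |τ|) ≤ c * τ ^ 2 := by
    have := neg_abs_le c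
    rw [e2]
    have h10 : 0 ≤ |τ| ^ 2 := by positivity
    nlinarith [abs_nonneg c]
  have h11 : K * |τ| ^ 3 ≤ K * |τ| := mul_le_mul_of_nonneg_left h7 hK
  have h12 : |τ| * M = |b| * |τ| + |c| * |τ| + K * |τ| + |τ| := by rw [hM]; ring
  linarith [h5.1]

/-- From the product inequality to the sign of the form. -/
theorem Th_nonpos_of_mul_le (hh : IsC2Plus h) (hG : IsHom2 G) {ρ : ℝ} (hρ : 0 < ρ)
    (hle : ∀ τ, |τ| ≤ ρ → Vol (Ex h G τ) * Vol (Ex h G (-τ)) ≤ Vol h ^ 2) : Th h G ≤ 0 := by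
  have hV := hh.Vol_pos
  have hT := T1_Ex hh hG
  obtain ⟨ρ₁, hρ₁, hpos⟩ := T1.pos_near hT hV
  have hL := hT.log hV
  have hc := T1.le_of_even_le (C := 0) hL (lt_min hρ hρ₁) (fun τ hτ => by
    have h1 := hle τ (hτ.trans (min_le_left _ _))
    have h2 := hpos τ (hτ.trans (min_le_right _ _))
    have h3 := hpos (-τ) (by rw [abs_neg]; exact hτ.trans (min_le_right _ _))
    have h4 := Real.log_le_log (mul_pos h2 h3) h1
    rw [Real.log_mul h2.ne' h3.ne', Real.log_pow] at h4
    simp only [zero_mul, add_zero]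
    push_cast at h4
    linarith)
  rw [Th]
  have e : (c2 h G + c1 h (sq h G) / 2) / Vol h - c1 h G ^ 2 / (2 * Vol h ^ 2)
      = (Vol h * (c1 h (sq h G) + 2 * c2 h G) - c1 h G ^ 2) / (2 * Vol h ^ 2) := by
    field_simp
    ring
  rw [e] at hc
  have hp : 0 < 2 * Vol h ^ 2 := by positivity
  by_contra hcon
  push_neg at hcon
  have := div_pos hcon hp
  linarith

/-! ### Parity -/

/-- Evenness with respect to a coordinate. -/
def Ev (i : ι) (G : (ι → ℝ) → ℝ) : Prop := ∀ x, G (refl i x) = G x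

/-- Oddness with respect to a coordinate. -/
def Od (i : ι) (G : (ι → ℝ) → ℝ) : Prop := ∀ x, G (refl i x) = - G x

lemma comb_refl {i : ι} (hi : Ev i h) (h1 : Ev i G₁) (h2 : Od i G₂) (s t : ℝ) :
    Vol (comb h G₁ G₂ s (-t)) = Vol (comb h G₁ G₂ s t) := by
  rw [← Vol_comp_refl i (comb h G₁ G₂ s t)]
  congr 1
  funext x
  simp only [comb]
  rw [hi x, h1 x, h2 x]
  ring

lemma c1_add (hh : IsC2Plus h) (h1 : IsHom2 G₁) (h2 : IsHom2 G₂) :
    c1 h (fun x => G₁ x + G₂ x) = c1 h G₁ + c1 h G₂ := by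
  obtain ⟨E, hp⟩ := exists_pairData hh h1 h2
  exact hp.add1

lemma c1_c2_odd (hh : IsC2Plus h) {i : ι} (hi : Ev i h) (h1 : IsHom2 G₁) (h2 : IsHom2 G₂)
    (e1 : Ev i G₁) (o2 : Od i G₂) :
    c1 h G₂ = 0 ∧ c2 h (fun x => G₁ x + G₂ x) = c2 h G₁ + c2 h G₂ := by
  obtain ⟨E, hp⟩ := exists_pairData hh h1 h2
  obtain ⟨m1, m2⟩ := hp.mixed_zero (comb_refl hi e1 o2)
  refine ⟨m1, ?_⟩
  rw [hp.add2, m2]
  ring

lemma isHom2_zero' : IsHom2 (fun _ : ι → ℝ => (0 : ℝ)) := IsHom2.isHom2_zero

lemma c1_odd (hh : IsC2Plus h) {i : ι} (hi : Ev i h) (h2 : IsHom2 G₂) (o2 : Od i G₂) :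
    c1 h G₂ = 0 :=
  (c1_c2_odd hh hi isHom2_zero' h2 (fun _ => rfl) o2).1

/-- Additivity of the form over a parity decomposition. -/
theorem Th_add (hh : IsC2Plus h) {i : ι} (hi : Ev i h) (h1 : IsHom2 G₁) (h2 : IsHom2 G₂)
    (e1 : Ev i G₁) (o2 : Od i G₂) :
    Th h (fun x => G₁ x + G₂ x) = Th h G₁ + Th h G₂ := by
  obtain ⟨m1, m2⟩ := c1_c2_odd hh hi h1 h2 e1 o2
  have hX : IsHom2 fun x => 2 * (G₁ x * G₂ x / h x) :=
    (IsHom2.mul_div hh.toIsHom2 hh.pos h1 h2).const_mul 2
  have oX : Od i fun x => 2 * (G₁ x * G₂ x / h x) := by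
    intro x
    simp only
    rw [hi x, e1 x, o2 x]
    ring
  have h3 : c1 h (fun x => 2 * (G₁ x * G₂ x / h x)) = 0 := c1_odd hh hi hX oX
  have s1 := isHom2_sq hh h1
  have s2 := isHom2_sq hh h2
  have e : sq h (fun x => G₁ x + G₂ x)
      = fun x => (sq h G₁ x + 2 * (G₁ x * G₂ x / h x)) + sq h G₂ x := by
    funext x
    simp only [sq]
    ring
  have h4 : c1 h (sq h (fun x => G₁ x + G₂ x)) = c1 h (sq h G₁) + c1 h (sq h G₂) := by
    rw [e, c1_add hh (s1.add hX) s2, c1_add hh s1 hX, h3, add_zero]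
  simp only [Th]
  rw [h4, m2, c1_add hh h1 h2, m1]
  ring

/-! ### The pure cases -/

lemma Ex_even (hh : IsC2Plus h) (hG : IsHom2 G) (τ : ℝ) (u : ι → ℝ) : Ex h G τ (-u) = Ex h G τ u := by
  simp only [Ex, hh.even, hG.even]

lemma Ex_ev {i : ι} (hi : Ev i h) (e : Ev i G) (τ : ℝ) (u : ι → ℝ) :
    Ex h G τ (refl i u) = Ex h G τ u := by
  simp only [Ex, hi u, e u]

lemma Ex_od {i : ι} (hi : Ev i h) (o : Od i G) (τ : ℝ) (u : ι → ℝ) :
    Ex h G τ (refl i u) = Ex h G (-τ) u := by
  simp only [Ex, hi u, o u]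
  congr 2
  ring

lemma Ex_mul (hh : IsC2Plus h) (τ : ℝ) (u : ι → ℝ) :
    Real.sqrt (Ex h G τ u * Ex h G (-τ) u) ≤ h u := by
  have h0 := hh.nonneg u
  have e : Ex h G τ u * Ex h G (-τ) u = h u ^ 2 := by
    simp only [Ex]
    have : Real.exp (τ * (G u / h u)) * Real.exp (-τ * (G u / h u)) = 1 := by
      rw [← Real.exp_add]
      simp
    calc _ = h u ^ 2 * (Real.exp (τ * (G u / h u)) * Real.exp (-τ * (G u / h u))) := by ring
      _ = _ := by rw [this, mul_one]
  rw [e, Real.sqrt_sq h0]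

lemma Ex_compact (hh : IsC2Plus h) (hG : IsHom2 G) (τ : ℝ) : IsCompact (wulff (Ex h G τ)) := by
  obtain ⟨C, hC0, hC⟩ := exists_rel_val hh hG
  refine finite_of_le hh (c := Real.exp (|τ| * C)) (Real.exp_pos _).le fun u => ?_
  by_cases hu : u = 0
  · subst hu
    simp [Ex, hh.toIsHom2.zero]
  have hp := hh.pos u hu
  simp only [Ex]
  rw [mul_comm]
  apply mul_le_mul_of_nonneg_right _ hp.le
  apply Real.exp_le_exp.2
  have h1 : |G u / h u| ≤ C := by
    rw [abs_div, abs_of_pos hp, div_le_iff₀ hp]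
    exact hC u
  calc τ * (G u / h u) ≤ |τ * (G u / h u)| := le_abs_self _
    _ = |τ| * |G u / h u| := abs_mul _ _
    _ ≤ _ := mul_le_mul_of_nonneg_left h1 (abs_nonneg _)

/-- All parities even. -/
lemma mul_le_of_all_even (hh : IsC2Plus h) (hi : ∀ i, Ev i h) (he : ∀ i, Ev i G) (τ : ℝ) :
    Vol (Ex h G τ) * Vol (Ex h G (-τ)) ≤ Vol h ^ 2 :=
  Vol_mul_Vol_le (fun i u => Ex_ev (hi i) (he i) τ u) (fun i u => Ex_ev (hi i) (he i) (-τ) u)
    (fun i u => hi i u) (Ex_mul hh τ) hh.volume_wulff_lt_top.ne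

/-- Two odd parities. -/
lemma le_of_two_odd (hh : IsC2Plus h) (hG : IsHom2 G) {i j : ι} (hij : i ≠ j) (hii : Ev i h)
    (hij' : Ev j h) (oi : Od i G) (oj : Od j G) (τ : ℝ) : Vol (Ex h G τ) ≤ Vol h := by
  refine Vol_le_of_refl hij (Ex_compact hh hG τ) (Ex_even hh hG τ) (fun u => ?_) (fun u => ?_)
    hh.volume_wulff_lt_top.ne
  · rw [Ex_od hii oi, Ex_od hij' oj, neg_neg]
  · rw [Ex_od hii oi]
    exact Ex_mul hh τ u

/-- An invariant function is invariant under multiple flips. -/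
lemma reflS_inv {s : Finset ι} (he : ∀ j ∈ s, Ev j G) (u : ι → ℝ) : G (reflS s u) = G u := by
  induction s using Finset.induction_on with
  | empty => rw [reflS_empty]
  | insert a s ha ih =>
    rw [reflS_insert ha, he a (Finset.mem_insert_self _ _)]
    exact ih fun j hj => he j (Finset.mem_insert_of_mem hj)

/-- A function of definite parity everywhere. -/
theorem mul_le_of_parity (hh : IsC2Plus h) (hG : IsHom2 G) (hi : ∀ i, Ev i h)
    (hp : ∀ i, Ev i G ∨ Od i G) (τ : ℝ) :
    Vol (Ex h G τ) * Vol (Ex h G (-τ)) ≤ Vol h ^ 2 := by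
  by_cases h1 : ∀ i, Ev i G
  · exact mul_le_of_all_even hh hi h1 τ
  push_neg at h1
  obtain ⟨i, hi1⟩ := h1
  have oi : Od i G := (hp i).resolve_left hi1
  by_cases h2 : ∃ j, j ≠ i ∧ Od j G
  · obtain ⟨j, hj, oj⟩ := h2
    have a1 := le_of_two_odd hh hG hj.symm (hi i) (hi j) oi oj τ
    have a2 := le_of_two_odd hh hG hj.symm (hi i) (hi j) oi oj (-τ)
    have n1 := Vol_nonneg (Ex h G τ)
    have n2 := Vol_nonneg (Ex h G (-τ))
    nlinarith
  · exfalso
    push_neg at h2
    apply hi1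
    -- all the other parities are even, so oddness at `i` forces `G = 0`
    have he : ∀ j ∈ Finset.univ.erase i, Ev j G := by
      intro j hj
      exact (hp j).resolve_right (h2 j (Finset.mem_erase.1 hj).1)
    have hz : ∀ x, G x = 0 := by
      intro x
      have e1 : reflS Finset.univ x = refl i (reflS (Finset.univ.erase i) x) := by
        rw [← reflS_insert (Finset.notMem_erase i _), Finset.insert_erase (Finset.mem_univ i)]
      have e2 : G (-x) = - G x := by
        rw [← reflS_univ, e1, oi, reflS_inv he]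
      rw [hG.even] at e2
      linarith
    intro x
    rw [hz, hz]

/-- The form is nonpositive on functions of definite parity outside a finite set of coordinates. -/
theorem Th_nonpos_aux (hh : IsC2Plus h) (hi : ∀ i, Ev i h) (S : Finset ι) :
    ∀ G, IsHom2 G → (∀ i, i ∉ S → Ev i G ∨ Od i G) → Th h G ≤ 0 := by
  induction S using Finset.induction_on with
  | empty =>
    intro G hG hp
    exact Th_nonpos_of_mul_le hh hG one_pos fun τ _ =>
      mul_le_of_parity hh hG hi (fun i => hp i (Finset.notMem_empty i)) τ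
  | insert a S ha ih =>
    intro G hG hp
    have hR := hG.comp_refl a
    set P : (ι → ℝ) → ℝ := fun x => (1 / 2) * (G x + G (refl a x)) with hP
    set Q : (ι → ℝ) → ℝ := fun x => (1 / 2) * (G x - G (refl a x)) with hQ
    have hP2 : IsHom2 P := (hG.add hR).const_mul _
    have hQ2 : IsHom2 Q := (hG.sub hR).const_mul _
    have eP : Ev a P := by
      intro x
      simp only [hP, refl_refl]
      ring
    have oQ : Od a Q := by
      intro x
      simp only [hQ, refl_refl]
      ring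
    have eG : G = fun x => P x + Q x := by
      funext x
      simp only [hP, hQ]
      ring
    have hPp : ∀ i, i ∉ S → Ev i P ∨ Od i P := by
      intro i his
      by_cases hia : i = a
      · subst hia
        exact Or.inl eP
      · have hi' : i ∉ insert a S := by
          simp [hia, his]
        rcases hp i hi' with e | o
        · left
          intro x
          simp only [hP]
          rw [refl_comm a i, e x, e (refl a x)]
        · right
          intro x
          simp only [hP]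
          rw [refl_comm a i, o x, o (refl a x)]
          ring
    have hQp : ∀ i, i ∉ S → Ev i Q ∨ Od i Q := by
      intro i his
      by_cases hia : i = a
      · subst hia
        exact Or.inr oQ
      · have hi' : i ∉ insert a S := by
          simp [hia, his]
        rcases hp i hi' with e | o
        · left
          intro x
          simp only [hQ]
          rw [refl_comm a i, e x, e (refl a x)]
        · right
          intro x
          simp only [hQ]
          rw [refl_comm a i, o x, o (refl a x)]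
          ring
    rw [eG, Th_add hh (hi a) hP2 hQ2 eP oQ]
    have h1 := ih P hP2 hPp
    have h2 := ih Q hQ2 hQp
    linarith

/-- The main inequality: the form is nonpositive at bodies invariant under all coordinate
reflections, in all directions. -/
theorem Th_nonpos (hh : IsC2Plus h) (hi : ∀ i x, h (refl i x) = h x) (hG : IsHom2 G) : Th h G ≤ 0 :=
  Th_nonpos_aux hh hi Finset.univ G hG fun i hi' => absurd (Finset.mem_univ i) hi'

end Vale.Agent.Lib.P227L
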