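import Mathlib
import Vale.Agent.Lib.P227L.Theta

/-!
# The local logarithmic Brunn-Minkowski inequality at bodies invariant under coordinate reflections
-/

open MeasureTheory Set Filter Topology
open scoped ENNReal Matrix

namespace Vale.Agent.Lib.P227L

/-- Second order expansion of a power. -/
lemma abs_rpow_sub_le {y lam : ℝ} (hy : |y| ≤ 1 / 2) (h0 : 0 ≤ lam) (h1 : lam ≤ 1) :
    |(1 + y) ^ lam - (1 + lam * y + lam * (lam - 1) / 2 * y ^ 2)| ≤ 13 * |y| ^ 3 := by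
  set a := |y| with ha
  have ha0 : 0 ≤ a := abs_nonneg y
  have hy' := abs_le.1 hy
  have hpos : 0 < 1 + y := by linarith
  set L := Real.log (1 + y) with hL
  have e1 : (1 + y) ^ lam = Real.exp (lam * L) := by
    rw [Real.rpow_def_of_pos hpos, mul_comm]
  set e := L - (y - y ^ 2 / 2) with he
  have he1 : |e| ≤ a ^ 3 * 2 := abs_log_one_add_sub_le hy
  have hsq : y ^ 2 = a ^ 2 := (sq_abs y).symm
  have a2 : a ^ 2 ≤ a / 2 := by nlinarith
  have a3 : a ^ 3 ≤ a ^ 2 / 2 := by nlinarith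
  -- bound on `L - y`
  have h2 : |L - y| ≤ 3 / 2 * a ^ 2 := by
    have e2 : L - y = e - y ^ 2 / 2 := by rw [he]; ring
    rw [e2]
    refine (abs_sub _ _).trans ?_
    have : |y ^ 2 / 2| = a ^ 2 / 2 := by
      rw [hsq, abs_of_nonneg (by positivity)]
    rw [this]
    linarith
  have h3 : |L| ≤ 2 * a := by
    have e3 : L = (L - y) + y := by ring
    rw [e3]
    refine (abs_add_le _ _).trans ?_
    linarith
  have hz : |lam * L| ≤ 2 * a := by
    rw [abs_mul, abs_of_nonneg h0]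
    have : lam * |L| ≤ 1 * |L| := mul_le_mul_of_nonneg_right h1 (abs_nonneg _)
    linarith
  have h4 := exp_cubic (y := lam * L) (by linarith)
  have h5 : |lam * L| ^ 3 ≤ 8 * a ^ 3 := by
    have := pow_le_pow_left₀ (abs_nonneg _) hz 3
    calc _ ≤ (2 * a) ^ 3 := this
      _ = _ := by ring
  -- the remaining polynomial error
  have h6 : |L ^ 2 - y ^ 2| ≤ 9 / 2 * a ^ 3 := by
    have e4 : L ^ 2 - y ^ 2 = (L - y) * (L + y) := by ring
    rw [e4, abs_mul]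
    have h7 : |L + y| ≤ 3 * a := by
      refine (abs_add_le _ _).trans ?_
      linarith
    calc |L - y| * |L + y| ≤ (3 / 2 * a ^ 2) * (3 * a) :=
          mul_le_mul h2 h7 (abs_nonneg _) (by positivity)
      _ = _ := by ring
  have e5 : (1 + y) ^ lam - (1 + lam * y + lam * (lam - 1) / 2 * y ^ 2)
      = (Real.exp (lam * L) - (1 + lam * L + (lam * L) ^ 2 / 2)) + lam * e
        + lam ^ 2 / 2 * (L ^ 2 - y ^ 2) := by
    rw [e1, he]
    ring
  rw [e5]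
  have h8 : |lam * e| ≤ 2 * a ^ 3 := by
    rw [abs_mul, abs_of_nonneg h0]
    have : lam * |e| ≤ 1 * |e| := mul_le_mul_of_nonneg_right h1 (abs_nonneg _)
    linarith
  have h9 : |lam ^ 2 / 2 * (L ^ 2 - y ^ 2)| ≤ 5 / 2 * a ^ 3 := by
    rw [abs_mul, abs_of_nonneg (by positivity)]
    have h10 : lam ^ 2 / 2 ≤ 1 / 2 := by nlinarith
    have h11 : 0 ≤ a ^ 3 := by positivity
    calc lam ^ 2 / 2 * |L ^ 2 - y ^ 2| ≤ 1 / 2 * (9 / 2 * a ^ 3) :=
          mul_le_mul h10 h6 (abs_nonneg _) (by norm_num)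
      _ ≤ _ := by nlinarith
  have h10 : 0 ≤ a ^ 3 := by positivity
  calc _ ≤ |Real.exp (lam * L) - (1 + lam * L + (lam * L) ^ 2 / 2) + lam * e|
        + |lam ^ 2 / 2 * (L ^ 2 - y ^ 2)| := abs_add_le _ _
    _ ≤ |Real.exp (lam * L) - (1 + lam * L + (lam * L) ^ 2 / 2)| + |lam * e|
        + |lam ^ 2 / 2 * (L ^ 2 - y ^ 2)| := by gcongr; exact abs_add_le _ _
    _ ≤ 8 * a ^ 3 + 2 * a ^ 3 + 5 / 2 * a ^ 3 := by linarith
    _ ≤ _ := by linarith

variable {ι : Type} [Fintype ι] {h g : (ι → ℝ) → ℝ}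

/-- The logarithmic combination of the functions `h` and `h + t g`. -/
noncomputable def Lg (h g : (ι → ℝ) → ℝ) (lam t : ℝ) : (ι → ℝ) → ℝ :=
  fun x => h x ^ (1 - lam) * (lin h g t x) ^ lam

/-- Its quadratic approximation. -/
noncomputable def Qa (h g : (ι → ℝ) → ℝ) (lam t : ℝ) : (ι → ℝ) → ℝ :=
  comb h g (sq h g) (lam * t) (lam * (lam - 1) / 2 * t ^ 2)

lemma Lg_compare (hh : IsC2Plus h) (hg : IsHom2 g) {C lam t : ℝ} (hC : ∀ ξ, |g ξ| ≤ C * h ξ)
    (hC0 : 0 ≤ C) (h0 : 0 ≤ lam) (h1 : lam ≤ 1) (ht : C * |t| ≤ 1 / 2) (x : ι → ℝ) :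
    (1 - 52 * C ^ 3 * |t| ^ 3) * Qa h g lam t x ≤ Lg h g lam t x ∧ Lg h g lam t x ≤ 2 * h x := by
  by_cases hx : x = 0
  · subst hx
    have z1 := hh.toIsHom2.zero
    have z2 := hg.zero
    simp only [Qa, Lg, lin, comb, sq, z1, z2]
    have hn : 0 ≤ (0 : ℝ) ^ (1 - lam) * (0 + t * 0) ^ lam :=
      mul_nonneg (Real.rpow_nonneg le_rfl _) (Real.rpow_nonneg (by simp) _)
    constructor
    · simpa using hn
    · have e : (0 : ℝ) + t * 0 = 0 := by ring
      rw [e]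
      by_cases hl : lam = 0
      · subst hl
        simp
      · rw [Real.zero_rpow hl]
        simp
  have hp := hh.pos x hx
  set z := g x / h x with hz
  have hgz : g x = z * h x := by
    rw [hz]
    field_simp
  have hzb : |z| ≤ C := by
    rw [hz, abs_div, abs_of_pos hp, div_le_iff₀ hp]
    exact hC x
  set y := t * z with hy
  have hy1 : |y| ≤ C * |t| := by
    rw [hy, abs_mul, mul_comm]
    exact mul_le_mul_of_nonneg_right hzb (abs_nonneg _)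
  have hy2 : |y| ≤ 1 / 2 := hy1.trans ht
  have hyy := abs_le.1 hy2
  have hpos : 0 < 1 + y := by linarith
  have e1 : lin h g t x = h x * (1 + y) := by
    simp only [lin]
    rw [hgz, hy]
    ring
  have e2 : Lg h g lam t x = h x * (1 + y) ^ lam := by
    simp only [Lg]
    rw [e1, Real.mul_rpow hp.le hpos.le, ← mul_assoc, ← Real.rpow_add hp]
    simp
  have e3 : Qa h g lam t x = h x * (1 + lam * y + lam * (lam - 1) / 2 * y ^ 2) := by
    simp only [Qa, comb, sq]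
    rw [hgz, hy]
    field_simp
  have h3 := abs_le.1 (abs_rpow_sub_le hy2 h0 h1)
  have h4 : |y| ^ 3 ≤ C ^ 3 * |t| ^ 3 := by
    have := pow_le_pow_left₀ (abs_nonneg y) hy1 3
    calc _ ≤ (C * |t|) ^ 3 := this
      _ = _ := by ring
  set ε := 52 * C ^ 3 * |t| ^ 3 with hε
  set w := 1 + lam * y + lam * (lam - 1) / 2 * y ^ 2 with hw
  have hb : lam * (lam - 1) / 2 ≥ -(1 / 8) := by nlinarith [sq_nonneg (lam - 1 / 2)]
  have hb2 : lam * (lam - 1) / 2 ≤ 0 := by nlinarith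
  have hy3 : y ^ 2 ≤ 1 / 4 := by nlinarith
  have hy4 : 0 ≤ y ^ 2 := by positivity
  have hw1 : 1 / 4 ≤ w := by
    have t1 : -(1 / 2) ≤ lam * y := by nlinarith
    have t2 : -(1 / 32) ≤ lam * (lam - 1) / 2 * y ^ 2 := by nlinarith
    rw [hw]
    linarith
  have h5 : (1 - ε) * w ≤ (1 + y) ^ lam := by
    have t1 : 13 * |y| ^ 3 ≤ ε * w := by
      have t2 : 13 * |y| ^ 3 ≤ 13 * (C ^ 3 * |t| ^ 3) := by linarith
      have t3 : 0 ≤ ε := by positivity
      have t4 : ε * (1 / 4) ≤ ε * w := mul_le_mul_of_nonneg_left hw1 t3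
      have t5 : ε * (1 / 4) = 13 * (C ^ 3 * |t| ^ 3) := by rw [hε]; ring
      linarith
    have t6 := h3.1
    nlinarith
  have h6 : (1 + y) ^ lam ≤ 2 := by
    have t1 : (1 + y) ^ lam ≤ 2 ^ lam := Real.rpow_le_rpow hpos.le (by linarith) h0
    have t2 : (2 : ℝ) ^ lam ≤ 2 ^ (1 : ℝ) := Real.rpow_le_rpow_of_exponent_le (by norm_num) h1
    rw [Real.rpow_one] at t2
    linarith
  rw [e2, e3]
  constructor
  · calc _ = h x * ((1 - ε) * w) := by ring
      _ ≤ _ := mul_le_mul_of_nonneg_left h5 hp.le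
  · calc _ ≤ h x * 2 := mul_le_mul_of_nonneg_left h6 hp.le
      _ = _ := by ring

variable [DecidableEq ι] [Nonempty ι]

/-- The expansion of the volume of the quadratic approximant. -/
lemma T1_Qa (hh : IsC2Plus h) (hg : IsHom2 g) (lam : ℝ) :
    T1 (fun t => Vol (Qa h g lam t)) (Vol h) (lam * c1 h g)
      (lam * (lam - 1) / 2 * c1 h (sq h g) + lam ^ 2 * c2 h g) := by
  obtain ⟨E, hp⟩ := exists_pairData hh hg (isHom2_sq hh hg)
  have h1 := hp.t2.curve lam 0 0 (lam * (lam - 1) / 2)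
  have e1 : (fun τ : ℝ => Vol (comb h g (sq h g) (lam * τ + 0 * τ ^ 2)
      (0 * τ + lam * (lam - 1) / 2 * τ ^ 2))) = fun t => Vol (Qa h g lam t) := by
    funext τ
    simp only [Qa]
    congr 2
    · ring
    · ring
  rw [e1] at h1
  convert h1 using 1
  · ring
  · ring

/-- The second order inequality for the quadratic approximant. -/
lemma Qa_ineq (hh : IsC2Plus h) (hi : ∀ i x, h (refl i x) = h x) (hg : IsHom2 g) {lam : ℝ}
    (h0 : 0 ≤ lam) (h1 : lam ≤ 1) :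
    ∃ K ρ : ℝ, 0 < ρ ∧ ∀ t, |t| ≤ ρ → 0 < Vol (Qa h g lam t) ∧
      (1 - lam) * Real.log (Vol h) + lam * Real.log (Vol (lin h g t))
        ≤ Real.log (Vol (Qa h g lam t)) + K * |t| ^ 3 := by
  have hV := hh.Vol_pos
  have hT1 := T1_Qa hh hg lam
  have hT2 := T1_lin hh hg
  obtain ⟨ρ₁, hρ₁, hpos⟩ := T1.pos_near hT1 hV
  have hL1 := hT1.log hV
  have hL2 := hT2.log hV
  have hD := hL1.add (hL2.const_mul (-lam))
  have hTh := Th_nonpos hh hi hg
  rw [Th] at hTh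
  -- the second coefficient is nonnegative
  set D := (lam * (lam - 1) / 2 * c1 h (sq h g) + lam ^ 2 * c2 h g) / Vol h
      - (lam * c1 h g) ^ 2 / (2 * Vol h ^ 2)
      + -lam * (c2 h g / Vol h - c1 h g ^ 2 / (2 * Vol h ^ 2)) with hDdef
  have hDnn : 0 ≤ D := by
    have e : D = (lam * (1 - lam) / 2) *
        (-(Vol h * (c1 h (sq h g) + 2 * c2 h g) - c1 h g ^ 2)) / Vol h ^ 2 := by
      rw [hDdef]
      field_simp
      ring
    rw [e]
    have h2 : 0 ≤ lam * (1 - lam) / 2 := by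
      have : 0 ≤ 1 - lam := by linarith
      positivity
    have h3 : 0 ≤ -(Vol h * (c1 h (sq h g) + 2 * c2 h g) - c1 h g ^ 2) := by linarith
    positivity
  obtain ⟨K, ρ₂, hK, hρ₂, hb⟩ := hD.nonneg_const
  refine ⟨K, min ρ₁ ρ₂, lt_min hρ₁ hρ₂, fun t ht => ⟨hpos t (ht.trans (min_le_left _ _)), ?_⟩⟩
  have ht2 : |t| ≤ ρ₂ := ht.trans (min_le_right _ _)
  have h6 := abs_le.1 (hb t ht2)
  have h7 : 0 ≤ D * t ^ 2 := by positivity
  have e0 : (lam * c1 h g) / Vol h + -lam * (c1 h g / Vol h) = 0 := by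
    field_simp
    ring
  have h8 : Real.log (Vol h) + -lam * Real.log (Vol h)
      + ((lam * c1 h g) / Vol h + -lam * (c1 h g / Vol h)) * t + D * t ^ 2
      - Real.log (Vol (Qa h g lam t)) - -lam * Real.log (Vol (lin h g t)) ≤ K * |t| ^ 3 := by
    have := h6.2
    linarith
  rw [e0] at h8
  nlinarith

omit [DecidableEq ι] [Nonempty ι] in
/-- Passage from the approximant to the combination. -/
lemma log_Lg_ge (hh : IsC2Plus h) (hg : IsHom2 g) {C lam t : ℝ} (hC : ∀ ξ, |g ξ| ≤ C * h ξ)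
    (hC0 : 0 ≤ C) (h0 : 0 ≤ lam) (h1 : lam ≤ 1) (ht : C * |t| ≤ 1 / 2)
    (hε1 : 52 * C ^ 3 * |t| ^ 3 ≤ 1 / 2) (hQ : 0 < Vol (Qa h g lam t)) :
    0 < Vol (Lg h g lam t) ∧ Real.log (Vol (Qa h g lam t)) ≤ Real.log (Vol (Lg h g lam t))
      + 2 * (Fintype.card ι : ℝ) * (52 * C ^ 3) * |t| ^ 3 := by
  set n := Fintype.card ι with hn
  have hcmp := Lg_compare hh hg hC hC0 h0 h1 ht
  set ε := 52 * C ^ 3 * |t| ^ 3 with hε
  have hε0 : 0 ≤ ε := by positivity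
  have hfinL : IsCompact (wulff (Lg h g lam t)) :=
    finite_of_le hh (by norm_num) fun u => (hcmp u).2
  have h2 : (1 - ε) ^ n * Vol (Qa h g lam t) ≤ Vol (Lg h g lam t) := by
    rw [hn, ← Vol_const_mul (by linarith)]
    exact Vol_mono (fun u => (hcmp u).1) hfinL.measure_lt_top.ne
  have h1e : 0 < 1 - ε := by linarith
  refine ⟨lt_of_lt_of_le (by positivity) h2, ?_⟩
  have h3 : Real.log ((1 - ε) ^ n * Vol (Qa h g lam t)) ≤ Real.log (Vol (Lg h g lam t)) :=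
    Real.log_le_log (by positivity) h2
  rw [Real.log_mul (by positivity) hQ.ne', Real.log_pow] at h3
  have h4 : - (2 * ε) ≤ Real.log (1 - ε) := by
    have a1 := Real.one_sub_inv_le_log_of_pos h1e
    have a2 : (1 - ε)⁻¹ ≤ 2 := by
      rw [inv_le_comm₀ h1e (by norm_num)]
      linarith
    have a3 : (1 - ε)⁻¹ * (1 - ε) = 1 := inv_mul_cancel₀ h1e.ne'
    have a4 : 1 - (1 - ε)⁻¹ = - (ε * (1 - ε)⁻¹) := by
      have : (1 - ε)⁻¹ = (1 - ε)⁻¹ * (1 - ε) + ε * (1 - ε)⁻¹ := by ring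
      linarith
    have a5 : ε * (1 - ε)⁻¹ ≤ ε * 2 := mul_le_mul_of_nonneg_left a2 hε0
    linarith
  have h5 : (n : ℝ) * (-(2 * ε)) ≤ (n : ℝ) * Real.log (1 - ε) :=
    mul_le_mul_of_nonneg_left h4 (by positivity)
  have e9 : 2 * (n : ℝ) * (52 * C ^ 3) * |t| ^ 3 = (n : ℝ) * (2 * ε) := by
    rw [hε]
    ring
  rw [e9]
  push_cast at h3
  nlinarith

omit [Fintype ι] [DecidableEq ι] [Nonempty ι] in
/-- The numerics of the smallness conditions. -/
lemma small_numerics {C : ℝ} (hC0 : 0 ≤ C) : ∃ ρ : ℝ, 0 < ρ ∧ ∀ t : ℝ, |t| ≤ ρ →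
    C * |t| ≤ 1 / 2 ∧ 52 * C ^ 3 * |t| ^ 3 ≤ 1 / 2 := by
  refine ⟨1 / (5 * (C + 1)), by positivity, fun t ht => ?_⟩
  have h0 := abs_nonneg t
  have h2 : (C + 1) * |t| ≤ (C + 1) * (1 / (5 * (C + 1))) :=
    mul_le_mul_of_nonneg_left ht (by positivity)
  have h3 : (C + 1) * (1 / (5 * (C + 1))) = 1 / 5 := by
    field_simp
  have h4 : C * |t| ≤ 1 / 5 := by nlinarith
  have h5 : 0 ≤ C * |t| := by positivity
  refine ⟨by linarith, ?_⟩
  have h6 : (C * |t|) ^ 3 ≤ (1 / 5) ^ 3 := pow_le_pow_left₀ h5 h4 3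
  have e : 52 * C ^ 3 * |t| ^ 3 = 52 * (C * |t|) ^ 3 := by ring
  rw [e]
  norm_num at h6 ⊢
  linarith

/-- The local logarithmic Brunn-Minkowski inequality at bodies invariant under all coordinate
reflections. -/
theorem local_log_bm (hh : IsC2Plus h) (hi : ∀ i x, h (refl i x) = h x) (hg : IsHom2 g) {lam : ℝ}
    (h0 : 0 ≤ lam) (h1 : lam ≤ 1) :
    ∃ C δ : ℝ, 0 < δ ∧ ∀ t, |t| ≤ δ →
      0 < Vol (Lg h g lam t) ∧ (1 - lam) * Real.log (Vol h) + lam * Real.log (Vol (lin h g t))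
        ≤ Real.log (Vol (Lg h g lam t)) + C * |t| ^ 3 := by
  obtain ⟨C, hC0, hC⟩ := exists_rel_val hh hg
  obtain ⟨K, ρ, hρ, hQ⟩ := Qa_ineq hh hi hg h0 h1
  obtain ⟨ρ', hρ', hs⟩ := small_numerics hC0
  refine ⟨K + 2 * (Fintype.card ι : ℝ) * (52 * C ^ 3), min ρ ρ', lt_min hρ hρ', fun t ht => ?_⟩
  obtain ⟨a1, a2⟩ := hQ t (ht.trans (min_le_left _ _))
  obtain ⟨b1, b2⟩ := hs t (ht.trans (min_le_right _ _))
  obtain ⟨h2, h3⟩ := log_Lg_ge hh hg hC hC0 h0 h1 b1 b2 a1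
  refine ⟨h2, ?_⟩
  rw [add_mul]
  linarith

end Vale.Agent.Lib.P227L
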