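import Mathlib
import Vale.Agent.Lib.P227L.Final
import Vale.Agent.Lib.P227L.DefsGeom

/-!
# Bodies and support functions
-/

open MeasureTheory Set Filter Topology
open scoped ENNReal Matrix

namespace Vale.Agent.Lib.P227L

variable {ι : Type} [Fintype ι] [DecidableEq ι] {K : Set (ι → ℝ)} {h g : (ι → ℝ) → ℝ}

/-- A function of class `C²₊` is the support function of its Wulff body. -/
theorem IsC2Plus.isSupportFn (hh : IsC2Plus h) : IsSupportFn (wulff h) h := by
  intro u
  constructor
  · rintro _ ⟨x, hx, rfl⟩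
    exact hx u
  · intro b hb
    by_cases hu : u = 0
    · subst hu
      have h0 : (0 : ι → ℝ) ∈ wulff h := fun v => by
        simpa using hh.nonneg v
      have := hb ⟨0, h0, rfl⟩
      simp only [dotProduct_zero] at this
      rw [hh.toIsHom2.zero]
      exact this
    · have h1 : gradv h u ∈ wulff h := fun v => by
        rw [← fderiv_eq_dot]
        exact hh.fderiv_le hu v
      have := hb ⟨_, h1, rfl⟩
      simp only at this
      rw [← fderiv_eq_dot, hh.toIsHom2.euler hu] at this
      exact this

/-- A closed convex set is the Wulff set of its support function. -/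
theorem wulff_eq_of_isSupportFn (hc : IsClosed K) (hv : Convex ℝ K) (hs : IsSupportFn K h) :
    wulff h = K := by
  ext x
  constructor
  · intro hx
    by_contra hxK
    obtain ⟨f, u, h1, h2⟩ := geometric_hahn_banach_closed_point hv hc hxK
    set w : ι → ℝ := fun a => f (ee a) with hw
    have e : ∀ v : ι → ℝ, f v = v ⬝ᵥ w := fun v => clm_apply_eq_sum f v
    have h3 : h w ≤ u := by
      apply (hs w).2
      rintro _ ⟨y, hy, rfl⟩
      simp only
      rw [← e]
      exact (h1 y hy).le
    have h4 := hx w
    rw [← e] at h4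
    linarith
  · intro hx u
    exact (hs u).1 ⟨x, hx, rfl⟩

/-- Reflection invariance of the support function. -/
theorem IsSupportFn.refl_inv (hs : IsSupportFn K h) (hu : ∀ i, ∀ x ∈ K, refl i x ∈ K) (i : ι)
    (u : ι → ℝ) : h (refl i u) = h u := by
  apply (hs (refl i u)).unique
  have e : (fun x => x ⬝ᵥ refl i u) '' K = (fun x => x ⬝ᵥ u) '' K := by
    ext y
    constructor
    · rintro ⟨x, hx, rfl⟩
      exact ⟨refl i x, hu i x hx, refl_dot i x u⟩
    · rintro ⟨x, hx, rfl⟩
      refine ⟨refl i x, hu i x hx, ?_⟩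
      simp only
      rw [← refl_dot, refl_refl]
  rw [e]
  exact hs u

/-- The perturbations stay in the class. -/
theorem exists_lin_plus (hh : IsC2Plus h) (hg : IsHom2 g) :
    ∃ ρ : ℝ, 0 < ρ ∧ ∀ t : ℝ, |t| ≤ ρ → IsC2Plus (lin h g t) := by
  obtain ⟨ρ, hρ, hp⟩ := exists_comb_plus hh hg (IsHom2.isHom2_zero (ι := ι))
  refine ⟨ρ, hρ, fun t ht => ?_⟩
  have := hp t 0 ht (by simpa using hρ.le)
  rwa [comb_zero_right] at this

end Vale.Agent.Lib.P227L
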