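import Mathlib
import Vale.Agent.Lib.P227L.Geom

/-!
# Smooth approximation of support functions: the Euclidean norm, and second derivatives of
subadditive functions
-/

open MeasureTheory Set Filter Topology
open scoped ENNReal Matrix

namespace Vale.Agent.Lib.P227L

variable {ι : Type} [Fintype ι] [DecidableEq ι] {G : (ι → ℝ) → ℝ} {ξ : ι → ℝ}

/-- The Euclidean norm. -/
noncomputable def en (ξ : ι → ℝ) : ℝ := Real.sqrt (ξ ⬝ᵥ ξ)

omit [DecidableEq ι] in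
lemma en_pos (hξ : ξ ≠ 0) : 0 < en ξ := Real.sqrt_pos.2 (dot_self_pos hξ)

omit [DecidableEq ι] in
lemma en_nonneg (ξ : ι → ℝ) : 0 ≤ en ξ := Real.sqrt_nonneg _

omit [DecidableEq ι] in
lemma en_sq (ξ : ι → ℝ) : en ξ ^ 2 = ξ ⬝ᵥ ξ := Real.sq_sqrt (dot_self_nonneg ξ)

omit [DecidableEq ι] in
lemma contDiff_dot : ContDiff ℝ 2 (fun ξ : ι → ℝ => ξ ⬝ᵥ ξ) := by
  unfold dotProduct
  exact ContDiff.sum fun a _ => (contDiff_apply ℝ ℝ a).mul (contDiff_apply ℝ ℝ a)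

omit [DecidableEq ι] in
lemma isHom2_en : IsHom2 (en : (ι → ℝ) → ℝ) where
  cd := by
    intro x hx
    have hx' : x ≠ 0 := hx
    have h1 : ContDiffAt ℝ 2 (fun ξ : ι → ℝ => Real.sqrt (ξ ⬝ᵥ ξ)) x :=
      (contDiff_dot.contDiffAt).sqrt (dot_self_pos hx').ne'
    exact h1.contDiffWithinAt
  even ξ := by simp [en]
  smul r ξ hr := by
    simp only [en, smul_dotProduct, dotProduct_smul, smul_eq_mul]
    rw [← mul_assoc, Real.sqrt_mul (by positivity), Real.sqrt_mul_self hr.le]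

omit [DecidableEq ι] in
lemma en_line (x w : ι → ℝ) (s : ℝ) :
    en (x + s • w) = Real.sqrt (x ⬝ᵥ x + 2 * s * (x ⬝ᵥ w) + s ^ 2 * (w ⬝ᵥ w)) := by
  simp only [en, add_dotProduct, dotProduct_add, smul_dotProduct, dotProduct_smul, smul_eq_mul,
    dotProduct_comm w x]
  congr 1
  ring

omit [DecidableEq ι] in
lemma fderiv_en {x : ι → ℝ} (hx : x ≠ 0) (w : ι → ℝ) : fderiv ℝ en x w = (x ⬝ᵥ w) / en x := by
  have h1 := isHom2_en.hasDerivAt_line x w (τ := 0) (by simpa using hx)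
  simp only [zero_smul, add_zero] at h1
  have h2 : HasDerivAt (fun s : ℝ => Real.sqrt (x ⬝ᵥ x + 2 * s * (x ⬝ᵥ w) + s ^ 2 * (w ⬝ᵥ w)))
      ((2 * (x ⬝ᵥ w) + 2 * 0 * (w ⬝ᵥ w)) /
        (2 * Real.sqrt (x ⬝ᵥ x + 2 * 0 * (x ⬝ᵥ w) + 0 ^ 2 * (w ⬝ᵥ w)))) 0 := by
    apply HasDerivAt.sqrt
    · have a1 : HasDerivAt (fun s : ℝ => 2 * s * (x ⬝ᵥ w)) (2 * (x ⬝ᵥ w)) 0 := by
        simpa using ((hasDerivAt_id (0 : ℝ)).const_mul 2).mul_const (x ⬝ᵥ w)
      have a2 : HasDerivAt (fun s : ℝ => s ^ 2 * (w ⬝ᵥ w)) (2 * 0 * (w ⬝ᵥ w)) 0 := by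
        simpa using (hasDerivAt_pow 2 (0 : ℝ)).mul_const (w ⬝ᵥ w)
      exact (a1.const_add _).add a2
    · simpa using (dot_self_pos hx).ne'
  have e : (fun s : ℝ => en (x + s • w))
      = fun s : ℝ => Real.sqrt (x ⬝ᵥ x + 2 * s * (x ⬝ᵥ w) + s ^ 2 * (w ⬝ᵥ w)) := by
    funext s
    exact en_line x w s
  rw [e] at h1
  rw [h1.unique h2]
  simp only [en, mul_zero, zero_mul, add_zero, ne_eq, OfNat.ofNat_ne_zero, not_false_eq_true,
    zero_pow]
  have := en_pos hx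
  have h3 : Real.sqrt (x ⬝ᵥ x) ≠ 0 := this.ne'
  field_simp

omit [DecidableEq ι] in
/-- The second derivative of the Euclidean norm. -/
lemma D2_en (hξ : ξ ≠ 0) (w : ι → ℝ) :
    D2 en ξ w w = ((w ⬝ᵥ w) * en ξ - (ξ ⬝ᵥ w) * ((ξ ⬝ᵥ w) / en ξ)) / en ξ ^ 2 := by
  have h1 := isHom2_en.hasDerivAt_line' ξ w w (τ := 0) (by simpa using hξ)
  simp only [zero_smul, add_zero] at h1
  have hev : ∀ᶠ s : ℝ in 𝓝 0, ξ + s • w ≠ 0 := by
    have hc : ContinuousAt (fun s : ℝ => ξ + s • w) 0 := by fun_prop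
    have : ξ + (0 : ℝ) • w ≠ 0 := by simpa using hξ
    exact hc.eventually_ne this
  have h2 : HasDerivAt (fun s : ℝ => ((ξ + s • w) ⬝ᵥ w) / en (ξ + s • w))
      (((w ⬝ᵥ w) * en ξ - (ξ ⬝ᵥ w) * ((ξ ⬝ᵥ w) / en ξ)) / en ξ ^ 2) 0 := by
    have a1 : HasDerivAt (fun s : ℝ => (ξ + s • w) ⬝ᵥ w) (w ⬝ᵥ w) 0 := by
      have e : (fun s : ℝ => (ξ + s • w) ⬝ᵥ w) = fun s : ℝ => ξ ⬝ᵥ w + s * (w ⬝ᵥ w) := by
        funext s
        simp [add_dotProduct, smul_dotProduct]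
      rw [e]
      simpa using ((hasDerivAt_id (0 : ℝ)).mul_const (w ⬝ᵥ w)).const_add (ξ ⬝ᵥ w)
    have a2 : HasDerivAt (fun s : ℝ => en (ξ + s • w)) ((ξ ⬝ᵥ w) / en ξ) 0 := by
      have := isHom2_en.hasDerivAt_line ξ w (τ := 0) (by simpa using hξ)
      simp only [zero_smul, add_zero] at this
      rwa [fderiv_en hξ] at this
    have a3 := a1.fun_div a2 (by simpa using (en_pos hξ).ne')
    simpa using a3
  have h3 : (fun s : ℝ => fderiv ℝ en (ξ + s • w) w) =ᶠ[𝓝 0]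
      fun s : ℝ => ((ξ + s • w) ⬝ᵥ w) / en (ξ + s • w) := by
    filter_upwards [hev] with s hs
    exact fderiv_en hs w
  exact h1.unique (h2.congr_of_eventuallyEq h3)

omit [DecidableEq ι] in
/-- The Euclidean norm is strictly convex across rays. -/
lemma D2_en_pos (hξ : ξ ≠ 0) {w : ι → ℝ} (hw : ∀ c : ℝ, w ≠ c • ξ) : 0 < D2 en ξ w w := by
  rw [D2_en hξ]
  have he := en_pos hξ
  have hq := dot_self_pos hξ
  set c := (ξ ⬝ᵥ w) / (ξ ⬝ᵥ ξ) with hc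
  have hy : w - c • ξ ≠ 0 := sub_ne_zero.2 (hw c)
  have h1 := dot_self_pos hy
  have h2 : (w - c • ξ) ⬝ᵥ (w - c • ξ) = w ⬝ᵥ w - (ξ ⬝ᵥ w) ^ 2 / (ξ ⬝ᵥ ξ) := by
    simp only [sub_dotProduct, dotProduct_sub, smul_dotProduct, dotProduct_smul, smul_eq_mul,
      dotProduct_comm w ξ, hc]
    field_simp
    ring
  rw [h2] at h1
  apply div_pos _ (by positivity)
  have h3 : (w ⬝ᵥ w) * en ξ - (ξ ⬝ᵥ w) * ((ξ ⬝ᵥ w) / en ξ)
      = en ξ * (w ⬝ᵥ w - (ξ ⬝ᵥ w) ^ 2 / (ξ ⬝ᵥ ξ)) := by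
    rw [← en_sq ξ]
    field_simp
  rw [h3]
  positivity

omit [DecidableEq ι] in
/-- A subadditive function of class `C²` has nonnegative second derivative. -/
lemma IsHom2.D2_nonneg_of_subadd (hG : IsHom2 G) (hadd : ∀ u v, G (u + v) ≤ G u + G v)
    (hξ : ξ ≠ 0) (w : ι → ℝ) : 0 ≤ D2 G ξ w w := by
  by_contra hcon
  push_neg at hcon
  set φ : ℝ → ℝ := fun s => G (ξ + s • w) with hφ
  have hev : ∀ᶠ s : ℝ in 𝓝 0, ξ + s • w ≠ 0 := by
    have hc : ContinuousAt (fun s : ℝ => ξ + s • w) 0 := by fun_prop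
    have : ξ + (0 : ℝ) • w ≠ 0 := by simpa using hξ
    exact hc.eventually_ne this
  obtain ⟨ρ₁, hρ₁, hb₁⟩ := Metric.eventually_nhds_iff.1 hev
  have hd : ∀ s : ℝ, |s| < ρ₁ → HasDerivAt φ (fderiv ℝ G (ξ + s • w) w) s := by
    intro s hs
    exact hG.hasDerivAt_line ξ w (hb₁ (by simpa [Real.dist_eq] using hs))
  have hd2 := hG.hasDerivAt_line' ξ w w (τ := 0) (by simpa using hξ)
  simp only [zero_smul, add_zero] at hd2
  have hslope := hasDerivAt_iff_tendsto_slope.1 hd2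
  have hev2 := hslope.eventually (gt_mem_nhds hcon)
  obtain ⟨ρ₂, hρ₂, hb₂⟩ := Metric.eventually_nhds_iff.1 (eventually_nhdsWithin_iff.1 hev2)
  set s := min ρ₁ ρ₂ / 2 with hs
  have hs0 : 0 < s := by positivity
  have hlt : s < min ρ₁ ρ₂ := by
    rw [hs]
    have := lt_min hρ₁ hρ₂
    linarith
  have hsl₁ : s < ρ₁ := hlt.trans_le (min_le_left _ _)
  have hsl₂ : s < ρ₂ := hlt.trans_le (min_le_right _ _)
  set L := fderiv ℝ G ξ w with hL
  have hslope' : ∀ c : ℝ, c ≠ 0 → |c| < ρ₂ →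
      (fderiv ℝ G (ξ + c • w) w - L) / c < 0 := by
    intro c hc hcb
    have := hb₂ (y := c) (by simpa [Real.dist_eq] using hcb) hc
    simp only [slope, vsub_eq_sub, zero_smul, add_zero, sub_zero, smul_eq_mul] at this
    rw [div_eq_inv_mul]
    exact this
  -- mean value on both sides
  obtain ⟨c₁, hc₁, hc₁'⟩ := exists_hasDerivAt_eq_slope φ (fun s' => fderiv ℝ G (ξ + s' • w) w) hs0
    (fun y hy => (hd y (by
      rw [abs_lt]
      constructor <;> linarith [hy.1, hy.2])).continuousAt.continuousWithinAt)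
    (fun y hy => hd y (by
      rw [abs_lt]
      constructor <;> linarith [hy.1, hy.2]))
  obtain ⟨c₂, hc₂, hc₂'⟩ := exists_hasDerivAt_eq_slope φ (fun s' => fderiv ℝ G (ξ + s' • w) w)
    (neg_lt_zero.2 hs0)
    (fun y hy => (hd y (by
      rw [abs_lt]
      constructor <;> linarith [hy.1, hy.2])).continuousAt.continuousWithinAt)
    (fun y hy => hd y (by
      rw [abs_lt]
      constructor <;> linarith [hy.1, hy.2]))
  have h1 : fderiv ℝ G (ξ + c₁ • w) w < L := by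
    have := hslope' c₁ hc₁.1.ne' (by
      rw [abs_of_pos hc₁.1]
      linarith [hc₁.2])
    rw [div_lt_iff₀ hc₁.1] at this
    linarith
  have h2 : L < fderiv ℝ G (ξ + c₂ • w) w := by
    have := hslope' c₂ hc₂.2.ne (by
      rw [abs_of_neg hc₂.2]
      linarith [hc₂.1])
    rw [div_lt_iff_of_neg hc₂.2] at this
    linarith
  rw [hc₁'] at h1
  rw [hc₂'] at h2
  -- the inequality from subadditivity
  have h3 : 2 * φ 0 ≤ φ s + φ (-s) := by
    have e1 : (ξ + s • w) + (ξ + (-s) • w) = (2 : ℝ) • ξ := by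
      rw [neg_smul, two_smul]
      abel
    have := hadd (ξ + s • w) (ξ + (-s) • w)
    rw [e1, hG.smul 2 ξ (by norm_num)] at this
    simpa [hφ] using this
  have h4 : (φ s - φ 0) / (s - 0) < L := h1
  have h5 : L < (φ 0 - φ (-s)) / (0 - (-s)) := h2
  have e1 : s - 0 = s := by ring
  have e2 : 0 - (-s) = s := by ring
  rw [e1] at h4
  rw [e2] at h5
  have h6 : (φ s - φ 0) / s < (φ 0 - φ (-s)) / s := h4.trans h5
  rw [div_lt_div_iff_of_pos_right hs0] at h6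
  linarith

end Vale.Agent.Lib.P227L
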