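import Mathlib
import Vale.Agent.Lib.P227L.Approx1

/-!
# Smooth approximation of support functions: norms of even integer exponent
-/

open MeasureTheory Set Filter Topology
open scoped ENNReal Matrix

namespace Vale.Agent.Lib.P227L

variable {ι : Type} [Fintype ι] [DecidableEq ι] {ξ : ι → ℝ}

/-- The power sum. -/
noncomputable def pw (T : Finset (ι → ℝ)) (k : ℕ) (ξ : ι → ℝ) : ℝ := ∑ v ∈ T, (v ⬝ᵥ ξ) ^ (2 * k)

/-- The norm of even integer exponent of a finite family of functionals. -/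
noncomputable def pn (T : Finset (ι → ℝ)) (k : ℕ) (ξ : ι → ℝ) : ℝ :=
  pw T k ξ ^ (((2 * k : ℕ) : ℝ)⁻¹)

/-- The smooth approximant. -/
noncomputable def apx (T : Finset (ι → ℝ)) (k : ℕ) (ε : ℝ) (ξ : ι → ℝ) : ℝ :=
  pn T k ξ + ε * en ξ

section

variable {T : Finset (ι → ℝ)} {k : ℕ}

omit [DecidableEq ι] in
lemma even_pow_nonneg (x : ℝ) (k : ℕ) : 0 ≤ x ^ (2 * k) := (even_two_mul k).pow_nonneg x

omit [DecidableEq ι] in
lemma pw_nonneg (ξ : ι → ℝ) : 0 ≤ pw T k ξ := Finset.sum_nonneg fun _ _ => even_pow_nonneg _ _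

omit [DecidableEq ι] in
lemma pw_pos (hT : ∀ ξ : ι → ℝ, ξ ≠ 0 → ∃ v ∈ T, v ⬝ᵥ ξ ≠ 0) (hk : 0 < k) (hξ : ξ ≠ 0) :
    0 < pw T k ξ := by
  obtain ⟨v, hv, h0⟩ := hT ξ hξ
  refine Finset.sum_pos' (fun _ _ => even_pow_nonneg _ _) ⟨v, hv, ?_⟩
  exact (even_two_mul k).pow_pos h0

omit [DecidableEq ι] in
lemma contDiff_dot_left (v : ι → ℝ) : ContDiff ℝ 2 (fun ξ : ι → ℝ => v ⬝ᵥ ξ) := by
  unfold dotProduct
  exact ContDiff.sum fun a _ => contDiff_const.mul (contDiff_apply ℝ ℝ a)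

omit [DecidableEq ι] in
lemma contDiff_pw : ContDiff ℝ 2 (pw T k) := by
  unfold pw
  exact ContDiff.sum fun v _ => (contDiff_dot_left v).pow _

omit [DecidableEq ι] in
lemma pw_neg (ξ : ι → ℝ) : pw T k (-ξ) = pw T k ξ := by
  unfold pw
  refine Finset.sum_congr rfl fun v _ => ?_
  rw [dotProduct_neg, (even_two_mul k).neg_pow]

omit [DecidableEq ι] in
lemma pw_smul (r : ℝ) (ξ : ι → ℝ) : pw T k (r • ξ) = r ^ (2 * k) * pw T k ξ := by
  unfold pw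
  rw [Finset.mul_sum]
  refine Finset.sum_congr rfl fun v _ => ?_
  rw [dotProduct_smul, smul_eq_mul, mul_pow]

omit [DecidableEq ι] in
lemma isHom2_pn (hT : ∀ ξ : ι → ℝ, ξ ≠ 0 → ∃ v ∈ T, v ⬝ᵥ ξ ≠ 0) (hk : 0 < k) :
    IsHom2 (pn T k) where
  cd := by
    intro x hx
    have hx' : x ≠ 0 := hx
    have h1 : ContDiffAt ℝ 2 (pn T k) x :=
      ContDiffAt.rpow_const_of_ne (contDiff_pw.contDiffAt) (pw_pos hT hk hx').ne'
    exact h1.contDiffWithinAt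
  even ξ := by simp only [pn, pw_neg]
  smul r ξ hr := by
    have h2k : 2 * k ≠ 0 := by omega
    simp only [pn]
    rw [pw_smul, Real.mul_rpow (by positivity) (pw_nonneg ξ),
      Real.pow_rpow_inv_natCast hr.le h2k]

omit [DecidableEq ι] in
lemma abs_rpow_aux (x : ℝ) (hk : 0 < k) : (x ^ (2 * k)) ^ (((2 * k : ℕ) : ℝ)⁻¹) = |x| := by
  have h2k : 2 * k ≠ 0 := by omega
  rw [← (even_two_mul k).pow_abs, Real.pow_rpow_inv_natCast (abs_nonneg x) h2k]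

omit [DecidableEq ι] in
lemma pn_nonneg (ξ : ι → ℝ) : 0 ≤ pn T k ξ := Real.rpow_nonneg (pw_nonneg ξ) _

omit [DecidableEq ι] in
lemma le_pn (hk : 0 < k) {v : ι → ℝ} (hv : v ∈ T) (ξ : ι → ℝ) : |v ⬝ᵥ ξ| ≤ pn T k ξ := by
  rw [← abs_rpow_aux (v ⬝ᵥ ξ) hk]
  apply Real.rpow_le_rpow (even_pow_nonneg _ _) _ (by positivity)
  exact Finset.single_le_sum (f := fun v => (v ⬝ᵥ ξ) ^ (2 * k))
    (fun _ _ => even_pow_nonneg _ _) hv

omit [DecidableEq ι] in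
lemma pn_le (hk : 0 < k) {B : ℝ} (hB : 0 ≤ B) (ξ : ι → ℝ) (hb : ∀ v ∈ T, |v ⬝ᵥ ξ| ≤ B) :
    pn T k ξ ≤ (T.card : ℝ) ^ (((2 * k : ℕ) : ℝ)⁻¹) * B := by
  have h2k : 2 * k ≠ 0 := by omega
  have h1 : pw T k ξ ≤ (T.card : ℝ) * B ^ (2 * k) := by
    unfold pw
    rw [← nsmul_eq_mul]
    refine Finset.sum_le_card_nsmul _ _ _ fun v hv => ?_
    rw [← (even_two_mul k).pow_abs]
    exact pow_le_pow_left₀ (abs_nonneg _) (hb v hv) _
  calc pn T k ξ ≤ ((T.card : ℝ) * B ^ (2 * k)) ^ (((2 * k : ℕ) : ℝ)⁻¹) :=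
        Real.rpow_le_rpow (pw_nonneg ξ) h1 (by positivity)
    _ = _ := by
        rw [Real.mul_rpow (by positivity) (by positivity), Real.pow_rpow_inv_natCast hB h2k]

omit [DecidableEq ι] in
/-- Minkowski's inequality. -/
lemma pn_add_le (hk : 0 < k) (u v : ι → ℝ) : pn T k (u + v) ≤ pn T k u + pn T k v := by
  have h2k : (1 : ℝ) ≤ ((2 * k : ℕ) : ℝ) := by
    have : 1 ≤ 2 * k := by omega
    exact_mod_cast this
  have h1 := Real.Lp_add_le T (fun w => w ⬝ᵥ u) (fun w => w ⬝ᵥ v) h2k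
  have e : ∀ x : ℝ, |x| ^ (((2 * k : ℕ) : ℝ)) = x ^ (2 * k) := by
    intro x
    rw [Real.rpow_natCast, (even_two_mul k).pow_abs]
  simp only [e, ← dotProduct_add, one_div] at h1
  exact h1

omit [DecidableEq ι] in
lemma isC2Plus_apx (hT : ∀ ξ : ι → ℝ, ξ ≠ 0 → ∃ v ∈ T, v ⬝ᵥ ξ ≠ 0) (hk : 0 < k) {ε : ℝ}
    (hε : 0 < ε) : IsC2Plus (apx T k ε) := by
  have h1 := isHom2_pn hT hk
  have h2 := isHom2_en (ι := ι)
  refine { toIsHom2 := h1.add (h2.const_mul ε), pos := ?_, hess := ?_ }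
  · intro ξ hξ
    have a1 : 0 < pn T k ξ := Real.rpow_pos_of_pos (pw_pos hT hk hξ) _
    have a2 := en_pos hξ
    simp only [apx]
    positivity
  · intro ξ hξ w hw
    have a1 := h1.D2_nonneg_of_subadd (pn_add_le hk) hξ w
    have a2 := D2_en_pos hξ hw
    have e : (apx T k ε) = fun x => pn T k x + ε * en x := rfl
    rw [e, h1.D2_add (h2.const_mul ε) hξ, h2.D2_const_mul ε hξ]
    positivity

lemma pw_refl {i : ι} (hT : ∀ v ∈ T, refl i v ∈ T) (ξ : ι → ℝ) : pw T k (refl i ξ) = pw T k ξ := by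
  unfold pw
  have e : ∀ v : ι → ℝ, v ⬝ᵥ refl i ξ = refl i v ⬝ᵥ ξ := fun v => (refl_dot i v ξ).symm
  simp only [e]
  refine Finset.sum_nbij' (refl i) (refl i) hT hT (fun v _ => refl_refl i v)
    (fun v _ => refl_refl i v) (fun v _ => rfl)

lemma en_refl (i : ι) (ξ : ι → ℝ) : en (refl i ξ) = en ξ := by
  simp only [en]
  rw [refl_dot, refl_refl]

lemma apx_refl {i : ι} (hT : ∀ v ∈ T, refl i v ∈ T) (ε : ℝ) (ξ : ι → ℝ) :
    apx T k ε (refl i ξ) = apx T k ε ξ := by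
  simp only [apx, pn, pw_refl hT, en_refl]

end

end Vale.Agent.Lib.P227L
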