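import Mathlib
import Vale.Agent.Lib.P227L.Approx2

/-!
# Smooth approximation of support functions: finite nets
-/

open MeasureTheory Set Filter Topology
open scoped ENNReal Matrix

namespace Vale.Agent.Lib.P227L

variable {ι : Type} [Fintype ι] [DecidableEq ι] {S : Set (ι → ℝ)} {g : (ι → ℝ) → ℝ}

omit [DecidableEq ι] in
lemma abs_apply_le_en (ξ : ι → ℝ) (a : ι) : |ξ a| ≤ en ξ := by
  apply Real.abs_le_sqrt
  rw [pow_two]
  exact Finset.single_le_sum (f := fun j => ξ j * ξ j) (fun j _ => mul_self_nonneg _)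
    (Finset.mem_univ a)

omit [DecidableEq ι] in
lemma dot_le_of_abs_le {x ξ : ι → ℝ} {δ : ℝ} (hδ : 0 ≤ δ) (h : ∀ a, |x a| ≤ δ) :
    x ⬝ᵥ ξ ≤ δ * (Fintype.card ι : ℝ) * en ξ := by
  unfold dotProduct
  calc ∑ a, x a * ξ a ≤ ∑ _a : ι, δ * en ξ := by
        refine Finset.sum_le_sum fun a _ => ?_
        calc x a * ξ a ≤ |x a * ξ a| := le_abs_self _
          _ = |x a| * |ξ a| := abs_mul _ _
          _ ≤ _ := mul_le_mul (h a) (abs_apply_le_en ξ a) (abs_nonneg _) hδ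
    _ = _ := by
        simp only [Finset.sum_const, Finset.card_univ, nsmul_eq_mul]
        ring

omit [DecidableEq ι] in
lemma exists_net (hS : IsCompact S) {δ : ℝ} (hδ : 0 < δ) :
    ∃ T₀ : Finset (ι → ℝ), (∀ t ∈ T₀, t ∈ S) ∧ ∀ x ∈ S, ∃ t ∈ T₀, ∀ a, |x a - t a| ≤ δ := by
  obtain ⟨t, hts, htf, hcov⟩ := hS.finite_cover_balls hδ
  refine ⟨htf.toFinset, fun x hx => hts (htf.mem_toFinset.1 hx), fun x hx => ?_⟩
  have h1 := hcov hx
  simp only [mem_iUnion, exists_prop] at h1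
  obtain ⟨y, hy, hxy⟩ := h1
  refine ⟨y, htf.mem_toFinset.2 hy, fun a => ?_⟩
  have h2 : dist (x a) (y a) ≤ dist x y := dist_le_pi_dist x y a
  rw [Real.dist_eq] at h2
  exact h2.trans (Metric.mem_ball.1 hxy).le

omit [Fintype ι] [DecidableEq ι] in
lemma exists_k (N : ℕ) {δ : ℝ} (hδ : 0 < δ) :
    ∃ k : ℕ, 0 < k ∧ (N : ℝ) ^ (((2 * k : ℕ) : ℝ)⁻¹) ≤ 1 + δ := by
  obtain ⟨m, hm⟩ := pow_unbounded_of_one_lt (N : ℝ) (by linarith : (1 : ℝ) < 1 + δ)
  refine ⟨m + 1, by omega, ?_⟩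
  have h2k : 2 * (m + 1) ≠ 0 := by omega
  have h1 : (N : ℝ) ≤ (1 + δ) ^ (2 * (m + 1)) := by
    refine hm.le.trans (pow_le_pow_right₀ (by linarith) (by omega))
  calc (N : ℝ) ^ (((2 * (m + 1) : ℕ) : ℝ)⁻¹)
      ≤ ((1 + δ) ^ (2 * (m + 1))) ^ (((2 * (m + 1) : ℕ) : ℝ)⁻¹) :=
        Real.rpow_le_rpow (by positivity) h1 (by positivity)
    _ = 1 + δ := Real.pow_rpow_inv_natCast (by linarith) h2k

omit [DecidableEq ι] in
lemma IsSupportFn.nonempty (hg : IsSupportFn S g) : S.Nonempty := by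
  by_contra he
  rw [Set.not_nonempty_iff_eq_empty] at he
  have h1 := hg 0
  rw [he, Set.image_empty] at h1
  have h2 : g 0 ≤ g 0 - 1 := h1.2 (by simp)
  linarith

omit [DecidableEq ι] in
lemma IsSupportFn.nonneg (hg : IsSupportFn S g) (hsym : ∀ x ∈ S, -x ∈ S) (ξ : ι → ℝ) : 0 ≤ g ξ := by
  obtain ⟨x, hx⟩ := hg.nonempty
  have h1 := (hg ξ).1 ⟨x, hx, rfl⟩
  have h2 := (hg ξ).1 ⟨-x, hsym x hx, rfl⟩
  simp only [neg_dotProduct] at h2
  linarith

omit [DecidableEq ι] in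
lemma IsSupportFn.abs_dot_le (hg : IsSupportFn S g) (hsym : ∀ x ∈ S, -x ∈ S) {x : ι → ℝ}
    (hx : x ∈ S) (ξ : ι → ℝ) : |x ⬝ᵥ ξ| ≤ g ξ := by
  have h1 := (hg ξ).1 ⟨x, hx, rfl⟩
  have h2 := (hg ξ).1 ⟨-x, hsym x hx, rfl⟩
  simp only [neg_dotProduct] at h2
  exact abs_le.2 ⟨by linarith, h1⟩

omit [DecidableEq ι] in
lemma IsSupportFn.exists_bound (hg : IsSupportFn S g) (hS : IsCompact S) :
    ∃ R : ℝ, 0 ≤ R ∧ ∀ ξ, g ξ ≤ R * en ξ := by
  obtain ⟨R₀, hR₀⟩ := hS.isBounded.subset_closedBall (0 : ι → ℝ)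
  set R₁ := max R₀ 0 with hR₁
  refine ⟨R₁ * (Fintype.card ι : ℝ), by positivity, fun ξ => ?_⟩
  apply (hg ξ).2
  rintro _ ⟨x, hx, rfl⟩
  simp only
  apply dot_le_of_abs_le (le_max_right _ _)
  intro a
  have h1 := hR₀ hx
  rw [mem_closedBall_zero_iff] at h1
  have h2 := norm_le_pi_norm x a
  rw [Real.norm_eq_abs] at h2
  exact (h2.trans h1).trans (le_max_left _ _)

omit [DecidableEq ι] in
/-- The bounds on the approximant. -/
lemma apx_bounds (hg : IsSupportFn S g) {T : Finset (ι → ℝ)} {k : ℕ} {δ R ε : ℝ} (hk : 0 < k)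
    (hδ0 : 0 ≤ δ) (hδ1 : δ ≤ 1) (hε : 0 ≤ ε) (hR0 : 0 ≤ R) (hR : ∀ ξ, g ξ ≤ R * en ξ)
    (hg0 : ∀ ξ, 0 ≤ g ξ) (h1 : ∀ v ∈ T, ∀ ξ, |v ⬝ᵥ ξ| ≤ g ξ + δ * en ξ)
    (h2 : ∀ x ∈ S, ∃ t ∈ T, ∀ a, |x a - t a| ≤ δ)
    (h3 : (T.card : ℝ) ^ (((2 * k : ℕ) : ℝ)⁻¹) ≤ 1 + δ) (ξ : ι → ℝ) :
    |apx T k ε ξ - g ξ| ≤ (δ * (R + 2 + (Fintype.card ι : ℝ)) + ε) * en ξ := by
  have he := en_nonneg ξ
  set n : ℝ := (Fintype.card ι : ℝ) with hn
  have hn0 : 0 ≤ n := by positivity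
  have hB : 0 ≤ g ξ + δ * en ξ := add_nonneg (hg0 ξ) (by positivity)
  have hup := pn_le hk hB ξ (fun v hv => h1 v hv ξ)
  have hup2 : pn T k ξ ≤ (1 + δ) * (g ξ + δ * en ξ) :=
    hup.trans (mul_le_mul_of_nonneg_right h3 hB)
  have hlow : g ξ ≤ pn T k ξ + δ * n * en ξ := by
    apply (hg ξ).2
    rintro _ ⟨x, hx, rfl⟩
    obtain ⟨t, ht, hxt⟩ := h2 x hx
    simp only
    have e : x ⬝ᵥ ξ = t ⬝ᵥ ξ + (x - t) ⬝ᵥ ξ := by
      rw [sub_dotProduct]
      ring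
    have a1 := (le_abs_self _).trans (le_pn hk ht ξ)
    have a2 := dot_le_of_abs_le (x := x - t) (ξ := ξ) hδ0 (fun a => by
      simpa using hxt a)
    rw [e]
    linarith
  have hg1 := hR ξ
  simp only [apx]
  rw [abs_le]
  constructor
  · have a1 : 0 ≤ ε * en ξ := by positivity
    have a2 : 0 ≤ δ * (R + 2) * en ξ := by positivity
    nlinarith
  · have a1 : δ * g ξ ≤ δ * (R * en ξ) := mul_le_mul_of_nonneg_left hg1 hδ0
    have a2 : (1 + δ) * (δ * en ξ) ≤ 2 * (δ * en ξ) :=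
      mul_le_mul_of_nonneg_right (by linarith) (by positivity)
    have a3 : 0 ≤ δ * n * en ξ := by positivity
    have e1 : (1 + δ) * (g ξ + δ * en ξ) = g ξ + δ * g ξ + (1 + δ) * (δ * en ξ) := by ring
    have e2 : (δ * (R + 2 + n) + ε) * en ξ
        = δ * (R * en ξ) + 2 * (δ * en ξ) + δ * n * en ξ + ε * en ξ := by ring
    rw [e2]
    linarith

omit [DecidableEq ι] in
/-- The choice of the parameters. -/
lemma exists_params {R n η : ℝ} (hR0 : 0 ≤ R) (hn : 0 ≤ n) (hη : 0 < η) :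
    ∃ δ : ℝ, 0 < δ ∧ δ ≤ 1 ∧ δ * (R + 2 + n) + η / 2 ≤ η := by
  refine ⟨min 1 (η / (2 * (R + 2 + n))), lt_min one_pos (by positivity), min_le_left _ _, ?_⟩
  have h1 : min 1 (η / (2 * (R + 2 + n))) * (R + 2 + n) ≤ η / (2 * (R + 2 + n)) * (R + 2 + n) :=
    mul_le_mul_of_nonneg_right (min_le_right _ _) (by positivity)
  have h2 : η / (2 * (R + 2 + n)) * (R + 2 + n) = η / 2 := by
    field_simp
  linarith

/-- Smooth approximation of a support function. -/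
theorem exists_approx (hS : IsCompact S) (hsym : ∀ x ∈ S, -x ∈ S) (hg : IsSupportFn S g) {η : ℝ}
    (hη : 0 < η) : ∃ H : (ι → ℝ) → ℝ, IsC2Plus H ∧ ∀ ξ, |H ξ - g ξ| ≤ η * en ξ := by
  obtain ⟨R, hR0, hR⟩ := hg.exists_bound hS
  obtain ⟨δ, hδ0, hδ1, hδ⟩ := exists_params (n := (Fintype.card ι : ℝ)) hR0 (by positivity) hη
  obtain ⟨T₀, hT₀, hnet⟩ := exists_net hS hδ0
  set T : Finset (ι → ℝ) := T₀ ∪ Finset.univ.image (fun a => δ • ee a) with hT
  obtain ⟨k, hk, hk'⟩ := exists_k T.card hδ0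
  have hspan : ∀ ξ : ι → ℝ, ξ ≠ 0 → ∃ v ∈ T, v ⬝ᵥ ξ ≠ 0 := by
    intro ξ hξ
    obtain ⟨a, ha⟩ := Function.ne_iff.1 hξ
    refine ⟨δ • ee a, Finset.mem_union_right _ (Finset.mem_image_of_mem _ (Finset.mem_univ a)), ?_⟩
    simp only [smul_dotProduct, smul_eq_mul, ee, single_dotProduct, one_mul]
    exact mul_ne_zero hδ0.ne' ha
  refine ⟨apx T k (η / 2), isC2Plus_apx hspan hk (by positivity), fun ξ => ?_⟩
  have hb := apx_bounds hg (T := T) (ε := η / 2) hk hδ0.le hδ1 (by positivity) hR0 hR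
    (hg.nonneg hsym) (fun v hv ξ => ?_) (fun x hx => ?_) hk' ξ
  · refine hb.trans (mul_le_mul_of_nonneg_right hδ (en_nonneg ξ))
  · rcases Finset.mem_union.1 hv with hv | hv
    · have := hg.abs_dot_le hsym (hT₀ v hv) ξ
      have h0 : 0 ≤ δ * en ξ := mul_nonneg hδ0.le (en_nonneg ξ)
      linarith
    · obtain ⟨a, -, rfl⟩ := Finset.mem_image.1 hv
      simp only [smul_dotProduct, smul_eq_mul, ee, single_dotProduct, one_mul, abs_mul,
        abs_of_pos hδ0]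
      have h0 := hg.nonneg hsym ξ
      have h1 := mul_le_mul_of_nonneg_left (abs_apply_le_en ξ a) hδ0.le
      linarith
  · obtain ⟨t, ht, h⟩ := hnet x hx
    exact ⟨t, Finset.mem_union_left _ ht, h⟩

/-! ### Invariance under coordinate reflections -/

lemma reflS_dot (s : Finset ι) (x u : ι → ℝ) : reflS s x ⬝ᵥ u = x ⬝ᵥ reflS s u := by
  simp only [dotProduct, reflS]
  refine Finset.sum_congr rfl fun k _ => ?_
  split_ifs <;> ring

lemma abs_reflS_apply (s : Finset ι) (x : ι → ℝ) (a : ι) : |reflS s x a| = |x a| := by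
  simp only [reflS]
  split_ifs <;> simp

lemma refl_reflS (i : ι) (s : Finset ι) (x : ι → ℝ) :
    ∃ s', refl i (reflS s x) = reflS s' x := by
  by_cases hi : i ∈ s
  · refine ⟨s.erase i, ?_⟩
    have e : reflS s x = refl i (reflS (s.erase i) x) := by
      rw [← reflS_insert (Finset.notMem_erase i s), Finset.insert_erase hi]
    rw [e, refl_refl]
  · exact ⟨insert i s, (reflS_insert hi x).symm⟩

/-- The reflection closure of a finite set. -/
noncomputable def flipClosure (T : Finset (ι → ℝ)) : Finset (ι → ℝ) :=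
  T.biUnion fun x => (Finset.univ : Finset (Finset ι)).image fun s => reflS s x

lemma mem_flipClosure {T : Finset (ι → ℝ)} {v : ι → ℝ} :
    v ∈ flipClosure T ↔ ∃ x ∈ T, ∃ s, v = reflS s x := by
  simp only [flipClosure, Finset.mem_biUnion, Finset.mem_image, Finset.mem_univ, true_and]
  constructor
  · rintro ⟨x, hx, s, rfl⟩
    exact ⟨x, hx, s, rfl⟩
  · rintro ⟨x, hx, s, rfl⟩
    exact ⟨x, hx, s, rfl⟩

lemma subset_flipClosure (T : Finset (ι → ℝ)) : T ⊆ flipClosure T := by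
  intro x hx
  exact mem_flipClosure.2 ⟨x, hx, ∅, (reflS_empty x).symm⟩

lemma flipClosure_closed (T : Finset (ι → ℝ)) (i : ι) :
    ∀ v ∈ flipClosure T, refl i v ∈ flipClosure T := by
  intro v hv
  obtain ⟨x, hx, s, rfl⟩ := mem_flipClosure.1 hv
  obtain ⟨s', hs'⟩ := refl_reflS i s x
  exact mem_flipClosure.2 ⟨x, hx, s', hs'⟩

/-- Smooth approximation of a support function invariant under all coordinate reflections. -/
theorem exists_approx_flip (hS : IsCompact S) (hsym : ∀ x ∈ S, -x ∈ S) (hg : IsSupportFn S g)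
    (hflip : ∀ i, ∀ x ∈ S, refl i x ∈ S) {η : ℝ} (hη : 0 < η) :
    ∃ H : (ι → ℝ) → ℝ, IsC2Plus H ∧ (∀ i ξ, H (refl i ξ) = H ξ) ∧ ∀ ξ, |H ξ - g ξ| ≤ η * en ξ := by
  obtain ⟨R, hR0, hR⟩ := hg.exists_bound hS
  obtain ⟨δ, hδ0, hδ1, hδ⟩ := exists_params (n := (Fintype.card ι : ℝ)) hR0 (by positivity) hη
  obtain ⟨T₀, hT₀, hnet⟩ := exists_net hS hδ0
  set T : Finset (ι → ℝ) := flipClosure (T₀ ∪ Finset.univ.image (fun a => δ • ee a)) with hT
  obtain ⟨k, hk, hk'⟩ := exists_k T.card hδ0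
  have hspan : ∀ ξ : ι → ℝ, ξ ≠ 0 → ∃ v ∈ T, v ⬝ᵥ ξ ≠ 0 := by
    intro ξ hξ
    obtain ⟨a, ha⟩ := Function.ne_iff.1 hξ
    refine ⟨δ • ee a, subset_flipClosure _
      (Finset.mem_union_right _ (Finset.mem_image_of_mem _ (Finset.mem_univ a))), ?_⟩
    simp only [smul_dotProduct, smul_eq_mul, ee, single_dotProduct, one_mul]
    exact mul_ne_zero hδ0.ne' ha
  refine ⟨apx T k (η / 2), isC2Plus_apx hspan hk (by positivity),
    fun i ξ => apx_refl (flipClosure_closed _ i) _ ξ, fun ξ => ?_⟩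
  have hb := apx_bounds hg (T := T) (ε := η / 2) hk hδ0.le hδ1 (by positivity) hR0 hR
    (hg.nonneg hsym) (fun v hv ξ => ?_) (fun x hx => ?_) hk' ξ
  · refine hb.trans (mul_le_mul_of_nonneg_right hδ (en_nonneg ξ))
  · obtain ⟨x, hx, s, rfl⟩ := mem_flipClosure.1 hv
    rcases Finset.mem_union.1 hx with hx | hx
    · have := hg.abs_dot_le hsym (mem_reflS hflip s (hT₀ x hx)) ξ
      have h0 : 0 ≤ δ * en ξ := mul_nonneg hδ0.le (en_nonneg ξ)
      linarith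
    · obtain ⟨a, -, rfl⟩ := Finset.mem_image.1 hx
      rw [reflS_dot]
      simp only [smul_dotProduct, smul_eq_mul, ee, single_dotProduct, one_mul, abs_mul,
        abs_of_pos hδ0, abs_reflS_apply]
      have h0 := hg.nonneg hsym ξ
      have h1 := mul_le_mul_of_nonneg_left (abs_apply_le_en ξ a) hδ0.le
      linarith
  · obtain ⟨t, ht, h⟩ := hnet x hx
    exact ⟨t, subset_flipClosure _ (Finset.mem_union_left _ ht), h⟩

end Vale.Agent.Lib.P227L
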